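import Mathlib

/-! Definitions: microstates and non-microstates free entropy. -/

namespace Vale.Agent.P087

open MeasureTheory Filter
open scoped ENNReal InnerProductSpace

/-- The algebra `B(H)` of bounded operators on a Hilbert space. -/
abbrev Bdd (H : Type) [NormedAddCommGroup H] [InnerProductSpace ℂ H] : Type := H →L[ℂ] H

/-- The monomial `X_{i₁} ⋯ X_{i_p}` for the word `w = [i₁, …, i_p]`. -/
def word {A ι : Type} [Monoid A] (X : ι → A) (w : List ι) : A := (w.map X).prod

/-! ### Microstates free entropy -/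

/-- Euclidean coordinates on the self-adjoint `k × k` matrices: `herm` is a linear bijection from
`ℝ^(k × k)` onto them, and an isometry for `⟨A, B⟩ = Tr (A B)` (see the three lemmas below). -/
noncomputable def herm {k : ℕ} (x : Fin k × Fin k → ℝ) : Matrix (Fin k) (Fin k) ℂ :=
  Matrix.of fun i j => ((1 + Complex.I) * x (i, j) + (1 - Complex.I) * x (j, i)) / 2

theorem herm_isHermitian {k : ℕ} (x : Fin k × Fin k → ℝ) : (herm x).IsHermitian := by
  ext i j
  simp only [herm, Matrix.conjTranspose_apply, Matrix.of_apply, star_div₀, star_add, star_mul',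
    star_sub, star_one, Complex.star_def, Complex.conj_I, Complex.conj_ofReal, star_ofNat]
  ring

theorem herm_surjective {k : ℕ} (A : Matrix (Fin k) (Fin k) ℂ) (hA : A.IsHermitian) :
    herm (fun p => (A p.1 p.2).re + (A p.1 p.2).im) = A := by
  ext i j
  have h := hA.apply j i
  apply Complex.ext
  · have := congrArg Complex.re h
    simp [herm] at this ⊢
    have h2 := congrArg Complex.im h
    simp at h2
    linarith
  · have := congrArg Complex.re h
    simp [herm] at this ⊢
    have h2 := congrArg Complex.im h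
    simp at h2
    linarith

theorem trace_herm_mul {k : ℕ} (x y : Fin k × Fin k → ℝ) :
    (herm x * herm y).trace = ((∑ p, x p * y p : ℝ) : ℂ) := by
  have h1 : (herm x * herm y).trace = ∑ i, ∑ j,
      (((x (i, j) * y (i, j) : ℝ) : ℂ) / 2 + ((x (j, i) * y (j, i) : ℝ) : ℂ) / 2 +
        (Complex.I * x (i, j) * y (j, i) / 2 - Complex.I * x (j, i) * y (i, j) / 2)) := by
    simp only [Matrix.trace, Matrix.diag, Matrix.mul_apply, herm, Matrix.of_apply]
    refine Finset.sum_congr rfl fun i _ => Finset.sum_congr rfl fun j _ => ?_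
    push_cast
    linear_combination (x (i, j) * y (j, i) / 4 - x (i, j) * y (i, j) / 4 -
      x (j, i) * y (j, i) / 4 + x (j, i) * y (i, j) / 4 : ℂ) * Complex.I_mul_I
  rw [h1]
  simp only [Finset.sum_add_distrib, Finset.sum_sub_distrib]
  rw [Finset.sum_comm (f := fun i j => ((x (j, i) * y (j, i) : ℝ) : ℂ) / 2),
    Finset.sum_comm (f := fun i j => Complex.I * x (j, i) * y (i, j) / 2), sub_self, add_zero,
    Fintype.sum_prod_type]
  push_cast
  simp only [← Finset.sum_add_distrib, add_halves]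

/-- The `n`-tuple of self-adjoint matrices with coordinates `x ∈ ℝ^(n k²)`. -/
noncomputable def tuple {n k : ℕ} (x : Fin n × Fin k × Fin k → ℝ) (j : Fin n) :
    Matrix (Fin k) (Fin k) ℂ :=
  herm fun p => x (j, p)

/-- The operator norm of `A` is at most `R`: `‖A v‖² ≤ R² ‖v‖²` for all `v ∈ ℂ^k`. -/
def OpLe {k : ℕ} (A : Matrix (Fin k) (Fin k) ℂ) (R : ℝ) : Prop :=
  ∀ v : Fin k → ℂ, ∑ i, ‖A.mulVec v i‖ ^ 2 ≤ R ^ 2 * ∑ i, ‖v i‖ ^ 2

/-- The microstate space `Γ_R(X; m, k, ε)` in Euclidean coordinates, for the tuple with joint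
moments `φ w = τ(X_{i₁} ⋯ X_{i_p})`. -/
def microstates {n : ℕ} (φ : List (Fin n) → ℂ) (R : ℝ) (m k : ℕ) (ε : ℝ) :
    Set (Fin n × Fin k × Fin k → ℝ) :=
  {x | (∀ j, OpLe (tuple x j) R) ∧ ∀ w : List (Fin n), 1 ≤ w.length → w.length ≤ m →
    ‖(word (tuple x) w).trace / k - φ w‖ < ε}

/-- `χ_R`. -/
noncomputable def chiR {n : ℕ} (φ : List (Fin n) → ℂ) (R : ℝ) : EReal :=
  ⨅ (m : ℕ) (ε : ℝ) (_ : 0 < ε), limsup (fun k : ℕ =>
    ((((k : ℝ) ^ 2)⁻¹ : ℝ) : EReal) * ENNReal.log (volume (microstates φ R m k ε)) +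
      ((n / 2 * Real.log k : ℝ) : EReal)) atTop

/-- The microstates free entropy `χ` of a tuple with joint moments `φ`. -/
noncomputable def chi {n : ℕ} (φ : List (Fin n) → ℂ) : EReal :=
  ⨆ (R : ℝ) (_ : 0 < R), chiR φ R

/-! ### Tracial von Neumann algebras, freeness -/

section

variable {H : Type} [NormedAddCommGroup H] [InnerProductSpace ℂ H]

/-- The vector state `τ(T) = ⟨Ω, T Ω⟩`. -/
noncomputable def tau (Ω : H) (T : Bdd H) : ℂ := ⟪Ω, T Ω⟫_ℂ

/-- The joint moments `τ(X_{i₁} ⋯ X_{i_p})`. -/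
noncomputable def law {ι : Type} (Ω : H) (X : ι → Bdd H) (w : List ι) : ℂ := tau Ω (word X w)

/-- The vector state of the unit vector `Ω` is a faithful tracial state on `M`
(it is normal, being a vector state). -/
def IsTracial [CompleteSpace H] (M : VonNeumannAlgebra H) (Ω : H) : Prop :=
  ‖Ω‖ = 1 ∧ (∀ x ∈ M, ∀ y ∈ M, tau Ω (x * y) = tau Ω (y * x)) ∧
    ∀ x ∈ M, tau Ω (star x * x) = 0 → x = 0

end

/-- Free independence of a family of unital subalgebras: alternating products of centred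
elements are centred. -/
def FreeIndep {A ι : Type} [Ring A] [Algebra ℂ A] (τ : A → ℂ) (B : ι → Subalgebra ℂ A) : Prop :=
  ∀ l : List (ι × A), l ≠ [] → l.IsChain (fun p q => p.1 ≠ q.1) →
    (∀ p ∈ l, p.2 ∈ B p.1 ∧ τ p.2 = 0) → τ (l.map Prod.snd).prod = 0

/-- The moments of the standard semicircular law: Catalan numbers in even degree, zero in odd
degree. -/
def Semicircular {A : Type} [Monoid A] (τ : A → ℂ) (s : A) : Prop :=
  ∀ p : ℕ, τ (s ^ (2 * p)) = catalan p ∧ τ (s ^ (2 * p + 1)) = 0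

/-- The family of algebras: the one generated by `X`, and the ones generated by each `S j`. -/
def genAlg {A : Type} [Ring A] [Algebra ℂ A] {n : ℕ} (X S : Fin n → A) :
    Option (Fin n) → Subalgebra ℂ A
  | none => Algebra.adjoin ℂ (Set.range X)
  | some j => Algebra.adjoin ℂ {S j}

/-! ### Non-microstates free entropy -/

/-- `(τ ⊗ τ)(∂_j w)` for a monomial `w`, where `φ` is the joint moment function. -/
noncomputable def dq {ι : Type} [DecidableEq ι] (φ : List ι → ℂ) (j : ι) (w : List ι) : ℂ :=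
  ∑ p ∈ Finset.range w.length, if w[p]? = some j then φ (w.take p) * φ (w.drop (p + 1)) else 0

section

variable {H : Type} [NormedAddCommGroup H] [InnerProductSpace ℂ H] {n : ℕ}

/-- `ξ` is a conjugate variable for `X j`: it lies in `L²(W*(X), τ)`, the closed span of the
vectors `P(X) Ω`, and `τ(ξ P(X)) = ⟨Ω, P(X) ξ⟩ = (τ ⊗ τ)(∂_j P(X))` for all monomials `P`. -/
def IsConj (Ω : H) (X : Fin n → Bdd H) (j : Fin n) (ξ : H) : Prop :=
  ξ ∈ closure (Submodule.span ℂ (Set.range fun w : List (Fin n) => word X w Ω) : Set H) ∧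
    ∀ w : List (Fin n), ⟪Ω, word X w ξ⟫_ℂ = dq (law Ω X) j w

/-- The free Fisher information `Φ*(X)`; it is `∞` when conjugate variables do not exist. -/
noncomputable def fisher (Ω : H) (X : Fin n → Bdd H) : ℝ≥0∞ :=
  ⨅ (ξ : Fin n → H) (_ : ∀ j, IsConj Ω X j (ξ j)), ∑ j, ENNReal.ofReal (‖ξ j‖ ^ 2)

/-- `Φ*(X + √t S)`. -/
noncomputable def fisherAt (Ω : H) (X S : Fin n → Bdd H) (t : ℝ) : ℝ≥0∞ :=
  fisher Ω fun j => X j + ((Real.sqrt t : ℝ) : ℂ) • S j

/-- The non-microstates free entropy `χ*(X)`. The integral of `n / (1 + t) - Φ*(X + √t S)` is the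
integral of its positive part minus the integral of its negative part (subtraction in `ℝ≥0∞` is
truncated at `0`). -/
noncomputable def chiStar (Ω : H) (X S : Fin n → Bdd H) : EReal :=
  ((1 / 2 : ℝ) : EReal) *
    (((∫⁻ t in Set.Ioi (0 : ℝ), (ENNReal.ofReal (n / (1 + t)) - fisherAt Ω X S t) : ℝ≥0∞) : EReal) -
      ((∫⁻ t in Set.Ioi (0 : ℝ), (fisherAt Ω X S t - ENNReal.ofReal (n / (1 + t))) : ℝ≥0∞) :
        EReal)) +
    ((n / 2 * Real.log (2 * Real.pi * Real.exp 1) : ℝ) : EReal)

end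

end Vale.Agent.P087
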