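import Vale.Agent.P087.Fock4

/-! The level zero part `t` of the dual operator, and the energy estimate. -/

set_option linter.unusedSectionVars false

namespace Vale.Agent.P087

open scoped InnerProductSpace ENNReal
open Wd

section Sums

variable {F Λ : Type} [Group F]

/-- Case decomposition of words. -/
def wdEquiv : F ⊕ (Λ × Wd F Λ × F) ≃ Wd F Λ where
  toFun
    | Sum.inl x => nil x
    | Sum.inr p => cons p.2.2 p.1 p.2.1
  invFun
    | nil x => Sum.inl x
    | cons x σ r => Sum.inr (σ, r, x)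
  left_inv := by rintro (x | ⟨σ, r, x⟩) <;> rfl
  right_inv := by rintro (x | ⟨x, σ, r⟩) <;> rfl

theorem tsum_wd [Fintype Λ] (G : Wd F Λ → ℝ≥0∞) :
    ∑' ω, G ω = ∑' x, G (nil x) + ∑ σ, ∑' r, ∑' x, G (cons x σ r) := by
  rw [← wdEquiv.tsum_eq, Summable.tsum_sum ENNReal.summable ENNReal.summable, ENNReal.tsum_prod',
    tsum_fintype (β := Λ)]
  congr 1
  refine Finset.sum_congr rfl fun σ _ => ?_
  rw [ENNReal.tsum_prod']
  rfl

theorem tsum_wd_le [Fintype Λ] (G : Wd F Λ → ℝ≥0∞) (A : ℝ≥0∞) (q : Λ → ℝ≥0∞)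
    (h0 : ∑' x, G (nil x) ≤ A) (h1 : ∀ σ r, ∑' x, G (cons x σ r) ≤ q σ * G r)
    (hq : 2 * ∑ σ, q σ ≤ 1) : ∑' ω, G ω ≤ 2 * A := by
  have key : ∀ p : ℕ, ∑' ω, (if lev ω < p then G ω else 0) ≤ 2 * A := by
    intro p
    induction p with
    | zero => simp
    | succ p ih =>
      rw [tsum_wd, two_mul]
      refine add_le_add (le_trans (ENNReal.tsum_le_tsum fun x => by simp [lev]) h0) ?_
      calc ∑ σ, ∑' r, ∑' x, (if lev (cons x σ r) < p + 1 then G (cons x σ r) else 0)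
          ≤ ∑ σ, q σ * (2 * A) := by
            refine Finset.sum_le_sum fun σ _ => ?_
            refine le_trans ?_ (mul_le_mul_right ih _)
            rw [← ENNReal.tsum_mul_left]
            refine ENNReal.tsum_le_tsum fun r => ?_
            by_cases hr : lev r < p
            · simpa [lev, hr] using h1 σ r
            · simp [lev, hr]
        _ = (2 * ∑ σ, q σ) * A := by rw [← Finset.sum_mul]; ring
        _ ≤ A := by simpa using mul_le_mul_left hq A
  rw [ENNReal.tsum_eq_iSup_sum]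
  refine iSup_le fun s => le_trans ?_ (key (s.sup lev + 1))
  refine le_trans (le_of_eq (Finset.sum_congr rfl fun ω hω => ?_)) (ENNReal.sum_le_tsum s)
  rw [if_pos (Nat.lt_succ_of_le (Finset.le_sup hω))]

end Sums

variable {n : ℕ} {F : Type} [Group F]

/-- Left shift on the group algebra. -/
noncomputable def sh (g : F) : (F →₀ ℂ) →ₗ[ℂ] (F →₀ ℂ) := Finsupp.lmapDomain ℂ ℂ (g * ·)

theorem sh_apply (g : F) (v : F →₀ ℂ) (z : F) : sh g v z = v (g⁻¹ * z) := by
  have h := Finsupp.mapDomain_apply (f := (g * ·)) (mul_right_injective g) v (g⁻¹ * z)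
  simpa [sh] using h

/-- The parameters of the construction. -/
structure Par (n : ℕ) where
  isA : Fin n → Bool
  β : Fin n → Bool → ℂ
  ε : ℝ
  α : Bool → ℝ
  s : ℝ
  β_le : ∀ i b, ‖β i b‖ ≤ 1
  β_star : ∀ i, star (β i true) = β i false
  s_eq : ∑ b, α b ^ 2 = s
  s_pos : 0 < s

variable (D : GData n F) (P : Par n)

/-- The generators `a`, `a⁻¹`. -/
def gen (b : Bool) : F := if b then D.a else D.a⁻¹

open Classical in
/-- Truncated extension. -/
noncomputable def extn (x : F) (v : F →₀ ℂ) : F →₀ ℂ := sh x (v.filter fun y => x * y ∈ D.X y)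

open Classical in
theorem extn_apply (x : F) (v : F →₀ ℂ) (z : F) :
    extn D x v z = if z ∈ D.X (x⁻¹ * z) then v (x⁻¹ * z) else 0 := by
  rw [extn, sh_apply, Finsupp.filter_apply]
  simp

/-- The coupling constants. -/
noncomputable def kap (σ : Fin n × Bool) : ℂ :=
  if P.isA σ.1 then ((P.α σ.2 * P.ε / P.s : ℝ) : ℂ) else 0

open Classical in
/-- `tt ω h = t (h ω)`. -/
noncomputable def tt (j : Fin n) : Wd F (Fin n × Bool) → F → (F →₀ ℂ)
  | nil x, h => if h * x ∈ D.E j then Finsupp.single (h * x) 1 else 0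
  | cons x σ r, h => kap P σ • extn D (h * x)
      (∑ b, P.β σ.1 b • (sh (gen D b) (tt j r 1) - tt j r (gen D b)))

/-- The level zero part of the dual operator. -/
noncomputable def tz (j : Fin n) (ω : Wd F (Fin n × Bool)) : F →₀ ℂ := tt D P j ω 1

theorem tt_eq (j : Fin n) (ω : Wd F (Fin n × Bool)) (h : F) :
    tt D P j ω h = tz D P j (lact h ω) := by
  cases ω with
  | nil x =>
    simp only [tz, tt, lact, one_mul]
    rw [one_mul]
  | cons x σ r => simp only [tz, tt, lact, one_mul]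

/-- The defect of equivariance. -/
noncomputable def dd (j : Fin n) (b : Bool) (ω : Wd F (Fin n × Bool)) : F →₀ ℂ :=
  sh (gen D b) (tz D P j ω) - tz D P j (lact (gen D b) ω)

/-- The source term. -/
noncomputable def vv (j i : Fin n) (ω : Wd F (Fin n × Bool)) : F →₀ ℂ :=
  ∑ b, P.β i b • dd D P j b ω

open Classical in
theorem tz_nil (j : Fin n) (x : F) :
    tz D P j (nil x) = if x ∈ D.E j then Finsupp.single x 1 else 0 := by
  simp [tz, tt]

theorem tz_cons (j : Fin n) (x : F) (σ : Fin n × Bool) (r : Wd F (Fin n × Bool)) :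
    tz D P j (cons x σ r) = kap P σ • extn D x (vv D P j σ.1 r) := by
  simp only [tz, tt, one_mul, vv, dd, tt_eq D P j r (gen D _)]

/-- The weighted energy of a vector. -/
noncomputable def en (v : F →₀ ℂ) : ℝ≥0∞ := ∑' z, ‖v z‖ₑ ^ 2 * D.W z

theorem gen_inv (b : Bool) : (gen D b)⁻¹ = D.a ∨ (gen D b)⁻¹ = D.a⁻¹ := by
  cases b <;> simp [gen]

theorem enorm_sq_add_le (x y p q : ℂ) (hp : ‖p‖ ≤ 1) (hq : ‖q‖ ≤ 1) :
    ‖p * x + q * y‖ₑ ^ 2 ≤ 2 * (‖x‖ₑ ^ 2 + ‖y‖ₑ ^ 2) := by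
  have h : ‖p * x + q * y‖ ^ 2 ≤ 2 * (‖x‖ ^ 2 + ‖y‖ ^ 2) := by
    have h1 : ‖p * x + q * y‖ ≤ ‖x‖ + ‖y‖ := by
      refine (norm_add_le _ _).trans (add_le_add ?_ ?_) <;> rw [norm_mul]
      · exact mul_le_of_le_one_left (norm_nonneg _) hp
      · exact mul_le_of_le_one_left (norm_nonneg _) hq
    have h2 := pow_le_pow_left₀ (norm_nonneg _) h1 2
    nlinarith [sq_nonneg (‖x‖ - ‖y‖)]
  rw [← ofReal_norm, ← ofReal_norm, ← ofReal_norm,
    ← ENNReal.ofReal_pow (norm_nonneg _), ← ENNReal.ofReal_pow (norm_nonneg _),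
    ← ENNReal.ofReal_pow (norm_nonneg _), ← ENNReal.ofReal_add (by positivity) (by positivity),
    ← ENNReal.ofReal_ofNat 2, ← ENNReal.ofReal_mul (by norm_num)]
  exact ENNReal.ofReal_le_ofReal h

theorem en_vv_le (j i : Fin n) (ω : Wd F (Fin n × Bool)) :
    en D (vv D P j i ω) ≤ 2 * ∑ b, en D (dd D P j b ω) := by
  simp only [en, vv, Fintype.sum_bool]
  rw [← ENNReal.tsum_add, ← ENNReal.tsum_mul_left]
  refine ENNReal.tsum_le_tsum fun z => ?_
  rw [← add_mul, ← mul_assoc]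
  refine mul_le_mul_left ?_ _
  simpa using enorm_sq_add_le _ _ _ _ (P.β_le i true) (P.β_le i false)

theorem en_dd_nil (j : Fin n) (b : Bool) : ∑' x, en D (dd D P j b (nil x)) ≤ D.K := by
  classical
  refine le_trans ?_ (D.bd_E j _ (gen_inv D b))
  simp only [en]
  rw [ENNReal.tsum_comm]
  refine ENNReal.tsum_le_tsum fun z => ?_
  rw [tsum_eq_single ((gen D b)⁻¹ * z)]
  · simp only [dd, lact, tz_nil, Finsupp.sub_apply, sh_apply, mul_inv_cancel_left,
      Set.indicator_apply, Set.mem_ofPred_eq]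
    by_cases h1 : z ∈ D.E j <;> by_cases h2 : (gen D b)⁻¹ * z ∈ D.E j <;> simp [h1, h2]
  · intro x hx
    have h1 : z ≠ gen D b * x := fun h => hx (by rw [h, inv_mul_cancel_left])
    simp only [dd, lact, tz_nil, Finsupp.sub_apply, sh_apply]
    split_ifs <;> simp [hx, h1.symm]

theorem en_dd_cons (j : Fin n) (b : Bool) (σ : Fin n × Bool) (r : Wd F (Fin n × Bool)) :
    ∑' x, en D (dd D P j b (cons x σ r)) ≤ ‖kap P σ‖ₑ ^ 2 * D.K * en D (vv D P j σ.1 r) := by
  classical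
  set g := gen D b with hg
  set v := vv D P j σ.1 r with hv
  have h1 : ∀ z, ∑' x, ‖dd D P j b (cons x σ r) z‖ₑ ^ 2 * D.W z ≤
      ∑' y, ‖kap P σ‖ₑ ^ 2 * ‖v y‖ₑ ^ 2 *
        {z | ¬ (z ∈ D.X y ↔ g⁻¹ * z ∈ D.X y)}.indicator D.W z := by
    intro z
    rw [← ((Equiv.inv F).trans (Equiv.mulLeft (g⁻¹ * z))).tsum_eq]
    refine ENNReal.tsum_le_tsum fun y => ?_
    simp only [Equiv.trans_apply, Equiv.inv_apply, Equiv.coe_mulLeft, dd, lact, tz_cons,
      Finsupp.sub_apply, sh_apply, Finsupp.smul_apply, extn_apply, ← hg, ← hv, smul_eq_mul,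
      Set.indicator_apply, Set.mem_ofPred_eq]
    have e1 : (g⁻¹ * z * y⁻¹)⁻¹ * (g⁻¹ * z) = y := by group
    have e2 : (g * (g⁻¹ * z * y⁻¹))⁻¹ * z = y := by group
    rw [e1, e2]
    by_cases h1 : z ∈ D.X y <;> by_cases h2 : g⁻¹ * z ∈ D.X y <;> simp [h1, h2, mul_pow]
  simp only [en]
  rw [ENNReal.tsum_comm]
  refine (ENNReal.tsum_le_tsum h1).trans ?_
  rw [ENNReal.tsum_comm, ← ENNReal.tsum_mul_left]
  refine ENNReal.tsum_le_tsum fun y => ?_
  rw [ENNReal.tsum_mul_left]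
  refine (mul_le_mul_right (D.bd_X y _ (gen_inv D b)) _).trans (le_of_eq (by ring))

theorem sum_kap_le : ∑ σ, ‖kap P σ‖ₑ ^ 2 ≤ ENNReal.ofReal (n * P.ε ^ 2 / P.s) := by
  have hs := P.s_pos
  have h : ∀ i : Fin n, ∑ b, ‖kap P (i, b)‖ₑ ^ 2 ≤ ENNReal.ofReal (P.ε ^ 2 / P.s) := by
    intro i
    have h2 : ∀ b, ‖kap P (i, b)‖ₑ ^ 2 ≤ ENNReal.ofReal (P.α b ^ 2 * (P.ε / P.s) ^ 2) := by
      intro b
      unfold kap
      split_ifs
      · rw [← ofReal_norm, ← ENNReal.ofReal_pow (norm_nonneg _), Complex.norm_real,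
          Real.norm_eq_abs, sq_abs]
        exact le_of_eq (by congr 1; ring)
      · simp
    refine (Finset.sum_le_sum fun b _ => h2 b).trans ?_
    rw [← ENNReal.ofReal_sum_of_nonneg fun b _ => by positivity, ← Finset.sum_mul, P.s_eq]
    exact le_of_eq (by congr 1; field_simp)
  rw [Fintype.sum_prod_type]
  refine (Finset.sum_le_sum fun i _ => h i).trans ?_
  rw [← ENNReal.ofReal_sum_of_nonneg fun b _ => by positivity]
  simp [mul_div_assoc]

theorem eight_le (hsm : 8 * D.K * (n * P.ε ^ 2 / P.s) ≤ 1) :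
    8 * (D.K : ℝ≥0∞) * ∑ σ, ‖kap P σ‖ₑ ^ 2 ≤ 1 := by
  refine (mul_le_mul_right (sum_kap_le P) _).trans ?_
  rw [← ENNReal.ofReal_coe_nnreal, ← ENNReal.ofReal_ofNat 8, ← ENNReal.ofReal_mul (by norm_num),
    ← ENNReal.ofReal_mul (by positivity), ← ENNReal.ofReal_one]
  exact ENNReal.ofReal_le_ofReal hsm

theorem energy_le (hsm : 8 * D.K * (n * P.ε ^ 2 / P.s) ≤ 1) (j : Fin n) :
    ∑' ω, ∑ b, en D (dd D P j b ω) ≤ 2 * (2 * D.K) := by
  refine tsum_wd_le _ _ (fun σ => 4 * D.K * ‖kap P σ‖ₑ ^ 2) ?_ (fun σ r => ?_) ?_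
  · simp only [Fintype.sum_bool]
    rw [ENNReal.tsum_add, two_mul]
    exact add_le_add (en_dd_nil D P j _) (en_dd_nil D P j _)
  · have h := fun b => (en_dd_cons D P j b σ r).trans (mul_le_mul_right (en_vv_le D P j σ.1 r) _)
    simp only [Fintype.sum_bool] at h ⊢
    rw [ENNReal.tsum_add]
    exact (add_le_add (h _) (h _)).trans (le_of_eq (by ring))
  · rw [← Finset.mul_sum]
    exact le_trans (le_of_eq (by ring)) (eight_le D P hsm)

theorem tz_sum_le (hsm : 8 * D.K * (n * P.ε ^ 2 / P.s) ≤ 1) (j : Fin n) :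
    ∑' ω, ‖tz D P j ω (D.c j)‖ₑ ^ 2 ≤ 2 := by
  classical
  rw [tsum_wd]
  refine le_trans (add_le_add (b := 1) (d := 1) ?_ ?_) (le_of_eq one_add_one_eq_two)
  · rw [tsum_eq_single (D.c j)]
    · simp [tz_nil, D.c_mem_E]
    · intro x hx
      rw [tz_nil]
      split_ifs <;> simp [hx]
  · have h1 : ∀ σ r, ∑' x, ‖tz D P j (cons x σ r) (D.c j)‖ₑ ^ 2 ≤
        ‖kap P σ‖ₑ ^ 2 * (2 * ∑ b, en D (dd D P j b r)) := by
      intro σ r
      refine le_trans ?_ (mul_le_mul_right (en_vv_le D P j σ.1 r) _)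
      rw [en, ← ENNReal.tsum_mul_left, ← ((Equiv.inv F).trans (Equiv.mulLeft (D.c j))).tsum_eq]
      refine ENNReal.tsum_le_tsum fun y => ?_
      simp only [Equiv.trans_apply, Equiv.inv_apply, Equiv.coe_mulLeft, tz_cons,
        Finsupp.smul_apply, extn_apply, smul_eq_mul]
      have e1 : (D.c j * y⁻¹)⁻¹ * D.c j = y := by group
      rw [e1]
      split_ifs with h
      · rw [enorm_mul, mul_pow]
        refine mul_le_mul_right ?_ _
        simpa using mul_le_mul_right (D.one_le_W j y h) _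
      · simp
    calc ∑ σ, ∑' r, ∑' x, ‖tz D P j (cons x σ r) (D.c j)‖ₑ ^ 2
        ≤ ∑ σ, ‖kap P σ‖ₑ ^ 2 * (2 * (2 * (2 * D.K))) := by
          refine Finset.sum_le_sum fun σ _ => (ENNReal.tsum_le_tsum (h1 σ)).trans ?_
          rw [ENNReal.tsum_mul_left, ENNReal.tsum_mul_left]
          exact mul_le_mul_right (mul_le_mul_right (energy_le D P hsm j) _) _
      _ = 8 * (D.K : ℝ≥0∞) * ∑ σ, ‖kap P σ‖ₑ ^ 2 := by rw [← Finset.sum_mul]; ring
      _ ≤ 1 := eight_le D P hsm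

end Vale.Agent.P087
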