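import Vale.Agent.P087.Dual1

/-! The dual operator on finitely supported vectors and its commutators. -/

set_option linter.unusedSectionVars false

namespace Vale.Agent.P087

open scoped InnerProductSpace ENNReal
open Wd

section Alg

variable {F Λ : Type} [Group F]

/-- Finitely supported vectors. -/
abbrev FV (F Λ : Type) : Type := Wd F Λ →₀ ℂ

/-- The embedding into the Fock space. -/
noncomputable def iota : FV F Λ →ₗ[ℂ] Fock F Λ := Finsupp.linearCombination ℂ dl

/-- Algebraic left translation. -/
noncomputable def lamv (g : F) : Module.End ℂ (FV F Λ) := Finsupp.lmapDomain ℂ ℂ (lact g)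

/-- Algebraic creation with a group letter. -/
noncomputable def consv (x : F) (σ : Λ) : Module.End ℂ (FV F Λ) :=
  Finsupp.lmapDomain ℂ ℂ (cons x σ)

/-- Algebraic annihilation. -/
noncomputable def annv (σ : Λ) : Module.End ℂ (FV F Λ) :=
  Finsupp.lcomapDomain (cons 1 σ) (cons_inj σ)

/-- Level zero vectors. -/
noncomputable def emb : (F →₀ ℂ) →ₗ[ℂ] FV F Λ := Finsupp.lmapDomain ℂ ℂ nil

theorem iota_single (ω : Wd F Λ) (c : ℂ) : iota (Finsupp.single ω c) = c • dl ω := by
  simp [iota]

theorem lamv_single (g : F) (ω : Wd F Λ) (c : ℂ) :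
    lamv g (Finsupp.single ω c) = Finsupp.single (lact g ω) c := by simp [lamv]

theorem consv_single (x : F) (σ : Λ) (ω : Wd F Λ) (c : ℂ) :
    consv x σ (Finsupp.single ω c) = Finsupp.single (cons x σ ω) c := by simp [consv]

theorem emb_single (x : F) (c : ℂ) :
    (emb (Finsupp.single x c) : FV F Λ) = Finsupp.single (nil x) c := by simp [emb]

theorem annv_apply (σ : Λ) (v : FV F Λ) (ω : Wd F Λ) : annv σ v ω = v (cons 1 σ ω) := rfl

theorem iota_apply (v : FV F Λ) (ω : Wd F Λ) : iota v ω = v ω := by
  classical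
  induction v using Finsupp.induction_linear with
  | zero => simp
  | add f g hf hg => simp [hf, hg]
  | single a b => simp [iota_single, dl_apply, Finsupp.single_apply, eq_comm]

theorem iota_lamv (g : F) (v : FV F Λ) : iota (lamv g v) = lam g (iota v) := by
  induction v using Finsupp.induction_linear with
  | zero => simp
  | add f g hf hg => simp [hf, hg]
  | single a b => simp [iota_single, lamv_single, lam_dl]

theorem iota_consv (σ : Λ) (v : FV F Λ) : iota (consv 1 σ v) = cre σ (iota v) := by
  induction v using Finsupp.induction_linear with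
  | zero => simp
  | add f g hf hg => simp [hf, hg]
  | single a b => simp [iota_single, consv_single, cre_dl]

theorem iota_annv (σ : Λ) (v : FV F Λ) : iota (annv σ v) = ann σ (iota v) := by
  apply lp.ext
  funext ω
  rw [iota_apply, annv_apply, ann, pull_apply, iota_apply]

theorem lamv_emb (g : F) (v : F →₀ ℂ) : lamv g (emb v : FV F Λ) = emb (sh g v) := by
  induction v using Finsupp.induction_linear with
  | zero => simp
  | add f g hf hg => simp [hf, hg]
  | single a b => simp [emb_single, lamv_single, sh, lact]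

theorem lamv_consv (g x : F) (σ : Λ) (v : FV F Λ) :
    lamv g (consv x σ v) = consv (g * x) σ v := by
  induction v using Finsupp.induction_linear with
  | zero => simp
  | add f g hf hg => simp [hf, hg]
  | single a b => simp [consv_single, lamv_single, lact]

theorem emb_apply_cons (v : F →₀ ℂ) (x : F) (σ : Λ) (r : Wd F Λ) :
    (emb v : FV F Λ) (cons x σ r) = 0 :=
  Finsupp.mapDomain_of_notMem_range _ _ (by simp)

theorem emb_apply_nil (v : F →₀ ℂ) (x : F) : (emb v : FV F Λ) (nil x) = v x :=
  Finsupp.mapDomain_apply (fun _ _ h => by simpa using h) _ _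

theorem consv_apply_nil (x : F) (σ : Λ) (v : FV F Λ) (y : F) : consv x σ v (nil y) = 0 :=
  Finsupp.mapDomain_of_notMem_range _ _ (by simp)

theorem annv_emb (σ : Λ) (v : F →₀ ℂ) : annv σ (emb v : FV F Λ) = 0 := by
  ext ω
  rw [annv_apply, emb_apply_cons]
  rfl

theorem annv_consv (σ : Λ) (v : FV F Λ) : annv σ (consv 1 σ v) = v := by
  ext ω
  rw [annv_apply]
  exact Finsupp.mapDomain_apply (cons_inj σ) _ _

theorem annv_consv_ne {σ σ' : Λ} {x : F} (h : ¬ (x = 1 ∧ σ' = σ)) (v : FV F Λ) :
    annv σ (consv x σ' v) = 0 := by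
  ext ω
  rw [annv_apply]
  refine Finsupp.mapDomain_of_notMem_range _ _ ?_
  rintro ⟨u, hu⟩
  simp only [cons.injEq] at hu
  exact h ⟨hu.1, hu.2.1⟩

variable (t : Wd F Λ → (F →₀ ℂ))

/-- The operator `T = ∑ 1 ⊗ ⋯ ⊗ 1 ⊗ t` on basis vectors. -/
noncomputable def Tb : Wd F Λ → FV F Λ
  | nil x => emb (t (nil x))
  | cons x σ r => emb (t (cons x σ r)) + consv x σ (Tb r)

/-- The operator `T`. -/
noncomputable def Top : Module.End ℂ (FV F Λ) := Finsupp.linearCombination ℂ (Tb t)

theorem Top_single (ω : Wd F Λ) : Top t (Finsupp.single ω 1) = Tb t ω := by simp [Top]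

theorem Tb_nil (ω : Wd F Λ) (y : F) : Tb t ω (nil y) = t ω y := by
  cases ω <;> simp [Tb, emb_apply_nil, consv_apply_nil]

theorem Top_lamv (g : F) (ω : Wd F Λ) : Top t (lamv g (Finsupp.single ω 1)) =
    lamv g (Top t (Finsupp.single ω 1)) + emb (t (lact g ω) - sh g (t ω)) := by
  rw [lamv_single, Top_single, Top_single]
  cases ω with
  | nil x => simp [Tb, lact, lamv_emb]
  | cons x σ r =>
    simp only [Tb, lact, lamv_emb, map_add, map_sub, lamv_consv]
    abel

theorem Top_consv (σ : Λ) (ω : Wd F Λ) : Top t (consv 1 σ (Finsupp.single ω 1)) =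
    consv 1 σ (Top t (Finsupp.single ω 1)) + emb (t (cons 1 σ ω)) := by
  rw [consv_single, Top_single, Top_single, Tb, add_comm]

theorem Top_annv (σ : Λ) (ω : Wd F Λ) : Top t (annv σ (Finsupp.single ω 1)) =
    annv σ (Top t (Finsupp.single ω 1)) := by
  rw [Top_single]
  cases ω with
  | nil x => rw [← emb_single, annv_emb, map_zero, Tb, annv_emb]
  | cons x σ' r =>
    rw [← consv_single, Tb, map_add, annv_emb, zero_add]
    by_cases h : x = 1 ∧ σ' = σ
    · obtain ⟨rfl, rfl⟩ := h
      rw [annv_consv, annv_consv, Top_single]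
    · rw [annv_consv_ne h, annv_consv_ne h, map_zero]

end Alg

variable {n : ℕ} {F : Type} [Group F] (D : GData n F) (P : Par n)

/-- The deterministic part of the variables. -/
noncomputable def Yop (isA : Fin n → Bool) (β : Fin n → Bool → ℂ) (ε : ℝ) (i : Fin n) :
    Bdd (Fock F (Fin n × Bool)) :=
  if isA i then (ε : ℂ) • ∑ b, β i b • lam (gen D b) else lam (D.c i)

/-- The variables with noise. -/
noncomputable def Zop (i : Fin n) : Bdd (Fock F (Fin n × Bool)) :=
  Yop D P.isA P.β P.ε i + ∑ b, (P.α b : ℂ) • sem (i, b)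

/-- Algebraic version. -/
noncomputable def Zv (i : Fin n) : Module.End ℂ (FV F (Fin n × Bool)) :=
  (if P.isA i then (P.ε : ℂ) • ∑ b, P.β i b • lamv (gen D b) else lamv (D.c i)) +
    ∑ b, (P.α b : ℂ) • (consv 1 (i, b) + annv (i, b))

theorem iota_Zv (i : Fin n) (v : FV F (Fin n × Bool)) :
    iota (Zv D P i v) = Zop D P i (iota v) := by
  unfold Zv Zop Yop
  split_ifs <;>
    simp only [iota_lamv, iota_consv, iota_annv, sem, Fintype.sum_bool, LinearMap.add_apply,
      LinearMap.smul_apply, map_add, map_smul, add_apply, smul_apply]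

theorem c_mul_c (k : Fin n) : D.c k * D.c k = 1 := by
  rw [D.c_eq]
  calc D.a ^ D.e k * D.s * (D.a ^ D.e k)⁻¹ * (D.a ^ D.e k * D.s * (D.a ^ D.e k)⁻¹)
      = D.a ^ D.e k * (D.s * D.s) * (D.a ^ D.e k)⁻¹ := by group
    _ = 1 := by rw [D.s_sq]; group

theorem c_inv (k : Fin n) : (D.c k)⁻¹ = D.c k := inv_eq_of_mul_eq_one_right (c_mul_c D k)

theorem c_ne_one (k : Fin n) : D.c k ≠ 1 := fun h => D.one_notMem_E k (h ▸ D.c_mem_E k)

theorem extn_c (k : Fin n) (x : F) (v : F →₀ ℂ) :
    extn D (D.c k * x) v = sh (D.c k) (extn D x v) := by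
  classical
  ext z
  rw [sh_apply, extn_apply, extn_apply, mul_inv_rev, mul_assoc, c_inv]
  exact if_congr (D.X_inv k _ _).symm rfl rfl

theorem extn_one (v : F →₀ ℂ) : extn D 1 v = v := by
  ext z
  rw [extn_apply]
  simp [D.self_mem_X]

open Classical in
theorem tz_c (j k : Fin n) (ω : Wd F (Fin n × Bool)) :
    (emb (tz D P j (lact (D.c k) ω) - sh (D.c k) (tz D P j ω)) : FV F (Fin n × Bool)) =
      if k = j then (Finsupp.single ω (1 : ℂ) (nil 1)) • Finsupp.single (nil (D.c j)) (1 : ℂ) -
        (Finsupp.single ω (1 : ℂ) (nil (D.c j))) • Finsupp.single (nil 1) (1 : ℂ) else 0 := by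
  cases ω with
  | cons x σ r => simp [lact, tz_cons, extn_c]
  | nil x =>
    by_cases h : k = j ∧ (x = 1 ∨ x = D.c j)
    · obtain ⟨rfl, rfl | rfl⟩ := h
      · simp [lact, tz_nil, D.one_notMem_E, D.c_mem_E, emb_single,
          (c_ne_one D k).symm]
      · simp [lact, tz_nil, D.one_notMem_E, D.c_mem_E, emb_single,
          c_ne_one D k, c_mul_c, sh]
    · have h1 := D.E_inv j k x h
      have h2 : tz D P j (lact (D.c k) (nil x)) - sh (D.c k) (tz D P j (nil x)) = 0 := by
        simp only [lact, tz_nil, h1]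
        split_ifs <;> simp [sh]
      rw [h2, map_zero]
      split_ifs with hk
      · have h3 : x ≠ 1 := fun h' => h ⟨hk, Or.inl h'⟩
        have h4 : x ≠ D.c j := fun h' => h ⟨hk, Or.inr h'⟩
        simp [h3, h4]
      · rfl

open Classical in
theorem Top_Zv_single (j : Fin n) (hj : P.isA j = false) (k : Fin n) (ω : Wd F (Fin n × Bool)) :
    Top (tz D P j) (Zv D P k (Finsupp.single ω 1)) =
      Zv D P k (Top (tz D P j) (Finsupp.single ω 1)) +
      if k = j then (Finsupp.single ω (1 : ℂ) (nil 1)) • Finsupp.single (nil (D.c j)) (1 : ℂ) -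
        (Finsupp.single ω (1 : ℂ) (nil (D.c j))) • Finsupp.single (nil 1) (1 : ℂ) else 0 := by
  unfold Zv
  by_cases hk : P.isA k = true
  · have hkj : k ≠ j := fun h => by simp [h, hj] at hk
    have hs : ((P.α true : ℂ) ^ 2 + (P.α false : ℂ) ^ 2) = P.s := by
      have := P.s_eq
      simp only [Fintype.sum_bool] at this
      exact_mod_cast this
    have hs0 : (P.s : ℂ) ≠ 0 := by exact_mod_cast P.s_pos.ne'
    have h1 : ∑ b, (P.α b : ℂ) • tz D P j (cons 1 (k, b) ω) = (P.ε : ℂ) • vv D P j k ω := by
      simp only [tz_cons, extn_one, kap, hk, if_true, smul_smul, Fintype.sum_bool, ← add_smul]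
      congr 1
      push_cast
      field_simp
      rw [← hs]
    have h2 := congrArg (emb (Λ := Fin n × Bool)) h1
    simp only [vv, dd, Fintype.sum_bool, map_add, map_smul, map_sub] at h2
    simp only [hk, if_true, if_neg hkj, Fintype.sum_bool, LinearMap.add_apply,
      LinearMap.smul_apply, map_add, map_smul, Top_lamv, Top_consv, Top_annv, map_sub, add_zero]
    linear_combination (norm := module) h2
  · simp only [hk, Bool.false_eq_true, if_false, Fintype.sum_bool, LinearMap.add_apply,
      LinearMap.smul_apply, map_add, map_smul, Top_lamv, Top_consv, Top_annv, tz_c, tz_cons, kap,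
      zero_smul, map_zero, add_zero]
    abel

open Classical in
theorem Top_Zv (j : Fin n) (hj : P.isA j = false) (k : Fin n) (v : FV F (Fin n × Bool)) :
    Top (tz D P j) (Zv D P k v) = Zv D P k (Top (tz D P j) v) +
      if k = j then v (nil 1) • Finsupp.single (nil (D.c j)) (1 : ℂ) -
        v (nil (D.c j)) • Finsupp.single (nil 1) (1 : ℂ) else 0 := by
  induction v using Finsupp.induction_linear with
  | zero => simp
  | add f g hf hg =>
    simp only [map_add, hf, hg, Finsupp.add_apply, add_smul]
    split_ifs <;> abel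
  | single a b =>
    rw [← mul_one b, ← smul_eq_mul, ← Finsupp.smul_single]
    simp only [map_smul, Top_Zv_single D P j hj, Finsupp.smul_apply, smul_add]
    split_ifs
    · simp only [smul_sub, smul_assoc]
    · simp

end Vale.Agent.P087
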