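import Vale.Agent.P087.Dual2

/-! Conjugate variables and bounds for the free Fisher information. -/

set_option linter.unusedSectionVars false

namespace Vale.Agent.P087

open scoped InnerProductSpace ENNReal
open Wd

theorem norm_sq_sum_dl {A ι : Type} [Fintype ι] (f : ι → A) (hf : Function.Injective f)
    (a : ι → ℝ) : ‖∑ p, (a p : ℂ) • dl (f p)‖ ^ 2 = ∑ p, a p ^ 2 := by
  classical
  have h : Orthonormal ℂ (fun p => dl (f p)) := by
    rw [orthonormal_iff_ite]
    intro p q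
    rw [inner_dl_left, dl_apply]
    exact if_congr hf.eq_iff rfl rfl
  have h2 := h.inner_sum (fun p => (a p : ℂ)) (fun p => (a p : ℂ)) Finset.univ
  rw [inner_self_eq_norm_sq_to_K] at h2
  simp only [Complex.conj_ofReal] at h2
  have h3 : ((‖∑ p, (a p : ℂ) • dl (f p)‖ ^ 2 : ℝ) : ℂ) = ((∑ p, a p ^ 2 : ℝ) : ℂ) := by
    push_cast
    simpa [sq] using h2
  exact_mod_cast h3

theorem exists_vec {A : Type} (f : A → ℂ) (hf : ∑' a, ‖f a‖ₑ ^ 2 ≤ 2) :
    ∃ ζ : L2 A, (∀ a, ζ a = (starRingEnd ℂ) (f a)) ∧ ‖ζ‖ ^ 2 ≤ 2 := by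
  have hne : ∑' a, ‖f a‖ₑ ^ 2 ≠ ⊤ := ne_top_of_le_ne_top (by simp) hf
  have h1 : Summable fun a => ‖(starRingEnd ℂ) (f a)‖ ^ (2 : ℝ≥0∞).toReal := by
    simpa using ENNReal.summable_toReal hne
  refine ⟨⟨fun a => (starRingEnd ℂ) (f a), memℓp_gen h1⟩, fun a => rfl, ?_⟩
  have h2 := lp.norm_rpow_eq_tsum (p := 2) (by norm_num)
    (⟨fun a => (starRingEnd ℂ) (f a), memℓp_gen h1⟩ : L2 A)
  have h3 := ENNReal.tsum_toReal_eq (f := fun a => ‖f a‖ₑ ^ 2) (fun a => by simp)
  have h4 := ENNReal.toReal_mono (by simp) hf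
  rw [h3] at h4
  simp only [ENNReal.toReal_ofNat, Real.rpow_ofNat] at h2
  rw [h2]
  simpa using h4

theorem vn_smul_mem {H : Type} [NormedAddCommGroup H] [InnerProductSpace ℂ H] [CompleteSpace H]
    {M : VonNeumannAlgebra H} (c : ℂ) {x : Bdd H} (hx : x ∈ M) : c • x ∈ M :=
  SMulMemClass.smul_mem (s := M.toStarSubalgebra) c hx

variable {n : ℕ} {F : Type} [Group F] (D : GData n F) (P : Par n)

theorem star_Yop {isA : Fin n → Bool} {β : Fin n → Bool → ℂ} (hβ : ∀ i, star (β i true) = β i false)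
    (ε : ℝ) (i : Fin n) : star (Yop D isA β ε i) = Yop D isA β ε i := by
  unfold Yop
  split_ifs
  · have h2 : star (β i false) = β i true := by rw [← hβ, star_star]
    simp only [Fintype.sum_bool, star_smul, star_add, star_lam, hβ, h2, gen, if_true,
      Bool.false_eq_true, if_false, inv_inv, Complex.star_def, Complex.conj_ofReal]
    rw [add_comm]
  · rw [star_lam, c_inv]

theorem Yop_mem (isA : Fin n → Bool) (β : Fin n → Bool → ℂ) (ε : ℝ) (i : Fin n) :
    Yop D isA β ε i ∈ fockVN F (Fin n × Bool) := by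
  unfold Yop
  split_ifs
  · exact vn_smul_mem _ (sum_mem fun b _ => vn_smul_mem _ (lam_mem _))
  · exact lam_mem _

theorem rann_Yop (isA : Fin n → Bool) (β : Fin n → Bool → ℂ) (ε : ℝ) (i : Fin n)
    (σ : Fin n × Bool) : rann σ * Yop D isA β ε i = Yop D isA β ε i * rann σ := by
  unfold Yop
  split_ifs
  · simp only [Fintype.sum_bool, mul_smul_comm, smul_mul_assoc, mul_add, add_mul, rann_lam]
  · exact rann_lam _ _

theorem star_Zop (i : Fin n) : star (Zop D P i) = Zop D P i := by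
  simp only [Zop, star_add, star_Yop D P.β_star, Fintype.sum_bool, star_smul, star_sem,
    Complex.star_def, Complex.conj_ofReal]

theorem Zop_mem (i : Fin n) : Zop D P i ∈ fockVN F (Fin n × Bool) :=
  add_mem (Yop_mem D _ _ _ i) (sum_mem fun _ _ => vn_smul_mem _ (sem_mem _))

theorem rann_Zop (j k : Fin n) (b : Bool) (v : Fock F (Fin n × Bool)) :
    rann (j, b) (Zop D P k v) = Zop D P k (rann (j, b) v) +
      if k = j then ((P.α b : ℂ) * ⟪vac, v⟫_ℂ) • vac else 0 := by
  have h := congrArg (fun T : Bdd (Fock F (Fin n × Bool)) => T v)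
    (rann_Yop D P.isA P.β P.ε k (j, b))
  simp only [mul_apply_eq_comp] at h
  simp only [Zop, add_apply, Fintype.sum_bool, smul_apply, map_add, map_smul, h, rann_sem_apply]
  by_cases hk : k = j
  · subst hk
    cases b <;> simp [mul_smul] <;> abel
  · simp [hk, Ne.symm hk]

/-- The right annihilation operator adapted to the noise. -/
noncomputable def U0 (j : Fin n) : Bdd (Fock F (Fin n × Bool)) :=
  ∑ b, ((P.α b / P.s : ℝ) : ℂ) • rann (j, b)

theorem U0_vac (j : Fin n) : U0 P j (vac : Fock F (Fin n × Bool)) = 0 := by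
  simp [U0, rann_vac]

theorem U0_Zop (j k : Fin n) (v : Fock F (Fin n × Bool)) :
    U0 P j (Zop D P k v) = Zop D P k (U0 P j v) + if k = j then (1 * ⟪vac, v⟫_ℂ) • vac else 0 := by
  have hs : ((P.α true : ℂ) ^ 2 + (P.α false : ℂ) ^ 2) = P.s := by
    have := P.s_eq
    simp only [Fintype.sum_bool] at this
    exact_mod_cast this
  have hs0 : (P.s : ℂ) ≠ 0 := by exact_mod_cast P.s_pos.ne'
  simp only [U0, Fintype.sum_bool, add_apply, smul_apply, rann_Zop, map_add, map_smul, smul_add]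
  split_ifs
  · have : ((P.α true / P.s : ℝ) : ℂ) * (P.α true * ⟪vac, v⟫_ℂ) +
        ((P.α false / P.s : ℝ) : ℂ) * (P.α false * ⟪vac, v⟫_ℂ) = 1 * ⟪vac, v⟫_ℂ := by
      push_cast
      field_simp
      rw [← hs, mul_comm]
    rw [← this]
    module
  · simp

theorem star_U0 (j : Fin n) : star (U0 P j : Bdd (Fock F (Fin n × Bool))) =
    ∑ b, ((P.α b / P.s : ℝ) : ℂ) • rop (ltr (j, b)) := by
  simp only [U0, Fintype.sum_bool, star_add, star_smul, rann, star_star, Complex.star_def,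
    Complex.conj_ofReal]

theorem inner_vac_apply (T : Bdd (Fock F (Fin n × Bool))) (v : Fock F (Fin n × Bool)) :
    ⟪vac, T v⟫_ℂ = ⟪star T vac, v⟫_ℂ := by
  rw [ContinuousLinearMap.star_eq_adjoint, ContinuousLinearMap.adjoint_inner_left]

theorem conj_trivial (j : Fin n) :
    ∃ ξ, IsConj vac (Zop D P) j ξ ∧ ‖ξ‖ ^ 2 ≤ 1 / P.s := by
  obtain ⟨ξ, h1, h2⟩ := exists_conj vac (Zop D P) (star_Zop D P) j (star (U0 P j) vac) fun w => by
    rw [← inner_vac_apply, dual_bdd vac (U0 P j) (Zop D P) j 1 (U0_vac P j) (U0_Zop D P j),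
      one_mul]
  refine ⟨ξ, h1, (pow_le_pow_left₀ (norm_nonneg _) h2 2).trans (le_of_eq ?_)⟩
  rw [star_U0]
  simp only [sum_apply, smul_apply, rop_vac]
  rw [norm_sq_sum_dl (fun b : Bool => (ltr (j, b) : Wd F (Fin n × Bool)))
    (fun b b' h => by simpa [ltr] using h)]
  have := P.s_pos
  simp only [div_pow]
  rw [← Finset.sum_div, P.s_eq]
  field_simp

theorem fisher_trivial : fisher vac (Zop D P) ≤ ENNReal.ofReal (n / P.s) := by
  have := P.s_pos
  refine (fisher_le vac _ (fun _ => 1 / P.s) (fun _ => by positivity) (conj_trivial D P)).trans ?_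
  simp [div_eq_mul_inv]

theorem conj_C (hsm : 8 * D.K * (n * P.ε ^ 2 / P.s) ≤ 1) (hs1 : P.s ≤ 1 / 20) (j : Fin n)
    (hj : P.isA j = false) : ∃ ξ, IsConj vac (Zop D P) j ξ ∧ ‖ξ‖ ^ 2 ≤ 3 / 4 / P.s := by
  classical
  obtain ⟨ζ', hζ1, hζ2⟩ := exists_vec _ (tz_sum_le D P hsm j)
  set R : Bdd (Fock F (Fin n × Bool)) := rop (nil (D.c j)) with hR
  have hRs : star R = R := by rw [hR, star_rop_nil, c_inv]
  have hRZ : ∀ k v, R (Zop D P k v) = Zop D P k (R v) := fun k v =>
    congrArg (fun T : Bdd (Fock F (Fin n × Bool)) => T v)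
      ((mem_fockVN.1 (Zop_mem D P k)).1 (D.c j))
  have hRv : R vac = dl (nil (D.c j)) := rop_vac _
  have hRc : R (dl (nil (D.c j))) = vac := by
    rw [hR, rop_dl, mul, lact, c_mul_c]
    rfl
  have hRi : ∀ v, ⟪vac, R v⟫_ℂ = v (nil (D.c j)) := fun v => by
    rw [inner_vac_apply, hRs, hRv, inner_dl_left]
  set U : Bdd (Fock F (Fin n × Bool)) := U0 P j + R * U0 P j * R with hU
  let T : FV F (Fin n × Bool) →ₗ[ℂ] Fock F (Fin n × Bool) :=
    (1 / 2 : ℂ) • ((R : _ →ₗ[ℂ] _) ∘ₗ iota ∘ₗ Top (tz D P j) + (U : _ →ₗ[ℂ] _) ∘ₗ iota)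
  have hT : ∀ v, T v = (1 / 2 : ℂ) • (R (iota (Top (tz D P j) v)) + U (iota v)) := fun v => rfl
  have h0 : iota (Finsupp.single (nil 1 : Wd F (Fin n × Bool)) (1 : ℂ)) = vac := by
    rw [iota_single, one_smul, vac]
  have hU0c : U0 P j (dl (nil (D.c j) : Wd F (Fin n × Bool))) = 0 := by
    have : ∀ σ, rann σ (dl (nil (D.c j) : Wd F (Fin n × Bool))) = 0 := fun σ => by
      rw [← lam_vac]
      have := congrArg (fun T : Bdd (Fock F (Fin n × Bool)) => T vac) (rann_lam σ (D.c j))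
      simpa [rann_vac] using this
    simp [U0, this]
  have hT0 : T (Finsupp.single (nil 1) 1) = 0 := by
    rw [hT, h0, Top_single, Tb, tz_nil, if_neg (D.one_notMem_E j), hU]
    simp [U0_vac, hRv, hU0c]
  have hTZ : ∀ k v, T (Zv D P k v) = Zop D P k (T v) +
      if k = j then (1 * ⟪vac, iota v⟫_ℂ) • vac else 0 := by
    intro k v
    rw [hT, hT, Top_Zv D P j hj, hU]
    simp only [map_add, iota_Zv, add_apply, mul_apply_eq_comp, hRZ, U0_Zop, map_smul]
    split_ifs
    · simp only [map_sub, map_smul, iota_single, one_smul, hRc, hRi, inner_vac, iota_apply,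
        one_mul]
      rw [show dl (nil 1) = (vac : Fock F (Fin n × Bool)) from rfl, hRv]
      module
    · simp
  have hζ : ∀ v, ⟪vac, T v⟫_ℂ = ⟪(1 / 2 : ℂ) • (ζ' + star U vac), iota v⟫_ℂ := by
    intro v
    rw [hT, inner_smul_right, inner_smul_left, inner_add_right, inner_add_left, hRi,
      inner_vac_apply, iota_apply]
    have : Top (tz D P j) v (nil (D.c j)) = ⟪ζ', iota v⟫_ℂ := by
      induction v using Finsupp.induction_linear with
      | zero => simp
      | add f g hf hg => simp [hf, hg]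
      | single a b =>
        rw [iota_single, inner_smul_right, inner_dl_right, hζ1, Complex.conj_conj, ← mul_one b,
          ← smul_eq_mul, ← Finsupp.smul_single, map_smul, Top_single, Finsupp.smul_apply, Tb_nil]
        simp
    rw [this]
    simp [map_ofNat]
  obtain ⟨ξ, h1, h2⟩ := exists_conj vac (Zop D P) (star_Zop D P) j
    ((1 / 2 : ℂ) • (ζ' + star U vac)) fun w => by
      rw [← (dual_vec vac iota T (Zv D P) (Zop D P) _ j 1 (iota_Zv D P) h0 hT0 hTZ w).1, ← hζ,
        dual_inner vac iota T (Zv D P) (Zop D P) _ j 1 (iota_Zv D P) h0 hT0 hTZ w, one_mul]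
  refine ⟨ξ, h1, (pow_le_pow_left₀ (norm_nonneg _) h2 2).trans ?_⟩
  have hs := P.s_pos
  have h3 : ‖star U vac‖ ^ 2 = 2 / P.s := by
    let f : Bool × Bool → Wd F (Fin n × Bool) := fun p =>
      if p.1 then ltr (j, p.2) else cons (D.c j) (j, p.2) (nil (D.c j))
    have hf : Function.Injective f := by
      have := c_ne_one D j
      rintro ⟨p, q⟩ ⟨p', q'⟩ h
      cases p <;> cases p' <;> simp [f, ltr, this, this.symm] at h ⊢ <;> exact h
    have e : star U vac = ∑ p : Bool × Bool, ((P.α p.2 / P.s : ℝ) : ℂ) • dl (f p) := by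
      rw [hU, star_add, star_mul, star_mul, hRs, star_U0, Fintype.sum_prod_type]
      simp only [Fintype.sum_bool, add_apply, mul_apply_eq_comp, smul_apply, rop_vac, map_add,
        map_smul, rop_dl, hR, f, mul, ltr, lact, mul_one, one_mul, if_true, Bool.false_eq_true,
        if_false]
    rw [e, norm_sq_sum_dl f hf, Fintype.sum_prod_type]
    simp only [div_pow]
    rw [← Finset.sum_div, P.s_eq]
    simp only [Fintype.sum_bool]
    field_simp
    norm_num
  rw [norm_smul]
  have h4 := norm_add_le ζ' (star U vac)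
  have h5 : ‖(1 / 2 : ℂ)‖ = 1 / 2 := by simp
  have h6 : 5 / 2 ≤ 1 / 8 / P.s := by
    rw [le_div_iff₀ hs]
    linarith
  have h7 := pow_le_pow_left₀ (norm_nonneg _) h4 2
  rw [h5, mul_pow]
  have h8 : 2 / P.s = 16 * (1 / 8 / P.s) := by ring
  have h9 : 3 / 4 / P.s = 6 * (1 / 8 / P.s) := by ring
  rw [h9]
  rw [h8] at h3
  nlinarith [sq_nonneg (2 * ‖ζ'‖ - ‖star U vac‖ / 2)]

theorem fisher_window (hsm : 8 * D.K * (n * P.ε ^ 2 / P.s) ≤ 1) (hs1 : P.s ≤ 1 / 20) :
    fisher vac (Zop D P) ≤ ENNReal.ofReal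
      ((n - ((Finset.univ.filter fun j => P.isA j = false).card : ℝ) / 4) / P.s) := by
  have := P.s_pos
  refine (fisher_le vac _ (fun j => if P.isA j = false then 3 / 4 / P.s else 1 / P.s)
    (fun _ => by split_ifs <;> positivity) fun j => ?_).trans (le_of_eq ?_)
  · split_ifs with h
    · exact conj_C D P hsm hs1 j h
    · exact conj_trivial D P j
  · congr 1
    have : ∀ j : Fin n, (if P.isA j = false then 3 / 4 / P.s else 1 / P.s) =
        1 / P.s - if P.isA j = false then 1 / 4 / P.s else 0 := fun j => by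
      split_ifs <;> ring
    simp only [this, Finset.sum_sub_distrib, ← Finset.sum_filter, Finset.sum_const,
      Finset.card_univ, Fintype.card_fin, nsmul_eq_mul]
    ring

end Vale.Agent.P087
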