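import Vale.Agent.P087.Iface

/-! The Fock space of words `x₀ σ₁ x₁ ⋯ σ_p x_p` and the basic operators. -/

set_option linter.unusedSectionVars false

namespace Vale.Agent.P087

open scoped InnerProductSpace

/-- `ℓ²(A)`. -/
abbrev L2 (A : Type) : Type := lp (fun _ : A => ℂ) 2

section Basic

variable {A : Type}

open Classical in
/-- The basis vector at `a`. -/
noncomputable def dl (a : A) : L2 A := lp.single 2 a (1 : ℂ)

open Classical in
theorem dl_apply (a b : A) : dl a b = if b = a then 1 else 0 := by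
  simp [dl, Pi.single_apply]

theorem dl_self (a : A) : dl a a = 1 := by simp [dl_apply]

theorem dl_ne {a b : A} (h : b ≠ a) : dl a b = 0 := by simp [dl_apply, h]

theorem inner_dl_left (a : A) (ξ : L2 A) : ⟪dl a, ξ⟫_ℂ = ξ a := by
  classical
  have h := lp.inner_single_left (𝕜 := ℂ) a (1 : ℂ) ξ
  simpa [dl] using h

theorem inner_dl_right (a : A) (ξ : L2 A) : ⟪ξ, dl a⟫_ℂ = (starRingEnd ℂ) (ξ a) := by
  rw [← inner_dl_left, inner_conj_symm]

theorem norm_dl (a : A) : ‖dl a‖ = 1 := by
  classical
  simp [dl]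

theorem hasSum_dl (ξ : L2 A) : HasSum (fun a => ξ a • dl a) ξ := by
  classical
  have h := lp.hasSum_single (p := 2) (by norm_num) ξ
  have e : (fun a => ξ a • dl a) = fun i => lp.single 2 i (ξ i) := by
    funext a
    apply lp.ext
    funext k
    simp only [lp.coeFn_smul, Pi.smul_apply, dl_apply, lp.single_apply, Pi.single_apply]
    split_ifs <;> simp
  rw [e]
  exact h

theorem apply_eq_zero_of {E : Type} [NormedAddCommGroup E] [NormedSpace ℂ E]
    (S : L2 A →L[ℂ] E) (ξ : L2 A) (h : ∀ a, ξ a ≠ 0 → S (dl a) = 0) : S ξ = 0 := by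
  have h1 := (hasSum_dl ξ).map S S.continuous
  refine h1.unique ?_
  have e : (S ∘ fun a => ξ a • dl a) = fun _ => 0 := by
    funext a
    by_cases h0 : ξ a = 0
    · simp [h0]
    · simp [h a h0]
  rw [e]
  exact hasSum_zero

theorem op_ext {E : Type} [NormedAddCommGroup E] [NormedSpace ℂ E] {S T : L2 A →L[ℂ] E}
    (h : ∀ a, S (dl a) = T (dl a)) : S = T := by
  ext1 ξ
  have := apply_eq_zero_of (S - T) ξ fun a _ => by simp [h a]
  simpa [sub_eq_zero] using this

/-- Support propagation. -/
theorem supp_map (S : Bdd (L2 A)) (ξ : L2 A) (B : A → Prop)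
    (h : ∀ a, ξ a ≠ 0 → ∀ b, S (dl a) b ≠ 0 → B b) (b : A) (hb : S ξ b ≠ 0) : B b := by
  by_contra hB
  apply hb
  have := apply_eq_zero_of ((innerSL ℂ (dl b)).comp S) ξ fun a ha => by
    by_contra h0
    apply hB
    apply h a ha b
    simpa [inner_dl_left] using h0
  simpa [inner_dl_left] using this

theorem mem_comp {f : A → A} (hf : Function.Injective f) (ξ : L2 A) :
    Memℓp (fun a => ξ (f a)) 2 :=
  memℓp_gen (((lp.memℓp ξ).summable (by norm_num)).comp_injective hf)

theorem isBdd_comp {f : A → A} (hf : Function.Injective f) :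
    IsBoundedLinearMap ℂ (fun ξ : L2 A => (⟨fun a => ξ (f a), mem_comp hf ξ⟩ : L2 A)) where
  map_add _ _ := rfl
  map_smul _ _ := rfl
  bound := ⟨1, one_pos, fun ξ => by
    rw [one_mul, lp.norm_eq_tsum_rpow (by norm_num), lp.norm_eq_tsum_rpow (by norm_num)]
    refine Real.rpow_le_rpow (tsum_nonneg fun _ => by positivity) ?_ (by positivity)
    exact tsum_comp_le_tsum_of_inj ((lp.memℓp ξ).summable (by norm_num))
      (fun _ => by positivity) hf⟩

/-- Composition with an injective map. -/
noncomputable def pull (f : A → A) (hf : Function.Injective f) : Bdd (L2 A) :=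
  (isBdd_comp hf).toContinuousLinearMap

theorem pull_apply {f : A → A} (hf : Function.Injective f) (ξ : L2 A) (a : A) :
    pull f hf ξ a = ξ (f a) := rfl

theorem norm_pull_le {f : A → A} (hf : Function.Injective f) : ‖pull f hf‖ ≤ 1 := by
  refine ContinuousLinearMap.opNorm_le_bound _ zero_le_one fun ξ => ?_
  rw [one_mul, lp.norm_eq_tsum_rpow (by norm_num), lp.norm_eq_tsum_rpow (by norm_num)]
  refine Real.rpow_le_rpow (tsum_nonneg fun _ => by positivity) ?_ (by positivity)
  exact tsum_comp_le_tsum_of_inj ((lp.memℓp ξ).summable (by norm_num))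
    (fun _ => by positivity) hf

/-- The isometry induced by an injective map. -/
noncomputable def push (f : A → A) (hf : Function.Injective f) : Bdd (L2 A) := star (pull f hf)

theorem star_push {f : A → A} (hf : Function.Injective f) : star (push f hf) = pull f hf :=
  star_star _

theorem norm_push_le {f : A → A} (hf : Function.Injective f) : ‖push f hf‖ ≤ 1 := by
  rw [push, norm_star]
  exact norm_pull_le hf

theorem push_dl {f : A → A} (hf : Function.Injective f) (a : A) : push f hf (dl a) = dl (f a) := by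
  classical
  apply lp.ext
  funext b
  rw [← inner_dl_left, push, ContinuousLinearMap.star_eq_adjoint,
    ContinuousLinearMap.adjoint_inner_right, inner_dl_right, pull_apply, dl_apply, dl_apply]
  by_cases h : f a = b
  · simp [h]
  · simp [h, Ne.symm h]

theorem pull_dl {f : A → A} (hf : Function.Injective f) (a : A) : pull f hf (dl (f a)) = dl a := by
  classical
  apply lp.ext
  funext b
  rw [pull_apply, dl_apply, dl_apply]
  exact if_congr hf.eq_iff rfl rfl

theorem pull_dl_of_ne {f : A → A} (hf : Function.Injective f) (b : A) (h : ∀ a, f a ≠ b) :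
    pull f hf (dl b) = 0 := by
  apply lp.ext
  funext a
  rw [pull_apply, dl_ne (h a)]
  rfl

end Basic

/-- Words `x₀ σ₁ x₁ ⋯ σ_p x_p`. -/
inductive Wd (F Λ : Type) : Type
  | nil (x : F) : Wd F Λ
  | cons (x : F) (σ : Λ) (r : Wd F Λ) : Wd F Λ

namespace Wd

variable {F Λ : Type} [Group F]

/-- Left multiplication by a group element. -/
def lact (g : F) : Wd F Λ → Wd F Λ
  | nil x => nil (g * x)
  | cons x σ r => cons (g * x) σ r

/-- Concatenation. -/
def mul : Wd F Λ → Wd F Λ → Wd F Λ
  | nil x, v => lact x v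
  | cons x σ r, v => cons x σ (mul r v)

/-- The number of noise letters. -/
def lev : Wd F Λ → ℕ
  | nil _ => 0
  | cons _ _ r => lev r + 1

theorem lact_lact (g h : F) (ω : Wd F Λ) : lact g (lact h ω) = lact (g * h) ω := by
  cases ω <;> simp [lact, mul_assoc]

theorem lact_one (ω : Wd F Λ) : lact 1 ω = ω := by
  cases ω <;> simp [lact]

theorem lact_inj (g : F) : Function.Injective (lact g : Wd F Λ → Wd F Λ) := by
  intro u v h
  have := congrArg (lact g⁻¹) h
  simpa [lact_lact, lact_one] using this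

theorem lev_lact (g : F) (ω : Wd F Λ) : lev (lact g ω) = lev ω := by
  cases ω <;> simp [lact, lev]

theorem lev_mul (u v : Wd F Λ) : lev (mul u v) = lev u + lev v := by
  induction u with
  | nil x => simp [mul, lev, lev_lact]
  | cons x σ r ih => simp [mul, lev, ih]; omega

theorem mul_lact (g : F) (u v : Wd F Λ) : mul (lact g u) v = lact g (mul u v) := by
  cases u with
  | nil x => exact (lact_lact g x v).symm
  | cons x σ r => rfl

theorem lact_left_inj {g h : F} {v : Wd F Λ} (e : lact g v = lact h v) : g = h := by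
  cases v <;> simpa [lact] using e

theorem mul_inj (v : Wd F Λ) : Function.Injective (fun u : Wd F Λ => mul u v) := by
  intro u u' h
  induction u generalizing u' with
  | nil x =>
    cases u' with
    | nil y =>
      simp only [mul] at h
      rw [lact_left_inj h]
    | cons y σ r =>
      have := congrArg lev h
      simp only [lev_mul, lev] at this
      omega
  | cons x σ r ih =>
    cases u' with
    | nil y =>
      have := congrArg lev h
      simp only [lev_mul, lev] at this
      omega
    | cons y σ' r' =>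
      simp only [mul, cons.injEq] at h
      obtain ⟨h1, h2, h3⟩ := h
      rw [h1, h2, ih h3]

theorem mul_nil_nil (u : Wd F Λ) (g h : F) : mul (mul u (nil g)) (nil h) = mul u (nil (g * h)) := by
  induction u with
  | nil x => simp [mul, lact, mul_assoc]
  | cons x σ r ih => simp [mul, ih]

theorem mul_nil_one (u : Wd F Λ) : mul u (nil 1) = u := by
  induction u with
  | nil x => simp [mul, lact]
  | cons x σ r ih => simp [mul, ih]

theorem cons_inj (σ : Λ) : Function.Injective (cons (1 : F) σ) := by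
  intro u v h
  simpa using h

end Wd

open Wd

section Ops

variable {F Λ : Type} [Group F]

/-- The Fock space. -/
abbrev Fock (F Λ : Type) : Type := L2 (Wd F Λ)

/-- The vacuum vector. -/
noncomputable def vac : Fock F Λ := dl (nil 1)

/-- Left translation. -/
noncomputable def lam (g : F) : Bdd (Fock F Λ) := push (lact g) (lact_inj g)

/-- Creation. -/
noncomputable def cre (σ : Λ) : Bdd (Fock F Λ) := push (cons 1 σ) (cons_inj σ)

/-- Annihilation. -/
noncomputable def ann (σ : Λ) : Bdd (Fock F Λ) := pull (cons 1 σ) (cons_inj σ)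

/-- The semicircular element. -/
noncomputable def sem (σ : Λ) : Bdd (Fock F Λ) := cre σ + ann σ

/-- Right concatenation. -/
noncomputable def rop (v : Wd F Λ) : Bdd (Fock F Λ) := push (fun u => mul u v) (mul_inj v)

/-- A one letter word. -/
def ltr (σ : Λ) : Wd F Λ := cons 1 σ (nil 1)

/-- Right annihilation. -/
noncomputable def rann (σ : Λ) : Bdd (Fock F Λ) := star (rop (ltr σ))

/-- The vacuum projection. -/
noncomputable def pvac : Bdd (Fock F Λ) := (innerSL ℂ vac).smulRight vac

theorem pvac_apply (ξ : Fock F Λ) : pvac ξ = ξ (nil 1) • vac := by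
  simp [pvac, vac, inner_dl_left]

theorem inner_vac (ξ : Fock F Λ) : ⟪vac, ξ⟫_ℂ = ξ (nil 1) := inner_dl_left _ _

theorem norm_vac : ‖(vac : Fock F Λ)‖ = 1 := norm_dl _

theorem star_pvac : star (pvac : Bdd (Fock F Λ)) = pvac := by
  rw [ContinuousLinearMap.star_eq_adjoint, eq_comm, ContinuousLinearMap.eq_adjoint_iff]
  intro x y
  simp only [pvac, ContinuousLinearMap.smulRight_apply, innerSL_apply_apply, inner_smul_left,
    inner_smul_right, inner_conj_symm]
  ring

theorem lam_dl (g : F) (ω : Wd F Λ) : lam g (dl ω) = dl (lact g ω) := push_dl _ _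

theorem cre_dl (σ : Λ) (ω : Wd F Λ) : cre σ (dl ω) = dl (cons 1 σ ω) := push_dl _ _

theorem rop_dl (v ω : Wd F Λ) : rop v (dl ω) = dl (mul ω v) := push_dl _ _

theorem ann_nil (σ : Λ) (x : F) : ann σ (dl (nil x : Wd F Λ)) = 0 :=
  pull_dl_of_ne _ _ fun _ h => by cases h

theorem ann_cons (σ : Λ) (r : Wd F Λ) : ann σ (dl (cons 1 σ r)) = dl r := pull_dl _ _

theorem ann_cons_ne {σ σ' : Λ} {x : F} (r : Wd F Λ) (h : ¬ (x = 1 ∧ σ' = σ)) :
    ann σ (dl (cons x σ' r)) = 0 :=
  pull_dl_of_ne _ _ fun _ h' => by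
    simp only [cons.injEq] at h'
    exact h ⟨h'.1.symm, h'.2.1.symm⟩

theorem star_cre (σ : Λ) : star (cre σ : Bdd (Fock F Λ)) = ann σ := star_push _

theorem star_ann (σ : Λ) : star (ann σ : Bdd (Fock F Λ)) = cre σ := rfl

theorem star_sem (σ : Λ) : star (sem σ : Bdd (Fock F Λ)) = sem σ := by
  rw [sem, star_add, star_cre, star_ann, add_comm]

theorem norm_sem_le (σ : Λ) : ‖(sem σ : Bdd (Fock F Λ))‖ ≤ 2 := by
  have h1 : ‖(cre σ : Bdd (Fock F Λ))‖ ≤ 1 := norm_push_le _
  have h2 : ‖(ann σ : Bdd (Fock F Λ))‖ ≤ 1 := norm_pull_le _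
  exact (norm_add_le _ _).trans (by linarith)

theorem norm_lam_le (g : F) : ‖(lam g : Bdd (Fock F Λ))‖ ≤ 1 := norm_push_le _

theorem norm_rop_le (v : Wd F Λ) : ‖rop v‖ ≤ 1 := norm_push_le _

theorem lam_mul (g h : F) : (lam (g * h) : Bdd (Fock F Λ)) = lam g * lam h :=
  op_ext fun ω => by simp [lam_dl, lact_lact]

theorem lam_one : (lam (1 : F) : Bdd (Fock F Λ)) = 1 :=
  op_ext fun ω => by simp [lam_dl, lact_one]

theorem star_lam (g : F) : star (lam g : Bdd (Fock F Λ)) = lam g⁻¹ := by
  refine op_ext fun ω => ?_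
  rw [lam, star_push, lam_dl]
  have h := pull_dl (lact_inj (Λ := Λ) g) (lact g⁻¹ ω)
  rwa [lact_lact, mul_inv_cancel, lact_one] at h

theorem star_rop_nil (g : F) : star (rop (nil g) : Bdd (Fock F Λ)) = rop (nil g⁻¹) := by
  refine op_ext fun ω => ?_
  rw [rop, star_push, rop_dl]
  have h := pull_dl (mul_inj (nil g : Wd F Λ)) (mul ω (nil g⁻¹))
  simp only [mul_nil_nil, inv_mul_cancel, mul_nil_one] at h
  exact h

theorem lam_rop (g : F) (v : Wd F Λ) : lam g * rop v = rop v * lam g :=
  op_ext fun ω => by simp [lam_dl, rop_dl, mul_lact]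

theorem cre_rop (σ : Λ) (v : Wd F Λ) : cre σ * rop v = rop v * cre σ :=
  op_ext fun ω => by simp [cre_dl, rop_dl, mul]

theorem ann_rop_cons (σ : Λ) (v : Wd F Λ) (x : F) (σ' : Λ) (r : Wd F Λ) :
    ann σ (rop v (dl (cons x σ' r))) = rop v (ann σ (dl (cons x σ' r))) := by
  rw [rop_dl, mul]
  by_cases h : x = 1 ∧ σ' = σ
  · obtain ⟨rfl, rfl⟩ := h
    rw [ann_cons, ann_cons, rop_dl]
  · rw [ann_cons_ne _ h, ann_cons_ne _ h, map_zero]

theorem ann_rop_nil (σ : Λ) (g : F) :
    ann σ * rop (nil g) = rop (nil g : Wd F Λ) * ann σ := by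
  refine op_ext fun ω => ?_
  cases ω with
  | nil x => simp [rop_dl, mul, lact, ann_nil]
  | cons x σ' r => exact ann_rop_cons σ _ x σ' r

open Classical in
theorem ann_rop_ltr (σ σ' : Λ) :
    ann σ * rop (ltr σ' : Wd F Λ) = rop (ltr σ') * ann σ + if σ' = σ then pvac else 0 := by
  refine op_ext fun ω => ?_
  cases ω with
  | nil x =>
    simp only [mul_apply_eq_comp, add_apply, rop_dl, mul, ltr,
      lact, mul_one, ann_nil, map_zero, zero_add]
    by_cases h : σ' = σ
    · subst h
      rw [if_pos rfl, pvac_apply]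
      by_cases hx : x = 1
      · subst hx
        rw [ann_cons, dl_self, one_smul, vac]
      · rw [ann_cons_ne _ (fun h => hx h.1), dl_ne (fun h => hx (by cases h; rfl)), zero_smul]
    · rw [if_neg h, ann_cons_ne _ (fun h' => h h'.2)]
      rfl
  | cons x σ'' r =>
    simp only [mul_apply_eq_comp, add_apply, ann_rop_cons]
    split_ifs
    · rw [pvac_apply, dl_ne (by simp), zero_smul, add_zero]
    · simp

theorem rann_lam (σ : Λ) (g : F) : (rann σ : Bdd (Fock F Λ)) * lam g = lam g * rann σ := by
  have h := congrArg star (lam_rop g⁻¹ (ltr σ : Wd F Λ))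
  simpa only [star_mul, star_lam, inv_inv, rann] using h

theorem rann_ann (σ σ' : Λ) : (rann σ : Bdd (Fock F Λ)) * ann σ' = ann σ' * rann σ := by
  have h := congrArg star (cre_rop σ' (ltr σ : Wd F Λ))
  simpa only [star_mul, star_cre, rann] using h

open Classical in
theorem rann_cre (σ σ' : Λ) :
    (rann σ : Bdd (Fock F Λ)) * cre σ' = cre σ' * rann σ + if σ = σ' then pvac else 0 := by
  have h := congrArg star (ann_rop_ltr (F := F) σ' σ)
  simp only [star_mul, star_add, star_ann] at h
  rw [rann, h]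
  congr 1
  split_ifs
  · exact star_pvac
  · exact star_zero _

open Classical in
theorem rann_sem (σ σ' : Λ) :
    (rann σ : Bdd (Fock F Λ)) * sem σ' = sem σ' * rann σ + if σ = σ' then pvac else 0 := by
  rw [sem, mul_add, add_mul, rann_cre, rann_ann]
  abel

theorem rop_nil_sem (g : F) (σ : Λ) :
    (rop (nil g) : Bdd (Fock F Λ)) * sem σ = sem σ * rop (nil g) := by
  rw [sem, mul_add, add_mul, cre_rop, ann_rop_nil]

open Classical in
theorem rsem_sem (σ σ' : Λ) :
    (rop (ltr σ) + rann σ : Bdd (Fock F Λ)) * sem σ' = sem σ' * (rop (ltr σ) + rann σ) := by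
  rw [add_mul, mul_add, rann_sem]
  have h : (rop (ltr σ) : Bdd (Fock F Λ)) * sem σ' + (if σ = σ' then pvac else 0) =
      sem σ' * rop (ltr σ) := by
    rw [sem, mul_add, add_mul, cre_rop, ann_rop_ltr]
    abel
  rw [← h]
  abel

theorem rann_vac (σ : Λ) : rann σ (vac : Fock F Λ) = 0 := by
  rw [rann, rop, star_push, vac]
  refine pull_dl_of_ne _ _ fun u h => ?_
  have := congrArg lev h
  simp [lev_mul, lev, ltr] at this

theorem rop_vac (v : Wd F Λ) : rop v vac = dl v := by
  rw [vac, rop_dl, mul, lact_one]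

theorem lam_vac (g : F) : lam g (vac : Fock F Λ) = dl (nil g) := by
  rw [vac, lam_dl, lact, mul_one]

theorem sem_vac (σ : Λ) : sem σ (vac : Fock F Λ) = dl (ltr σ) := by
  rw [sem, add_apply, vac, cre_dl, ann_nil, add_zero, ltr]

end Ops

end Vale.Agent.P087
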