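import Vale.Agent.P087.Fock1

/-! The tracial von Neumann algebra acting on the Fock space. -/

set_option linter.unusedSectionVars false

namespace Vale.Agent.P087

open scoped InnerProductSpace

section General

variable {H : Type} [NormedAddCommGroup H] [InnerProductSpace ℂ H] [CompleteSpace H]

theorem tau_add (Ω : H) (x y : Bdd H) : tau Ω (x + y) = tau Ω x + tau Ω y := by
  simp [tau]

theorem tau_sub (Ω : H) (x y : Bdd H) : tau Ω (x - y) = tau Ω x - tau Ω y := by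
  simp [tau]

theorem tau_smul (Ω : H) (c : ℂ) (x : Bdd H) : tau Ω (c • x) = c * tau Ω x := by
  simp [tau]

theorem tau_zero (Ω : H) : tau Ω 0 = 0 := by simp [tau]

theorem tau_one {Ω : H} (h : ‖Ω‖ = 1) : tau Ω 1 = 1 := by
  simp [tau, h]

theorem tau_star_mul (Ω : H) (x y : Bdd H) : tau Ω (star x * y) = ⟪x Ω, y Ω⟫_ℂ := by
  rw [tau, mul_apply_eq_comp, ContinuousLinearMap.star_eq_adjoint,
    ContinuousLinearMap.adjoint_inner_right]

theorem tau_mul (Ω : H) (x y : Bdd H) : tau Ω (x * y) = ⟪star x Ω, y Ω⟫_ℂ := by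
  rw [← tau_star_mul, star_star]

theorem tau_star (Ω : H) (x : Bdd H) : tau Ω (star x) = (starRingEnd ℂ) (tau Ω x) := by
  have h := tau_star_mul Ω x 1
  rw [mul_one] at h
  rw [h, tau, inner_conj_symm]
  rfl

theorem norm_sq_eq_of_tau {Ω : H} {x y : Bdd H}
    (h : tau Ω (star x * x) = tau Ω (star y * y)) : ‖x Ω‖ = ‖y Ω‖ := by
  rw [tau_star_mul, tau_star_mul, inner_self_eq_norm_sq_to_K, inner_self_eq_norm_sq_to_K] at h
  have h2 : ‖x Ω‖ ^ 2 = ‖y Ω‖ ^ 2 := by exact_mod_cast h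
  exact (pow_left_inj₀ (norm_nonneg _) (norm_nonneg _) two_ne_zero).1 h2

theorem IsTracial.norm_star {M : VonNeumannAlgebra H} {Ω : H} (h : IsTracial M Ω) {x : Bdd H}
    (hx : x ∈ M) : ‖star x Ω‖ = ‖x Ω‖ := by
  apply norm_sq_eq_of_tau
  rw [star_star]
  exact h.2.1 _ hx _ (star_mem hx)

theorem IsTracial.norm_mul_le {M : VonNeumannAlgebra H} {Ω : H} (h : IsTracial M Ω)
    {x y : Bdd H} (hx : x ∈ M) (hy : y ∈ M) : ‖(x * y) Ω‖ ≤ ‖x Ω‖ * ‖y‖ := by
  rw [← h.norm_star (mul_mem hx hy), star_mul, mul_apply_eq_comp, ← h.norm_star hx,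
    ← _root_.norm_star y, mul_comm]
  exact (star y).le_opNorm _

theorem tracial_of (M : VonNeumannAlgebra H) (Ω : H) (hΩ : ‖Ω‖ = 1)
    (L : StarSubalgebra ℂ (Bdd H)) (hLM : ∀ l ∈ L, l ∈ M)
    (hL : ∀ l ∈ L, ∀ x ∈ M, tau Ω (x * l) = tau Ω (l * x))
    (hd : ∀ v : H, ∀ δ : ℝ, 0 < δ → ∃ l ∈ L, ‖v - l Ω‖ < δ) : IsTracial M Ω := by
  have hl : ∀ l ∈ L, ‖star l Ω‖ = ‖l Ω‖ := fun l hl => by
    apply norm_sq_eq_of_tau
    rw [star_star]
    exact hL _ (star_mem hl) _ (hLM l hl)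
  have h1 : ∀ y ∈ M, ‖star y Ω‖ ≤ ‖y Ω‖ := fun y hy => by
    have h2 : ∀ l ∈ L, ‖⟪star y Ω, l Ω⟫_ℂ‖ ≤ ‖l Ω‖ * ‖y Ω‖ := fun l hl' => by
      rw [← tau_mul, hL l hl' y hy, tau_mul, ← hl l hl']
      exact norm_inner_le_norm _ _
    have h3 : ∀ v : H, ‖⟪star y Ω, v⟫_ℂ‖ ≤ ‖v‖ * ‖y Ω‖ := fun v => by
      have hc : IsClosed {v : H | ‖⟪star y Ω, v⟫_ℂ‖ ≤ ‖v‖ * ‖y Ω‖} :=
        isClosed_le (by fun_prop) (by fun_prop)
      refine Set.mem_of_subset_of_mem
        ((hc.closure_subset_iff (s := {v | ∃ l ∈ L, l Ω = v})).2 ?_) (a := v) ?_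
      · rintro _ ⟨l, hl', rfl⟩
        exact h2 l hl'
      · rw [Metric.mem_closure_iff]
        intro δ hδ
        obtain ⟨l, hl', h⟩ := hd v δ hδ
        exact ⟨l Ω, ⟨l, hl', rfl⟩, by rwa [dist_eq_norm]⟩
    have h4 := h3 (star y Ω)
    rw [inner_self_eq_norm_sq_to_K] at h4
    simp only [norm_pow, Complex.coe_algebraMap, Complex.norm_real, norm_norm] at h4
    by_contra hcon
    push Not at hcon
    nlinarith [norm_nonneg (y Ω)]
  have htr : ∀ x ∈ M, ∀ y ∈ M, tau Ω (x * y) = tau Ω (y * x) := by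
    intro x hx y hy
    refine eq_of_forall_dist_le fun δ hδ => ?_
    have hpos : 0 < ‖star x Ω‖ + ‖x Ω‖ + 1 := by positivity
    obtain ⟨l, hl', h⟩ := hd (y Ω) (δ / (‖star x Ω‖ + ‖x Ω‖ + 1)) (by positivity)
    have hyl : y - l ∈ M := sub_mem hy (hLM l hl')
    have e : tau Ω (x * y) - tau Ω (y * x) = tau Ω (x * (y - l)) - tau Ω ((y - l) * x) := by
      rw [mul_sub, sub_mul, tau_sub, tau_sub, hL l hl' x hx]
      ring
    have h5 : ‖(y - l) Ω‖ < δ / (‖star x Ω‖ + ‖x Ω‖ + 1) := h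
    have h6 : ‖tau Ω (x * (y - l))‖ ≤ ‖star x Ω‖ * ‖(y - l) Ω‖ := by
      rw [tau_mul]
      exact norm_inner_le_norm _ _
    have h7 : ‖tau Ω ((y - l) * x)‖ ≤ ‖(y - l) Ω‖ * ‖x Ω‖ := by
      rw [tau_mul]
      exact (norm_inner_le_norm _ _).trans
        (mul_le_mul_of_nonneg_right (h1 _ hyl) (norm_nonneg _))
    rw [dist_eq_norm, e]
    refine (norm_sub_le _ _).trans ?_
    rw [lt_div_iff₀ hpos] at h5
    nlinarith [norm_nonneg ((y - l) Ω)]
  refine ⟨hΩ, htr, fun x hx h0 => ?_⟩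
  have hx0 : x Ω = 0 := by
    rw [tau_star_mul, inner_self_eq_zero] at h0
    exact h0
  have hxs : star x Ω = 0 := by
    have := h1 x hx
    rw [hx0, norm_zero] at this
    exact norm_le_zero_iff.1 this
  have hxl : ∀ l ∈ L, x (l Ω) = 0 := fun l hl' => by
    have := h1 (star (x * l)) (star_mem (mul_mem hx (hLM l hl')))
    rw [star_star, star_mul, mul_apply_eq_comp, mul_apply_eq_comp, hxs, map_zero,
      norm_zero] at this
    exact norm_le_zero_iff.1 this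
  ext1 v
  have hc : IsClosed {v : H | x v = 0} := isClosed_eq (by fun_prop) (by fun_prop)
  refine Set.mem_of_subset_of_mem
    ((hc.closure_subset_iff (s := {v | ∃ l ∈ L, l Ω = v})).2 ?_) (a := v) ?_
  · rintro _ ⟨l, hl', rfl⟩
    exact hxl l hl'
  · rw [Metric.mem_closure_iff]
    intro δ hδ
    obtain ⟨l, hl', h⟩ := hd v δ hδ
    exact ⟨l Ω, ⟨l, hl', rfl⟩, by rwa [dist_eq_norm]⟩

/-- The commutant of a set of operators and their adjoints. -/
noncomputable def commVN (s : Set (Bdd H)) : VonNeumannAlgebra H where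
  toStarSubalgebra := StarSubalgebra.centralizer ℂ s
  centralizer_centralizer' := by simp

theorem mem_commVN {s : Set (Bdd H)} {x : Bdd H} :
    x ∈ commVN s ↔ ∀ g ∈ s, g * x = x * g ∧ star g * x = x * star g :=
  StarSubalgebra.mem_centralizer_iff ℂ

end General

open Wd

variable {F Λ : Type} [Group F]

variable (F Λ) in
/-- The right operators. -/
def rset : Set (Bdd (Fock F Λ)) :=
  Set.range (fun g : F => rop (nil g)) ∪ Set.range fun σ : Λ => rop (ltr σ) + rann σ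

variable (F Λ) in
/-- The von Neumann algebra. -/
noncomputable def fockVN : VonNeumannAlgebra (Fock F Λ) := commVN (rset F Λ)

theorem star_rsem (σ : Λ) :
    star (rop (ltr σ) + rann σ : Bdd (Fock F Λ)) = rop (ltr σ) + rann σ := by
  rw [star_add, rann, star_star, add_comm]

theorem mem_fockVN {x : Bdd (Fock F Λ)} : x ∈ fockVN F Λ ↔
    (∀ g : F, rop (nil g) * x = x * rop (nil g)) ∧
      ∀ σ : Λ, (rop (ltr σ) + rann σ) * x = x * (rop (ltr σ) + rann σ) := by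
  rw [fockVN, mem_commVN]
  constructor
  · intro h
    exact ⟨fun g => (h _ (Or.inl ⟨g, rfl⟩)).1, fun σ => (h _ (Or.inr ⟨σ, rfl⟩)).1⟩
  · rintro ⟨h1, h2⟩ _ (⟨g, rfl⟩ | ⟨σ, rfl⟩)
    · exact ⟨h1 g, by rw [star_rop_nil]; exact h1 _⟩
    · exact ⟨h2 σ, by rw [star_rsem]; exact h2 _⟩

theorem lam_mem (g : F) : lam g ∈ fockVN F Λ :=
  mem_fockVN.2 ⟨fun h => (lam_rop g _).symm, fun σ => by
    rw [add_mul, mul_add, rann_lam, lam_rop]⟩

theorem sem_mem (σ : Λ) : sem σ ∈ fockVN F Λ :=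
  mem_fockVN.2 ⟨fun h => rop_nil_sem h σ, fun σ' => rsem_sem σ' σ⟩

theorem tau_comm_of {x y y' : Bdd (Fock F Λ)} (hc : y' * x = x * y') (h1 : y vac = y' vac)
    (h2 : star y vac = star y' vac) : tau vac (x * y) = tau vac (y * x) := by
  rw [tau_mul vac y, h2, ← tau_mul, hc, tau, tau, mul_apply_eq_comp, mul_apply_eq_comp, h1]

variable (F Λ) in
/-- Elements of the von Neumann algebra for which the vacuum state is tracial. -/
noncomputable def trAlg : StarSubalgebra ℂ (Bdd (Fock F Λ)) where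
  carrier := {l | l ∈ fockVN F Λ ∧ ∀ x ∈ fockVN F Λ, tau vac (x * l) = tau vac (l * x)}
  mul_mem' := by
    rintro a b ⟨ha, ha'⟩ ⟨hb, hb'⟩
    refine ⟨mul_mem ha hb, fun x hx => ?_⟩
    rw [← mul_assoc, hb' _ (mul_mem hx ha), ← mul_assoc, ha' _ (mul_mem hb hx), mul_assoc]
  add_mem' := by
    rintro a b ⟨ha, ha'⟩ ⟨hb, hb'⟩
    refine ⟨add_mem ha hb, fun x hx => ?_⟩
    rw [mul_add, add_mul, tau_add, tau_add, ha' x hx, hb' x hx]
  algebraMap_mem' c := ⟨(fockVN F Λ).toStarSubalgebra.algebraMap_mem c, fun x _ => by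
    rw [Algebra.commutes]⟩
  star_mem' := by
    rintro a ⟨ha, ha'⟩
    refine ⟨star_mem ha, fun x hx => ?_⟩
    have h := congrArg (starRingEnd ℂ) (ha' (star x) (star_mem hx))
    rw [← tau_star, ← tau_star, star_mul, star_mul, star_star] at h
    exact h.symm

theorem lam_mem_trAlg (g : F) : lam g ∈ trAlg F Λ :=
  ⟨lam_mem g, fun x hx => tau_comm_of ((mem_fockVN.1 hx).1 g) (by rw [lam_vac, rop_vac])
    (by rw [star_lam, star_rop_nil, lam_vac, rop_vac])⟩

theorem sem_mem_trAlg (σ : Λ) : sem σ ∈ trAlg F Λ :=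
  ⟨sem_mem σ, fun x hx => tau_comm_of ((mem_fockVN.1 hx).2 σ)
    (by rw [sem_vac, add_apply, rop_vac, rann_vac, add_zero])
    (by rw [star_sem, star_rsem, sem_vac, add_apply, rop_vac, rann_vac, add_zero])⟩

theorem exists_trAlg_dl (N : ℕ) : ∀ ω : Wd F Λ, lev ω ≤ N → ∃ l ∈ trAlg F Λ, l vac = dl ω := by
  induction N with
  | zero =>
    intro ω hω
    cases ω with
    | nil x => exact ⟨lam x, lam_mem_trAlg x, lam_vac x⟩
    | cons x σ r => simp [lev] at hω
  | succ N ih =>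
    intro ω hω
    cases ω with
    | nil x => exact ⟨lam x, lam_mem_trAlg x, lam_vac x⟩
    | cons x σ r =>
      have hr : lev r ≤ N := by simpa [lev] using hω
      obtain ⟨l, hl, e⟩ := ih r hr
      have h2 : ∃ l' ∈ trAlg F Λ, l' vac = ann σ (dl r) := by
        cases r with
        | nil y => exact ⟨0, zero_mem _, by rw [ann_nil]; rfl⟩
        | cons y σ' r' =>
          by_cases h : y = 1 ∧ σ' = σ
          · obtain ⟨rfl, rfl⟩ := h
            rw [ann_cons]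
            exact ih r' (by simp only [lev] at hr; omega)
          · exact ⟨0, zero_mem _, by rw [ann_cons_ne _ h]; rfl⟩
      obtain ⟨l', hl', e'⟩ := h2
      refine ⟨lam x * (sem σ * l - l'), mul_mem (lam_mem_trAlg x)
        (sub_mem (mul_mem (sem_mem_trAlg σ) hl) hl'), ?_⟩
      rw [mul_apply_eq_comp, sub_apply, mul_apply_eq_comp, e, e', sem, add_apply,
        add_sub_cancel_right, cre_dl, lam_dl, lact, mul_one]

theorem fock_tracial : IsTracial (fockVN F Λ) (vac : Fock F Λ) := by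
  refine tracial_of _ _ norm_vac (trAlg F Λ) (fun l hl => hl.1) (fun l hl => hl.2) ?_
  intro v δ hδ
  have h := (hasSum_dl v).eventually (Metric.ball_mem_nhds v hδ)
  obtain ⟨s, hs⟩ := h.exists
  choose l hl e using fun ω : Wd F Λ => exists_trAlg_dl (lev ω) ω le_rfl
  refine ⟨∑ ω ∈ s, v ω • l ω, sum_mem fun ω _ => SMulMemClass.smul_mem _ (hl ω), ?_⟩
  rw [dist_eq_norm, norm_sub_rev] at hs
  simpa [sum_apply, e] using hs

end Vale.Agent.P087
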