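import Vale.Agent.P087.Fock2

/-! Dual operators give conjugate variables and Schwinger-Dyson equations. -/

set_option linter.unusedSectionVars false

namespace Vale.Agent.P087

open scoped InnerProductSpace

theorem word_nil {A ι : Type} [Monoid A] (X : ι → A) : word X [] = 1 := rfl

theorem word_cons {A ι : Type} [Monoid A] (X : ι → A) (i : ι) (w : List ι) :
    word X (i :: w) = X i * word X w := by simp [word]

theorem word_append {A ι : Type} [Monoid A] (X : ι → A) (u v : List ι) :
    word X (u ++ v) = word X u * word X v := by simp [word]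

theorem word_map {A ι κ : Type} [Monoid A] (X : ι → A) (f : κ → ι) (w : List κ) :
    word X (w.map f) = word (fun k => X (f k)) w := by
  simp [word, Function.comp_def]

theorem star_word {A ι : Type} [Monoid A] [StarMul A] (X : ι → A) (hX : ∀ i, star (X i) = X i)
    (w : List ι) : star (word X w) = word X w.reverse := by
  induction w with
  | nil => simp [word]
  | cons i w ih => rw [word_cons, star_mul, ih, hX, List.reverse_cons, word_append]; simp [word]

theorem word_mem {A ι S : Type} [Monoid A] [SetLike S A] [SubmonoidClass S A] (M : S) (X : ι → A)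
    (hX : ∀ i, X i ∈ M) (w : List ι) : word X w ∈ M := by
  induction w with
  | nil => exact one_mem M
  | cons i w ih => rw [word_cons]; exact mul_mem (hX i) ih

theorem dq_reverse {ι : Type} [DecidableEq ι] (φ : List ι → ℂ)
    (hφ : ∀ u, φ u.reverse = (starRingEnd ℂ) (φ u)) (j : ι) (w : List ι) :
    dq φ j w.reverse = (starRingEnd ℂ) (dq φ j w) := by
  unfold dq
  rw [map_sum, List.length_reverse, ← Finset.sum_range_reflect]
  refine Finset.sum_congr rfl fun p hp => ?_
  have hp' : p < w.length := Finset.mem_range.1 hp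
  have e1 : w.reverse[w.length - 1 - p]? = w[p]? := by
    rw [List.getElem?_reverse (by omega)]
    congr 1
    omega
  have e2 : w.reverse.take (w.length - 1 - p) = (w.drop (p + 1)).reverse := by
    rw [List.take_reverse]
    congr 2
    omega
  have e3 : w.reverse.drop (w.length - 1 - p + 1) = (w.take p).reverse := by
    rw [List.drop_reverse]
    congr 2
    omega
  rw [e1, e2, e3, hφ, hφ]
  split_ifs
  · rw [map_mul, mul_comm]
  · simp

section General

variable {H : Type} [NormedAddCommGroup H] [InnerProductSpace ℂ H] [CompleteSpace H]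

theorem law_reverse {ι : Type} (Ω : H) (Z : ι → Bdd H) (hZ : ∀ i, star (Z i) = Z i)
    (u : List ι) : law Ω Z u.reverse = (starRingEnd ℂ) (law Ω Z u) := by
  rw [law, law, ← star_word Z hZ, tau_star]

theorem dual_vec {V J : Type} [AddCommGroup V] [Module ℂ V] [DecidableEq J] (Ω : H)
    (ι T : V →ₗ[ℂ] H) (Zv : J → Module.End ℂ V) (Z : J → Bdd H) (ω₀ : V) (j : J) (c : ℂ)
    (hZ : ∀ k v, ι (Zv k v) = Z k (ι v)) (h0 : ι ω₀ = Ω) (hT0 : T ω₀ = 0)
    (hT : ∀ k v, T (Zv k v) = Z k (T v) + if k = j then (c * ⟪Ω, ι v⟫_ℂ) • Ω else 0)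
    (w : List J) : ι (word Zv w ω₀) = word Z w Ω ∧ T (word Zv w ω₀) =
      ∑ p ∈ Finset.range w.length, if w[p]? = some j then
        (c * law Ω Z (w.drop (p + 1))) • word Z (w.take p) Ω else 0 := by
  induction w with
  | nil => exact ⟨h0, by simpa [word] using hT0⟩
  | cons i w ih =>
    obtain ⟨ih1, ih2⟩ := ih
    refine ⟨by rw [word_cons, word_cons, Module.End.mul_apply, hZ, ih1]; rfl, ?_⟩
    rw [word_cons, Module.End.mul_apply, hT, ih1, ih2, List.length_cons, Finset.sum_range_succ',
      map_sum]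
    congr 1
    · refine Finset.sum_congr rfl fun p _ => ?_
      simp only [List.getElem?_cons_succ, List.drop_succ_cons, List.take_succ_cons, word_cons]
      split_ifs
      · rw [map_smul]
        rfl
      · exact map_zero _
    · simp only [List.getElem?_cons_zero, Option.some.injEq, List.drop_succ_cons, List.drop_zero,
        List.take_zero, zero_add]
      rfl

theorem dual_inner {V J : Type} [AddCommGroup V] [Module ℂ V] [DecidableEq J] (Ω : H)
    (ι T : V →ₗ[ℂ] H) (Zv : J → Module.End ℂ V) (Z : J → Bdd H) (ω₀ : V) (j : J) (c : ℂ)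
    (hZ : ∀ k v, ι (Zv k v) = Z k (ι v)) (h0 : ι ω₀ = Ω) (hT0 : T ω₀ = 0)
    (hT : ∀ k v, T (Zv k v) = Z k (T v) + if k = j then (c * ⟪Ω, ι v⟫_ℂ) • Ω else 0)
    (w : List J) : ⟪Ω, T (word Zv w ω₀)⟫_ℂ = c * dq (law Ω Z) j w := by
  rw [(dual_vec Ω ι T Zv Z ω₀ j c hZ h0 hT0 hT w).2, inner_sum, dq, Finset.mul_sum]
  refine Finset.sum_congr rfl fun p _ => ?_
  split_ifs
  · rw [inner_smul_right]
    simp only [law, tau]
    ring
  · simp

theorem coe_word {J : Type} (Z : J → Bdd H) (w : List J) (v : H) :
    word (fun k => (Z k : Module.End ℂ H)) w v = word Z w v := by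
  induction w with
  | nil => rfl
  | cons i w ih => rw [word_cons, word_cons, Module.End.mul_apply, ih]; rfl

/-- Bounded version. -/
theorem dual_bdd {J : Type} [DecidableEq J] (Ω : H) (T : Bdd H) (Z : J → Bdd H) (j : J) (c : ℂ)
    (hT0 : T Ω = 0)
    (hT : ∀ k v, T (Z k v) = Z k (T v) + if k = j then (c * ⟪Ω, v⟫_ℂ) • Ω else 0)
    (w : List J) : ⟪Ω, T (word Z w Ω)⟫_ℂ = c * dq (law Ω Z) j w := by
  have h := dual_inner Ω LinearMap.id (T : H →ₗ[ℂ] H) (fun k => (Z k : Module.End ℂ H)) Z Ω j c
    (fun _ _ => rfl) rfl hT0 hT w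
  rwa [coe_word] at h

theorem exists_conj {n : ℕ} (Ω : H) (Z : Fin n → Bdd H) (hZ : ∀ i, star (Z i) = Z i) (j : Fin n)
    (ζ : H) (hζ : ∀ w, ⟪ζ, word Z w Ω⟫_ℂ = dq (law Ω Z) j w) :
    ∃ ξ, IsConj Ω Z j ξ ∧ ‖ξ‖ ≤ ‖ζ‖ := by
  let K := (Submodule.span ℂ (Set.range fun w : List (Fin n) => word Z w Ω)).topologicalClosure
  have : CompleteSpace K := (Submodule.isClosed_topologicalClosure _).completeSpace_coe
  refine ⟨K.starProjection ζ, ⟨K.starProjection_apply_mem ζ, fun w => ?_⟩,
    K.norm_starProjection_apply_le ζ⟩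
  have hw : word Z w.reverse Ω ∈ K :=
    Submodule.le_topologicalClosure _ (Submodule.subset_span ⟨_, rfl⟩)
  have h1 : ⟪K.starProjection ζ, word Z w.reverse Ω⟫_ℂ = ⟪ζ, word Z w.reverse Ω⟫_ℂ := by
    have := K.starProjection_inner_eq_zero ζ _ hw
    rw [inner_sub_left, sub_eq_zero] at this
    exact this.symm
  rw [hζ, dq_reverse _ (law_reverse Ω Z hZ), ← star_word Z hZ,
    ContinuousLinearMap.star_eq_adjoint, ContinuousLinearMap.adjoint_inner_right] at h1
  have h2 := congrArg (starRingEnd ℂ) h1
  rwa [inner_conj_symm, Complex.conj_conj] at h2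

theorem fisher_le {n : ℕ} (Ω : H) (Z : Fin n → Bdd H) (b : Fin n → ℝ) (hb : ∀ j, 0 ≤ b j)
    (h : ∀ j, ∃ ξ, IsConj Ω Z j ξ ∧ ‖ξ‖ ^ 2 ≤ b j) :
    fisher Ω Z ≤ ENNReal.ofReal (∑ j, b j) := by
  choose ξ h1 h2 using h
  refine (iInf₂_le ξ h1).trans ?_
  rw [ENNReal.ofReal_sum_of_nonneg fun j _ => hb j]
  exact Finset.sum_le_sum fun j _ => ENNReal.ofReal_le_ofReal (h2 j)

end General

theorem semicircular_of_rec (m : ℕ → ℂ) (h0 : m 0 = 1)
    (h : ∀ p, m (p + 1) = ∑ i ∈ Finset.range p, m i * m (p - (i + 1))) (p : ℕ) :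
    m (2 * p) = catalan p ∧ m (2 * p + 1) = 0 := by
  induction p using Nat.strong_induction_on with
  | _ p ih =>
    have hsplit : ∀ (f : ℕ → ℂ) (q : ℕ), ∑ i ∈ Finset.range (2 * q), f i =
        ∑ i ∈ Finset.range q, (f (2 * i) + f (2 * i + 1)) := by
      intro f q
      induction q with
      | zero => simp
      | succ q ihq =>
        rw [show 2 * (q + 1) = 2 * q + 1 + 1 by ring, Finset.sum_range_succ, Finset.sum_range_succ,
          ihq, Finset.sum_range_succ]
        ring
    constructor
    · cases p with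
      | zero => simpa using h0
      | succ p =>
        rw [show 2 * (p + 1) = 2 * p + 1 + 1 by ring, h, Finset.sum_range_succ, hsplit,
          catalan_succ, Fin.sum_univ_eq_sum_range (fun i => catalan i * catalan (p - i)),
          Finset.sum_range_succ]
        push_cast
        congr 1
        · refine Finset.sum_congr rfl fun i hi => ?_
          have hi' : i < p := Finset.mem_range.1 hi
          rw [(ih i (by omega)).1, (ih i (by omega)).2,
            show 2 * p - 2 * i = 2 * (p - i) by omega, (ih (p - i) (by omega)).1]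
          ring
        · rw [(ih p (by omega)).1, Nat.sub_self, Nat.sub_self, h0]
          simp
    · rw [h, hsplit]
      refine Finset.sum_eq_zero fun i hi => ?_
      have hi' : i < p := Finset.mem_range.1 hi
      rw [(ih i hi').2, show 2 * p - (2 * i + 1) = 2 * (p - i - 1) + 1 by omega,
        (ih (p - i - 1) (by omega)).2]
      ring

open Wd

variable {F Λ : Type} [Group F]

theorem star_sem_vac (σ : Λ) (v : Fock F Λ) : ⟪vac, sem σ v⟫_ℂ = ⟪vac, rann σ v⟫_ℂ := by
  rw [← star_sem, rann, ContinuousLinearMap.star_eq_adjoint, ContinuousLinearMap.star_eq_adjoint,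
    ContinuousLinearMap.adjoint_inner_right, ContinuousLinearMap.adjoint_inner_right, sem_vac,
    rop_vac]

open Classical in
theorem rann_sem_apply (σ σ' : Λ) (v : Fock F Λ) :
    rann σ (sem σ' v) = sem σ' (rann σ v) + if σ = σ' then ⟪vac, v⟫_ℂ • vac else 0 := by
  have h := congrArg (fun T : Bdd (Fock F Λ) => T v) (rann_sem σ σ')
  simp only [mul_apply_eq_comp, add_apply] at h
  rw [h]
  split_ifs
  · rw [pvac_apply, inner_vac]
  · rfl

theorem word_replicate {A : Type} [Monoid A] (s : A) (w : List Unit) :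
    word (fun _ : Unit => s) w = s ^ w.length := by
  induction w with
  | nil => simp [word]
  | cons i w ih => rw [word_cons, ih, List.length_cons, pow_succ']

theorem sem_semicircular (σ : Λ) : Semicircular (tau (vac : Fock F Λ)) (sem σ) := by
  intro p
  refine semicircular_of_rec (fun p => tau (vac : Fock F Λ) (sem σ ^ p))
    (by simpa using tau_one norm_vac) (fun p => ?_) p
  have h := dual_bdd (vac : Fock F Λ) (rann σ) (fun _ : Unit => sem σ) () 1 (rann_vac σ)
    (fun k v => by rw [rann_sem_apply]; simp) (List.replicate p ())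
  rw [word_replicate, List.length_replicate, ← star_sem_vac] at h
  simp only [pow_succ', tau, mul_apply_eq_comp]
  rw [h, one_mul, dq, List.length_replicate]
  refine Finset.sum_congr rfl fun i hi => ?_
  have hi' : i < p := Finset.mem_range.1 hi
  rw [if_pos (by simp [hi']), law, law, word_replicate, word_replicate]
  simp [tau, hi'.le]

end Vale.Agent.P087
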