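import Vale.Agent.P087.Fock3

/-! Free independence on the Fock space. -/

set_option linter.unusedSectionVars false

namespace Vale.Agent.P087

open scoped InnerProductSpace
open Wd

theorem FreeIndep.mono {A ι : Type} [Ring A] [Algebra ℂ A] {τ : A → ℂ} {B B' : ι → Subalgebra ℂ A}
    (h : FreeIndep τ B) (hle : ∀ i, B' i ≤ B i) : FreeIndep τ B' :=
  fun l h1 h2 h3 => h l h1 h2 fun p hp => ⟨hle _ (h3 p hp).1, (h3 p hp).2⟩

variable {F Λ κ : Type} [Group F] (cl : Λ → κ) (κ₀ : κ)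

/-- Words all of whose letters are of class `k`. -/
def Pure (k : κ) : Wd F Λ → Prop
  | nil x => k = κ₀ ∨ x = 1
  | cons x σ r => (k = κ₀ ∨ x = 1) ∧ cl σ = k ∧ Pure k r

/-- Words whose first letter is of class `k`. -/
def Starts (k : κ) : Wd F Λ → Prop
  | nil x => x ≠ 1 ∧ k = κ₀
  | cons x σ _ => (x = 1 ∧ cl σ = k) ∨ (x ≠ 1 ∧ k = κ₀)

theorem Starts.unique {k k' : κ} {ω : Wd F Λ} (h : Starts cl κ₀ k ω) (h' : Starts cl κ₀ k' ω) :
    k = k' := by
  cases ω with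
  | nil x => exact h.2.trans h'.2.symm
  | cons x σ r =>
    rcases h with h | h <;> rcases h' with h' | h'
    · exact h.2.symm.trans h'.2
    · exact absurd h.1 h'.1
    · exact absurd h'.1 h.1
    · exact h.2.trans h'.2.symm

theorem starts_mul {k : κ} {ω v : Wd F Λ} (h : Pure cl κ₀ k ω) (h1 : ω ≠ nil 1)
    (hv : ¬ Starts cl κ₀ k v) : Starts cl κ₀ k (mul ω v) := by
  cases ω with
  | nil x =>
    have hx : x ≠ 1 := fun h => h1 (by rw [h])
    have hk : k = κ₀ := h.resolve_right hx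
    cases v with
    | nil y =>
      have hy : y = 1 := by
        by_contra hy
        exact hv ⟨hy, hk⟩
      subst hy
      exact ⟨by simpa using hx, hk⟩
    | cons y σ r =>
      have hy : y = 1 := by
        by_contra hy
        exact hv (Or.inr ⟨hy, hk⟩)
      subst hy
      exact Or.inr ⟨by simpa using hx, hk⟩
  | cons x σ r =>
    by_cases hx : x = 1
    · exact Or.inl ⟨hx, h.2.1⟩
    · exact Or.inr ⟨hx, h.1.resolve_right hx⟩

/-- The algebra of class `k`. -/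
def clAlg (k : κ) : Subalgebra ℂ (Bdd (Fock F Λ)) where
  carrier := {b | ∀ η : Fock F Λ, (∀ ω, η ω ≠ 0 → Pure cl κ₀ k ω) →
    (∀ ω, b η ω ≠ 0 → Pure cl κ₀ k ω) ∧
      ∀ v, ¬ Starts cl κ₀ k v → b (rop v η) = rop v (b η)}
  mul_mem' := by
    intro a b ha hb η hη
    obtain ⟨h1, h2⟩ := hb η hη
    obtain ⟨h3, h4⟩ := ha _ h1
    exact ⟨h3, fun v hv => by rw [mul_apply_eq_comp, mul_apply_eq_comp, h2 v hv, h4 v hv]⟩
  add_mem' := by
    intro a b ha hb η hη
    obtain ⟨h1, h2⟩ := hb η hη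
    obtain ⟨h3, h4⟩ := ha η hη
    refine ⟨fun ω hω => ?_, fun v hv => by rw [add_apply, add_apply, h2 v hv, h4 v hv, map_add]⟩
    by_contra hc
    apply hω
    have e1 : a η ω = 0 := by_contra fun h => hc (h3 ω h)
    have e2 : b η ω = 0 := by_contra fun h => hc (h1 ω h)
    simp [e1, e2]
  algebraMap_mem' c := by
    intro η hη
    refine ⟨fun ω hω => hη ω fun h => hω ?_, fun v _ => by simp [Algebra.algebraMap_eq_smul_one]⟩
    simp [Algebra.algebraMap_eq_smul_one, h]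

theorem mem_clAlg_of {k : κ} {b : Bdd (Fock F Λ)}
    (h1 : ∀ ω, Pure cl κ₀ k ω → ∀ ω', b (dl ω) ω' ≠ 0 → Pure cl κ₀ k ω')
    (h2 : ∀ ω, Pure cl κ₀ k ω → ∀ v, ¬ Starts cl κ₀ k v →
      b (rop v (dl ω)) = rop v (b (dl ω))) : b ∈ clAlg cl κ₀ k := by
  intro η hη
  refine ⟨supp_map b η _ fun ω hω => h1 ω (hη ω hω), fun v hv => ?_⟩
  have := apply_eq_zero_of (b * rop v - rop v * b) η fun ω hω => by
    simp [h2 ω (hη ω hω) v hv]
  simpa [sub_eq_zero] using this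

theorem eq_of_dl_ne {A : Type} {a b : A} (h : dl a b ≠ 0) : b = a := by
  by_contra h'
  exact h (dl_ne h')

theorem lam_mem_clAlg (g : F) : lam g ∈ clAlg cl κ₀ κ₀ := by
  refine mem_clAlg_of cl κ₀ (fun ω hω ω' h => ?_) fun ω _ v _ => ?_
  · rw [lam_dl] at h
    rw [eq_of_dl_ne h]
    cases ω with
    | nil x => exact Or.inl rfl
    | cons x σ r => exact ⟨Or.inl rfl, hω.2⟩
  · exact congrArg (fun T : Bdd (Fock F Λ) => T (dl ω)) (lam_rop g v)

theorem cre_mem_clAlg (σ : Λ) : cre σ ∈ clAlg (F := F) cl κ₀ (cl σ) := by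
  refine mem_clAlg_of cl κ₀ (fun ω hω ω' h => ?_) fun ω _ v _ => ?_
  · rw [cre_dl] at h
    rw [eq_of_dl_ne h]
    exact ⟨Or.inr rfl, rfl, hω⟩
  · exact congrArg (fun T : Bdd (Fock F Λ) => T (dl ω)) (cre_rop σ v)

theorem ann_mem_clAlg (σ : Λ) : ann σ ∈ clAlg (F := F) cl κ₀ (cl σ) := by
  refine mem_clAlg_of cl κ₀ (fun ω hω ω' h => ?_) fun ω hω v hv => ?_
  · have h' : cons 1 σ ω' = ω := eq_of_dl_ne h
    subst h'
    exact hω.2.2
  · cases ω with
    | cons x σ' r => exact ann_rop_cons σ v x σ' r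
    | nil x =>
      rw [ann_nil, map_zero, rop_dl, mul]
      cases v with
      | nil y => exact ann_nil _ _
      | cons y σ' r =>
        refine ann_cons_ne _ fun h => hv ?_
        obtain ⟨h1, rfl⟩ := h
        by_cases hy : y = 1
        · exact Or.inl ⟨hy, rfl⟩
        · refine Or.inr ⟨hy, hω.resolve_right fun hx => hy ?_⟩
          simpa [hx] using h1

theorem sem_mem_clAlg (σ : Λ) : sem σ ∈ clAlg (F := F) cl κ₀ (cl σ) :=
  add_mem (cre_mem_clAlg cl κ₀ σ) (ann_mem_clAlg cl κ₀ σ)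

theorem clAlg_starts {k : κ} {b : Bdd (Fock F Λ)} (hb : b ∈ clAlg cl κ₀ k) (h0 : tau vac b = 0)
    (ξ : Fock F Λ) (hξ : ∀ v, ξ v ≠ 0 → ¬ Starts cl κ₀ k v) (ω : Wd F Λ) (hω : b ξ ω ≠ 0) :
    Starts cl κ₀ k ω := by
  refine supp_map b ξ _ (fun v hv => ?_) ω hω
  obtain ⟨h1, h2⟩ := hb vac fun ω h => by
    rw [eq_of_dl_ne h]
    exact Or.inr rfl
  rw [← rop_vac, h2 v (hξ v hv)]
  refine supp_map (rop v) _ _ fun u hu ω' h => ?_
  rw [rop_dl] at h
  rw [eq_of_dl_ne h]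
  refine starts_mul cl κ₀ (h1 u hu) (fun h' => hu ?_) (hξ v hv)
  rw [h', ← inner_vac]
  exact h0

theorem clAlg_free : FreeIndep (tau (vac : Fock F Λ)) (clAlg cl κ₀) := by
  have key : ∀ (l : List (κ × Bdd (Fock F Λ))) (p : κ × Bdd (Fock F Λ)),
      (p :: l).IsChain (fun p q => p.1 ≠ q.1) →
      (∀ q ∈ p :: l, q.2 ∈ clAlg cl κ₀ q.1 ∧ tau vac q.2 = 0) →
      ∀ ω, ((p :: l).map Prod.snd).prod vac ω ≠ 0 → Starts cl κ₀ p.1 ω := by
    intro l
    induction l with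
    | nil =>
      intro p _ h ω hω
      obtain ⟨h1, h2⟩ := h p (by simp)
      refine clAlg_starts cl κ₀ h1 h2 vac (fun v hv => ?_) ω (by simpa using hω)
      rw [eq_of_dl_ne hv]
      exact fun h => h.1 rfl
    | cons q l ih =>
      intro p hc h ω hω
      obtain ⟨h1, h2⟩ := h p (by simp)
      rw [List.isChain_cons_cons] at hc
      refine clAlg_starts cl κ₀ h1 h2 (((q :: l).map Prod.snd).prod vac) (fun v hv hs => ?_) ω hω
      exact hc.1 (hs.unique cl κ₀ (ih q hc.2 (fun r hr => h r (List.mem_cons_of_mem _ hr)) v hv))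
  intro l hl hc h
  obtain ⟨p, l, rfl⟩ := List.exists_cons_of_ne_nil hl
  by_contra h0
  have := key l p hc h (nil 1) (by rwa [← inner_vac])
  exact this.1 rfl

end Vale.Agent.P087
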