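import Vale.Agent.P087.Iface

namespace Vale.Agent.P087

open MeasureTheory ProbabilityTheory MvPolynomial

namespace Gauss

theorem mom_real (j : ℕ) : ∫ x, x ^ (j + 1) ∂gaussianReal 0 1 =
    j * ∫ x, x ^ (j - 1) ∂gaussianReal 0 1 := by
  have h := fun n => iteratedDeriv_mgf_zero (X := fun x : ℝ => x) (μ := gaussianReal 0 1)
    (by simp) n
  simp only [mgf_fun_id_gaussianReal, Pi.pow_apply, zero_mul, zero_add, NNReal.coe_one,
    one_mul] at h
  have hd : deriv (fun t : ℝ => Real.exp (t ^ 2 / 2)) = fun t => t * Real.exp (t ^ 2 / 2) :=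
    funext fun t => ((((hasDerivAt_id t).pow 2).div_const 2).exp.congr_deriv (by
      simp [mul_comm])).deriv
  rw [← h, ← h, iteratedDeriv_succ', hd, iteratedDeriv_fun_mul (by fun_prop) (by fun_prop)]
  simp only [iteratedDeriv_fun_id_zero, mul_ite, ite_mul, mul_one, mul_zero, zero_mul,
    Finset.sum_ite_eq', Finset.mem_range, Nat.choose_one_right]
  split_ifs with h1
  · rfl
  · obtain rfl : j = 0 := by omega
    simp

theorem mom (j : ℕ) : ∫ x : ℝ, (x : ℂ) ^ (j + 1) ∂gaussianReal 0 1 =
    j * ∫ x : ℝ, (x : ℂ) ^ (j - 1) ∂gaussianReal 0 1 := by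
  simp only [← Complex.ofReal_pow, integral_complex_ofReal, mom_real]
  push_cast
  rfl

variable {ι : Type} [Fintype ι]

theorem eval_mono (d : ι →₀ ℕ) (c : ℂ) (z : ι → ℝ) :
    eval (fun a => (z a : ℂ)) (monomial d c) = c * ∏ a, (z a : ℂ) ^ d a := by
  rw [eval_monomial, Finsupp.prod_fintype _ _ fun _ => pow_zero _]

theorem int (p : MvPolynomial ι ℂ) :
    Integrable (fun z : ι → ℝ => eval (fun a => (z a : ℂ)) p) (gam ι) := by
  induction p using MvPolynomial.induction_on' with
  | monomial d c =>
    simp only [eval_mono]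
    refine (Integrable.fintype_prod (f := fun a (x : ℝ) => (x : ℂ) ^ d a) fun a => ?_).const_mul c
    simp only [← Complex.ofReal_pow]
    exact (integrable_pow_of_mem_interior_integrableExpSet (X := fun x : ℝ => x)
      (by simp) _).ofReal
  | add p q hp hq =>
    simp only [map_add]
    exact hp.add hq

end Gauss

open Gauss in
theorem gaussIBP : GaussIBP := by
  intro ι _ _ p
  refine ⟨int p, fun a => ?_⟩
  induction p using MvPolynomial.induction_on' with
  | monomial d c =>
    rw [pderiv_monomial, X, monomial_mul, one_mul]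
    simp only [eval_mono, integral_const_mul, gam]
    have h := fun e : ι →₀ ℕ => integral_fintype_prod_eq_prod
      (μ := fun _ : ι => gaussianReal 0 1) fun b (x : ℝ) => (x : ℂ) ^ e b
    rw [h, h,
      ← Finset.mul_prod_erase _ _ (Finset.mem_univ a),
      ← Finset.mul_prod_erase _ _ (Finset.mem_univ a), Finsupp.add_apply, Finsupp.tsub_apply,
      Finsupp.single_eq_same, add_comm, mom, mul_assoc, mul_assoc]
    congr 3
    refine Finset.prod_congr rfl fun b hb => ?_
    simp [Finsupp.single_eq_of_ne (Finset.ne_of_mem_erase hb)]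
  | add p q hp hq =>
    simp only [mul_add, map_add]
    rw [integral_add (int _) (int _), integral_add (int _) (int _), hp, hq]

end Vale.Agent.P087
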