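import Vale.Agent.P087.GroupB

/-! The group with its combinatorial data exists. -/

namespace Vale.Agent.P087

open scoped ENNReal

namespace Group

theorem two_pow_aux {i l k j : ℕ} (h : 2 ^ i + 2 ^ l = 2 ^ k + 2 ^ j) (hl : l ≤ i) (hj : j ≤ k) :
    i = k := by
  have h1 := Nat.pow_le_pow_right (show 0 < 2 by norm_num) hl
  have h2 := Nat.pow_le_pow_right (show 0 < 2 by norm_num) hj
  have h3 := Nat.two_pow_pos l
  have h4 := Nat.two_pow_pos j
  rcases lt_trichotomy i k with h5 | h5 | h5
  · have := Nat.pow_le_pow_right (show 0 < 2 by norm_num) (Nat.succ_le_of_lt h5)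
    rw [pow_succ] at this
    omega
  · exact h5
  · have := Nat.pow_le_pow_right (show 0 < 2 by norm_num) (Nat.succ_le_of_lt h5)
    rw [pow_succ] at this
    omega

theorem two_pow_sidon {i l k j : ℕ} (h : 2 ^ i + 2 ^ l = 2 ^ k + 2 ^ j) : i = k ∨ i = j := by
  have inj : ∀ {a b : ℕ}, 2 ^ a = 2 ^ b → a = b := fun h =>
    Nat.pow_right_injective (le_refl 2) h
  rcases le_total l i with h1 | h1 <;> rcases le_total j k with h2 | h2
  · exact Or.inl (two_pow_aux h h1 h2)
  · exact Or.inr (two_pow_aux (h.trans (add_comm _ _)) h1 h2)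
  · obtain rfl := two_pow_aux ((add_comm _ _).trans h) h1 h2
    exact Or.inr (inj (by omega))
  · obtain rfl := two_pow_aux (((add_comm _ _).trans h).trans (add_comm _ _)) h1 h2
    exact Or.inl (inj (by omega))

/-- The differences of colours on a line. -/
def dd (n : ℕ) (j : Fin n) : ZMod (2 ^ (n + 1)) := (2 ^ j.val - 1) • (1 : ZMod (2 ^ (n + 1)))

theorem dd_sidon {n : ℕ} {i l k j : Fin n} (h : dd n i + dd n l = dd n k + dd n j) :
    i = k ∨ i = j := by
  have h1 : ∀ a : Fin n, 2 * 2 ^ a.val ≤ 2 ^ n := fun a => by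
    have := Nat.pow_le_pow_right (show 0 < 2 by norm_num) (Nat.succ_le_of_lt a.2)
    rw [pow_succ] at this
    omega
  have h2 : ∀ a b : Fin n, (2 ^ a.val - 1) + (2 ^ b.val - 1) < 2 ^ (n + 1) := fun a b => by
    have := h1 a
    have := h1 b
    have := Nat.two_pow_pos n
    rw [pow_succ]
    omega
  simp only [dd, nsmul_one, ← Nat.cast_add] at h
  rw [ZMod.natCast_eq_natCast_iff', Nat.mod_eq_of_lt (h2 _ _), Nat.mod_eq_of_lt (h2 _ _)] at h
  have := Nat.two_pow_pos i
  have := Nat.two_pow_pos l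
  have := Nat.two_pow_pos k
  have := Nat.two_pow_pos j
  exact (two_pow_sidon (l := l) (by omega)).imp Fin.ext Fin.ext

theorem dd_inj {n : ℕ} {i k : Fin n} (h : dd n i = dd n k) : i = k :=
  (dd_sidon (l := k) (k := k) (j := k) (by rw [h])).elim id id

theorem sidon_dd (n : ℕ) : Sidon (Set.range (dd n)) := by
  rintro x y b b' hxy ⟨i, hi⟩ ⟨j, hj⟩ ⟨k, hk⟩ ⟨l, hl⟩
  rcases dd_sidon (i := i) (l := l) (k := k) (j := j) (by rw [hi, hj, hk, hl]; ring) with h | h
  · subst h
    exact add_left_cancel (hi.symm.trans hk)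
  · subst h
    exact absurd (add_right_cancel (hi.symm.trans hj)) hxy

variable {Z : Type} [AddCommGroup Z] [DecidableEq Z]

open Classical in
/-- The canonical state of a coset. -/
noncomputable def start (D : Set Z) (g : FP Z) : Z × List Z :=
  ((st g).1, (st g).2.dropWhile fun x => x + (st g).1 ∈ D)

theorem start_head (D : Set Z) (g : FP Z) :
    ∀ y ∈ (start D g).2.head?, y + (start D g).1 ∉ D := by
  classical
  intro y hy
  have := List.head?_dropWhile_not (fun x => decide (x + (st g).1 ∈ D)) (st g).2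
  rw [show (List.dropWhile _ _).head? = some y from hy] at this
  exact of_decide_eq_false this

theorem start_split (D : Set Z) (g : FP Z) :
    ∃ t, (st g).2 = t ++ (start D g).2 ∧ ∀ x ∈ t, x + (st g).1 ∈ D := by
  classical
  refine ⟨_, List.takeWhile_append_dropWhile.symm, fun x hx => ?_⟩
  simpa using List.mem_takeWhile_imp hx

theorem st_sc_one (x : Z) : st (sc x) = (0, [x]) := by
  rw [← mul_one (sc x), st_sc, st_one]
  simp [toggle]

theorem exists_data {n : ℕ} [Fintype Z] (o : Z) (e : Fin n → ℕ) (j₀ : Fin n)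
    (he : ∀ j : Fin n, j.val = 0 → e j = 0)
    (hinj : ∀ i k, e i • o = e k • o → i = k) (hS : Sidon (Set.range fun j => e j • o)) :
    Nonempty (GData n (FP Z)) := by
  set D : Set Z := Set.range fun j => e j • o with hD
  have h0 : e j₀ • o ∈ D := ⟨j₀, rfl⟩
  have hon : ∀ k b, e k • o - b + b ∈ D := fun k b => ⟨k, by simp⟩
  obtain ⟨K, hK⟩ := sum_bd D
  have hst : ∀ g : FP Z, g = aa o ∨ g = (aa o)⁻¹ → ∀ z, ∃ b, st (g * z) = (b, (st z).2) := by
    rintro g (rfl | rfl) z
    · exact ⟨_, st_aa _ _⟩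
    · exact ⟨_, aa_neg o ▸ st_aa _ _⟩
  refine ⟨{
    a := aa o
    s := ss Z
    e := e
    c := fun j => sc (e j • o)
    E := fun j => {z | Rch D (e j₀ • o) (0, []) (st z) ∧ (st z).2.getLast? = some (e j • o)}
    X := fun y => {z | Rch D (e j₀ • o) (start D y) (st z)}
    W := wt D
    K := K
    e_zero := he
    c_eq := fun j => by rw [sc, aa_neg, aa_nsmul]
    s_sq := ss_ss
    s_ne := fun h => ?_
    E_inv := fun j k x h => ?_
    one_notMem_E := fun j h => ?_
    c_mem_E := fun j => ?_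
    X_inv := fun k y z => ?_
    self_mem_X := fun y => ?_
    one_le_W := fun j y h => ?_
    bd_E := fun j g hg => ?_
    bd_X := fun y g hg => ?_
    sofic := sofic }⟩
  · have h1 := st_ss (1 : FP Z)
    rw [h, mul_one, st_one] at h1
    simp [toggle] at h1
  · simp only [Set.mem_ofPred_eq, st_sc]
    rw [rch_toggle _ (hon k _) (by simp)]
    refine and_congr_right fun h1 => ?_
    rcases toggle_cases (e k • o - (st x).1) (st x).2 with h2 | h2
    · rw [h2]
      by_cases h3 : (st x).2 = []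
      · have h4 : (st x).1 = 0 := (rch_nil (h3 ▸ h1 : Rch D _ _ ((st x).1, []))).2.symm
        rw [h3, h4]
        refine iff_of_false (fun h5 => h ⟨hinj _ _ (by simpa using h5), Or.inl (st_inj ?_)⟩)
          (by simp)
        rw [st_one]
        exact Prod.ext h4 h3
      · rw [List.getLast?_cons_of_ne_nil h3]
    · by_cases h3 : toggle (e k • o - (st x).1) (st x).2 = []
      · have h4 : (st x).1 = 0 :=
          (rch_nil (h3 ▸ (rch_toggle _ (hon k _) (by simp)).2 h1 : Rch D _ _ ((st x).1, []))).2.symm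
        rw [h3, h4, sub_zero] at h2
        rw [h3, h2]
        refine iff_of_false (by simp) fun h5 => ?_
        obtain rfl : k = j := hinj _ _ (by simpa using h5)
        refine h ⟨rfl, Or.inr (st_inj ?_)⟩
        rw [st_sc_one]
        exact Prod.ext h4 h2
      · conv_rhs => rw [h2, List.getLast?_cons_of_ne_nil h3]
  · have h1 := h.2
    rw [st_one] at h1
    simp at h1
  · simp only [Set.mem_ofPred_eq, st_sc_one]
    exact ⟨(rch_cons _ (by simpa using ⟨j, rfl⟩) (by simp)).2 ⟨[], rfl, rfl⟩, rfl⟩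
  · simp only [Set.mem_ofPred_eq, st_sc]
    exact rch_toggle _ (hon k _) (start_head D y)
  · obtain ⟨t, h1, h2⟩ := start_split D y
    exact ⟨t, h1, ln_line t _ h2⟩
  · simp only [Set.mem_ofPred_eq, st_sc_one] at h
    have h1 := (rch_nil ((rch_cons _ (by simpa using ⟨j, rfl⟩) (start_head D y)).1 h)).1
    obtain ⟨t, h2, h3⟩ := start_split D y
    have h4 := phi_line t (start D y).2 h3
    rw [← h2, h1] at h4
    rw [wt, Nat.sub_eq_zero_of_le (show _ ≤ 2 from h4), pow_zero]
  · refine (hK _ [] 0 (Nat.zero_le _) fun z hz => ?_).trans (by rw [pow_zero, mul_one])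
    obtain ⟨b, hb⟩ := hst g hg z
    simp only [Set.mem_ofPred_eq, hb] at hz
    exact rch_bd (c := (0, [])) hS h0 (st_chain z) fun h => hz (and_congr_left' h)
  · obtain ⟨t, h2, h3⟩ := start_split D y
    have h4 := phi_line t (start D y).2 h3
    rw [← h2] at h4
    refine hK _ (start D y).2 _ (by omega) fun z hz => ?_
    obtain ⟨b, hb⟩ := hst g hg z
    simp only [Set.mem_ofPred_eq, hb] at hz
    exact rch_bd hS h0 (st_chain z) hz

end Group

theorem groupExists : GroupExists := fun n hn =>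
  ⟨_, _, Group.exists_data (1 : ZMod (2 ^ (n + 1))) (fun j => 2 ^ j.val - 1) ⟨0, hn⟩
    (fun j hj => by rw [hj]; rfl) (fun _ _ h => Group.dd_inj h) (Group.sidon_dd n)⟩

end Vale.Agent.P087
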