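import Vale.Agent.P087.Iface

/-! The free product of a finite abelian group with the group of order two: normal forms and
finite permutation models. -/

namespace Vale.Agent.P087.Group

open Filter

variable {Z : Type} [AddCommGroup Z] [DecidableEq Z]

/-- Multiplication of a reduced word by a letter of order two. -/
def toggle (x : Z) : List Z → List Z
  | [] => [x]
  | y :: r => if x = y then r else x :: y :: r

omit [AddCommGroup Z] in
theorem toggle_cases (x : Z) (w : List Z) : toggle x w = x :: w ∨ w = x :: toggle x w := by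
  cases w with
  | nil => exact Or.inl rfl
  | cons y r =>
    by_cases h : x = y
    · right
      simp [toggle, h]
    · left
      simp [toggle, h]

omit [AddCommGroup Z] in
theorem toggle_chain (x : Z) {w : List Z} (h : w.IsChain (· ≠ ·)) :
    (toggle x w).IsChain (· ≠ ·) := by
  cases w with
  | nil => exact List.isChain_singleton x
  | cons y r =>
    by_cases h1 : x = y
    · simp only [toggle, h1, if_true]
      exact h.tail
    · simp only [toggle, h1, if_false]
      exact List.isChain_cons_cons.2 ⟨h1, h⟩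

omit [AddCommGroup Z] in
theorem toggle_toggle (x : Z) {w : List Z} (h : w.IsChain (· ≠ ·)) :
    toggle x (toggle x w) = w := by
  match w, h with
  | [], _ => simp [toggle]
  | [y], _ =>
    by_cases h1 : x = y <;> simp [toggle, h1]
  | y :: z :: r, h =>
    have h2 := (List.isChain_cons_cons.1 h).1
    by_cases h1 : x = y
    · subst h1
      simp [toggle, h2]
    · simp [toggle, h1]

omit [AddCommGroup Z] in
theorem toggle_length (x : Z) (w : List Z) : (toggle x w).length ≤ w.length + 1 := by
  rcases toggle_cases x w with h | h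
  · rw [h, List.length_cons]
  · have := congrArg List.length h
    rw [List.length_cons] at this
    omega

/-- States: an element of `Z` and a reduced word whose length satisfies `P`. -/
abbrev St (Z : Type) (P : ℕ → Prop) : Type :=
  {p : Z × List Z // p.2.IsChain (· ≠ ·) ∧ P p.2.length}

/-- The action of `Z` on states. -/
def shift (P : ℕ → Prop) : Multiplicative Z →* Equiv.Perm (St Z P) where
  toFun y := ⟨fun p => ⟨(y.toAdd + p.1.1, p.1.2), p.2⟩, fun p => ⟨(-y.toAdd + p.1.1, p.1.2), p.2⟩,
    fun p => Subtype.ext (by simp), fun p => Subtype.ext (by simp)⟩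
  map_one' := Equiv.ext fun p => Subtype.ext (by simp)
  map_mul' x y := Equiv.ext fun p => Subtype.ext (by simp [add_assoc])

open Classical in
/-- The action of the involution on states. -/
noncomputable def tog (P : ℕ → Prop) (p : St Z P) : St Z P :=
  if h : P (toggle (-p.1.1) p.1.2).length then
    ⟨(p.1.1, toggle (-p.1.1) p.1.2), toggle_chain _ p.2.1, h⟩ else p

theorem tog_val {P : ℕ → Prop} (p : St Z P) (h : P (toggle (-p.1.1) p.1.2).length) :
    (tog P p).1 = (p.1.1, toggle (-p.1.1) p.1.2) := by
  rw [tog, dif_pos h]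

theorem tog_tog (P : ℕ → Prop) : Function.Involutive (tog (Z := Z) P) := by
  intro p
  by_cases h : P (toggle (-p.1.1) p.1.2).length
  · have h1 := tog_val p h
    have h2 : toggle (-(tog P p).1.1) (tog P p).1.2 = p.1.2 := by
      rw [h1]
      exact toggle_toggle _ p.2.1
    apply Subtype.ext
    rw [tog_val _ (h2.symm ▸ p.2.2), h2, h1]
  · have h1 : tog P p = p := by rw [tog, dif_neg h]
    rw [h1, h1]

/-- The homomorphism on the group of order two given by an involution. -/
def invHom {G : Type} [Group G] (g : G) (h : g * g = 1) : ℤˣ →* G where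
  toFun u := if u = 1 then 1 else g
  map_one' := if_pos rfl
  map_mul' u v := by
    rcases Int.units_eq_one_or u with rfl | rfl <;> rcases Int.units_eq_one_or v with rfl | rfl <;>
      simp [h]

/-- The free product. -/
abbrev FP (Z : Type) [AddCommGroup Z] : Type := Monoid.Coprod (Multiplicative Z) ℤˣ

/-- The elements of the first factor. -/
def aa (y : Z) : FP Z := Monoid.Coprod.inl (Multiplicative.ofAdd y)

/-- The involution. -/
def ss (Z : Type) [AddCommGroup Z] : FP Z := Monoid.Coprod.inr (-1)

/-- The conjugates of the involution. -/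
def sc (x : Z) : FP Z := aa x * ss Z * aa (-x)

omit [DecidableEq Z] in
theorem aa_add (x y : Z) : aa (x + y) = aa x * aa y := by
  rw [aa, ofAdd_add, map_mul, aa, aa]

omit [DecidableEq Z] in
theorem aa_zero : aa (0 : Z) = 1 := by rw [aa, ofAdd_zero, map_one]

omit [DecidableEq Z] in
theorem aa_neg (x : Z) : aa (-x) = (aa x)⁻¹ := by rw [aa, ofAdd_neg, map_inv, aa]

omit [DecidableEq Z] in
theorem aa_nsmul (m : ℕ) (x : Z) : aa (m • x) = aa x ^ m := by
  rw [aa, ofAdd_nsmul, map_pow, aa]

omit [DecidableEq Z] in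
theorem ss_ss : ss Z * ss Z = 1 := by
  rw [ss, ← map_mul]
  simp

omit [DecidableEq Z] in
theorem fp_ind {C : FP Z → Prop} (g : FP Z) (h1 : ∀ y, C (aa y)) (h2 : C (ss Z))
    (h3 : ∀ g g', C g → C g' → C (g * g')) : C g := by
  induction g using Monoid.Coprod.induction_on with
  | inl m => exact h1 m.toAdd
  | inr u =>
    rcases Int.units_eq_one_or u with rfl | rfl
    · rw [map_one, ← aa_zero]
      exact h1 0
    · exact h2
  | mul g g' h h' => exact h3 g g' h h'

/-- The action of the free product on states. -/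
noncomputable def act (P : ℕ → Prop) : FP Z →* Equiv.Perm (St Z P) :=
  Monoid.Coprod.lift (shift P)
    (invHom (tog_tog P).toPerm (Equiv.ext fun p => tog_tog P p))

theorem act_aa (P : ℕ → Prop) (y : Z) (p : St Z P) :
    (act P (aa y) p).1 = (y + p.1.1, p.1.2) := rfl

theorem act_ss (P : ℕ → Prop) (p : St Z P) : act P (ss Z) p = tog P p := rfl

/-- The normal form of an element. -/
noncomputable def st (g : FP Z) : Z × List Z :=
  (act (fun _ => True) g ⟨(0, []), List.isChain_nil, trivial⟩).1

theorem st_chain (g : FP Z) : (st g).2.IsChain (· ≠ ·) :=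
  (act (fun _ => True) g ⟨(0, []), List.isChain_nil, trivial⟩).2.1

theorem st_one : st (1 : FP Z) = (0, []) := by
  rw [st, map_one]
  rfl

theorem st_aa (y : Z) (g : FP Z) : st (aa y * g) = (y + (st g).1, (st g).2) := by
  rw [st, map_mul, Equiv.Perm.mul_apply, act_aa]
  rfl

theorem st_ss (g : FP Z) : st (ss Z * g) = ((st g).1, toggle (-(st g).1) (st g).2) := by
  rw [st, map_mul, Equiv.Perm.mul_apply, act_ss, tog_val _ trivial]
  rfl

theorem st_sc (x : Z) (g : FP Z) :
    st (sc x * g) = ((st g).1, toggle (x - (st g).1) (st g).2) := by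
  rw [sc, mul_assoc, mul_assoc, st_aa, st_ss, st_aa]
  simp [sub_eq_neg_add]

/-- The element with a given normal form. -/
def back (p : Z × List Z) : FP Z := aa p.1 * (p.2.map sc).prod

omit [DecidableEq Z] in
theorem sc_sc (x : Z) : sc x * sc x = 1 := by
  have : sc x * sc x = aa x * (ss Z * ss Z) * (aa x)⁻¹ := by
    rw [sc, aa_neg]
    group
  rw [this, ss_ss, mul_one, mul_inv_cancel]

theorem back_toggle (x : Z) (w : List Z) :
    ((toggle x w).map sc).prod = sc x * (w.map sc).prod := by
  rcases toggle_cases x w with h | h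
  · rw [h, List.map_cons, List.prod_cons]
  · conv_rhs => rw [h, List.map_cons, List.prod_cons, ← mul_assoc, sc_sc, one_mul]

theorem back_st (g g' : FP Z) (h : back (st g') = g') : back (st (g * g')) = g * g' := by
  induction g using fp_ind generalizing g' with
  | h1 y =>
    rw [st_aa, back, aa_add, mul_assoc]
    exact congrArg _ h
  | h2 =>
    rw [st_ss, back, back_toggle, sc, neg_neg, aa_neg]
    conv_rhs => rw [← h, back]
    group
  | h3 g₁ g₂ h1 h2 =>
    rw [mul_assoc]
    exact h1 _ (h2 _ h)

theorem st_inj : Function.Injective (st (Z := Z)) := by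
  have h : ∀ g : FP Z, back (st g) = g := fun g => by
    have := back_st g 1 (by rw [st_one, back, aa_zero]; simp)
    rwa [mul_one] at this
  exact Function.LeftInverse.injective h

theorem trunc (g : FP Z) : ∃ r : ℕ, ∀ (L : ℕ) (p : St Z (· ≤ L)) (g' : FP Z), p.1 = st g' →
    p.1.2.length + r ≤ L → (act _ g p).1 = st (g * g') ∧
      (act _ g p).1.2.length ≤ p.1.2.length + r := by
  induction g using fp_ind with
  | h1 y =>
    refine ⟨0, fun L p g' h _ => ?_⟩
    rw [act_aa, st_aa, h]
    exact ⟨rfl, le_rfl⟩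
  | h2 =>
    refine ⟨1, fun L p g' h h1 => ?_⟩
    have h2 := toggle_length (-p.1.1) p.1.2
    rw [act_ss, tog_val p (h2.trans h1), st_ss, ← h]
    exact ⟨rfl, h2⟩
  | h3 g₁ g₂ h1 h2 =>
    obtain ⟨r₁, h1⟩ := h1
    obtain ⟨r₂, h2⟩ := h2
    refine ⟨r₁ + r₂, fun L p g' h h3 => ?_⟩
    obtain ⟨h4, h5⟩ := h2 L p g' h (by omega)
    obtain ⟨h6, h7⟩ := h1 L _ _ h4 (by omega)
    rw [map_mul, Equiv.Perm.mul_apply, mul_assoc]
    exact ⟨h6, by omega⟩

omit [AddCommGroup Z] [DecidableEq Z] in
theorem st_finite [Finite Z] (L : ℕ) : Finite (St Z (· ≤ L)) := by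
  have : {p : Z × List Z | p.2.IsChain (· ≠ ·) ∧ p.2.length ≤ L}.Finite :=
    ((Set.finite_univ (α := Z)).prod (List.finite_length_le Z L)).subset
      fun p hp => ⟨Set.mem_univ _, hp.2⟩
  exact this.to_subtype

theorem free_model {F G : Type} [Group F] [Group G] [Finite G] (ρ : F →* G) (N : ℕ) :
    ∃ k, N ≤ k ∧ ∃ π : F →* Equiv.Perm (Fin k), ∀ g, ρ g ≠ 1 → ∀ x, π g x ≠ x := by
  let e := Finite.equivFin (G × Multiplicative (ZMod (N + 1)))
  refine ⟨_, ?_, (e.permCongrHom.toMonoidHom.comp
    (MulAction.toPermHom (G × Multiplicative (ZMod (N + 1))) _)).comp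
      ((MonoidHom.inl G _).comp ρ), fun g hg x hx => hg ?_⟩
  · rw [Nat.card_prod, Nat.card_congr Multiplicative.toAdd, Nat.card_zmod]
    exact (Nat.le_succ N).trans (Nat.le_mul_of_pos_left _ Nat.card_pos)
  · have h1 : e ((ρ g, 1) * e.symm x) = x := hx
    have h2 : (ρ g, 1) * e.symm x = e.symm x := e.eq_symm_apply.2 h1
    exact congrArg Prod.fst (mul_eq_right.1 h2)

theorem sofic [Finite Z] (B : Finset (FP Z)) :
    ∃ᶠ k : ℕ in atTop, ∃ π : FP Z →* Equiv.Perm (Fin k), ∀ g ∈ B, g ≠ 1 → ∀ x, π g x ≠ x := by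
  choose r hr using trunc (Z := Z)
  rw [frequently_atTop]
  intro N
  have := st_finite (Z := Z) (B.sup r)
  obtain ⟨k, h1, π, h2⟩ := free_model (act (Z := Z) (· ≤ B.sup r)) N
  refine ⟨k, h1, π, fun g hg h3 => h2 g fun h4 => h3 (st_inj ?_)⟩
  have h5 := (hr g (B.sup r) ⟨(0, []), List.isChain_nil, Nat.zero_le _⟩ 1 st_one.symm
    (by simpa using Finset.le_sup (f := r) hg)).1
  rw [h4, mul_one] at h5
  rw [← h5, st_one]
  rfl

end Vale.Agent.P087.Group
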