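import Vale.Agent.P087.GroupA

/-! Lines of colours, the automaton reading a word and its synchronisation. -/

namespace Vale.Agent.P087.Group

open scoped ENNReal

variable {Z : Type} [AddCommGroup Z]

/-- Two distinct colours lie on at most one line. -/
def Sidon (D : Set Z) : Prop :=
  ∀ x y b b' : Z, x ≠ y → x + b ∈ D → y + b ∈ D → x + b' ∈ D → y + b' ∈ D → b = b'

open Classical in
/-- The new line after reading the colour `x`, followed by the word `w`. -/
noncomputable def nl (D : Set Z) (d₀ b x : Z) (w : List Z) : Z :=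
  if x + b ∈ D then b else
    if h : ∃ l, x + l ∈ D ∧ ∀ y ∈ w.head?, y + l ∈ D then h.choose else d₀ - x

/-- The line after reading the first letters `u` of the word `u ++ r`. -/
noncomputable def ln (D : Set Z) (d₀ : Z) (r : List Z) : Z → List Z → Z
  | b, [] => b
  | b, x :: u => ln D d₀ r (nl D d₀ b x (u ++ r)) u

open Classical in
/-- The number of consecutive triples which are not on a line. -/
noncomputable def phi (D : Set Z) : List Z → ℕ
  | x :: y :: z :: r =>
    (if ∃ l, x + l ∈ D ∧ y + l ∈ D ∧ z + l ∈ D then 0 else 1) + phi D (y :: z :: r)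
  | _ => 0

/-- The automaton started at `p` passes through the state `c`. -/
def Rch (D : Set Z) (d₀ : Z) (c p : Z × List Z) : Prop :=
  ∃ u, p.2 = u ++ c.2 ∧ ln D d₀ c.2 p.1 u = c.1

variable {D : Set Z} {d₀ : Z}

theorem nl_of_on {b x : Z} (h : x + b ∈ D) (w : List Z) : nl D d₀ b x w = b := by
  rw [nl, if_pos h]

theorem nl_on (h0 : d₀ ∈ D) (b x : Z) (w : List Z) : x + nl D d₀ b x w ∈ D := by
  rw [nl]
  split_ifs with h1 h2
  · exact h1
  · exact h2.choose_spec.1
  · simpa using h0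

theorem nl_sync (hS : Sidon D) {x y z l b : Z} (w : List Z) (h1 : x ≠ y) (h2 : y ≠ z)
    (hx : x + l ∈ D) (hy : y + l ∈ D) (hz : z + l ∈ D) (hb : x + b ∈ D) :
    nl D d₀ b y (z :: w) = l := by
  rw [nl]
  split_ifs with h3 h4
  · exact hS x y b l h1 hb h3 hx hy
  · exact hS y z _ l h2 h4.choose_spec.1 (h4.choose_spec.2 z rfl) hy hz
  · refine absurd ⟨l, hy, fun t ht => ?_⟩ h4
    obtain rfl : z = t := by simpa using ht
    exact hz

theorem phi_cons (x : Z) (w : List Z) : phi D w ≤ phi D (x :: w) ∧ phi D (x :: w) ≤ phi D w + 1 := by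
  match w with
  | [] => simp [phi]
  | [y] => simp [phi]
  | y :: z :: r =>
    rw [phi]
    split_ifs <;> omega

theorem phi_append (u r : List Z) :
    phi D r ≤ phi D (u ++ r) ∧ phi D (u ++ r) ≤ phi D r + u.length := by
  induction u with
  | nil => simp
  | cons x u ih =>
    have := phi_cons (D := D) x (u ++ r)
    rw [List.cons_append, List.length_cons]
    omega

theorem phi_line {b : Z} (t r : List Z) (h : ∀ x ∈ t, x + b ∈ D) :
    phi D (t ++ r) ≤ phi D r + 2 := by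
  induction t with
  | nil => simp
  | cons x t ih =>
    match t, h, ih with
    | [], _, _ => exact (phi_append _ r).2.trans (by simp)
    | [y], _, _ => exact (phi_append _ r).2
    | y :: z :: t, h, ih =>
      have h1 := ih fun t ht => h t (List.mem_cons_of_mem _ ht)
      simp only [List.cons_append] at h1 ⊢
      rw [phi, if_pos ⟨b, h x (by simp), h y (by simp), h z (by simp)⟩, zero_add]
      exact h1

theorem ln_line {b : Z} (t r : List Z) (h : ∀ x ∈ t, x + b ∈ D) : ln D d₀ r b t = b := by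
  induction t with
  | nil => rfl
  | cons x t ih =>
    rw [ln, nl_of_on (h x (by simp))]
    exact ih fun y hy => h y (List.mem_cons_of_mem _ hy)

theorem ln_bd (hS : Sidon D) (h0 : d₀ ∈ D) (r u : List Z) (b b' : Z)
    (h : (u ++ r).IsChain (· ≠ ·)) (h1 : ln D d₀ r b u ≠ ln D d₀ r b' u) :
    phi D r + u.length ≤ phi D (u ++ r) + 2 := by
  induction u generalizing b b' with
  | nil => simp
  | cons x u ih =>
    have h2 := ih _ _ h.tail h1
    have h3 := (phi_append (D := D) (x :: u) r).1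
    match u, h, h1, h2, h3 with
    | [], _, _, _, h3 => simp only [List.length_cons, List.length_nil]; omega
    | [y], _, _, _, h3 => simp only [List.length_cons, List.length_nil]; omega
    | y :: z :: u, h, h1, h2, _ =>
      simp only [List.cons_append, List.isChain_cons_cons, List.length_cons] at h h2 ⊢
      rw [phi, if_neg]
      · omega
      rintro ⟨l, hx, hy, hz⟩
      apply h1
      rw [ln, ln, ln.eq_2 _ _ _ b', ln.eq_2 _ _ _ _ y]
      simp only [List.cons_append]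
      rw [nl_sync hS _ h.1 h.2.1 hx hy hz (nl_on h0 _ _ _),
        nl_sync hS _ h.1 h.2.1 hx hy hz (nl_on h0 _ _ _)]

theorem rch_bd (hS : Sidon D) (h0 : d₀ ∈ D) {c : Z × List Z} {w : List Z} {b b' : Z}
    (h : w.IsChain (· ≠ ·)) (h1 : ¬ (Rch D d₀ c (b, w) ↔ Rch D d₀ c (b', w))) :
    ∃ u, w = u ++ c.2 ∧ phi D c.2 + u.length ≤ phi D w + 2 := by
  have key : ∀ b b', Rch D d₀ c (b, w) → ¬ Rch D d₀ c (b', w) →
      ∃ u, w = u ++ c.2 ∧ phi D c.2 + u.length ≤ phi D w + 2 := by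
    rintro b b' ⟨u, h2, h3⟩ h4
    obtain rfl : w = u ++ c.2 := h2
    exact ⟨u, rfl, ln_bd hS h0 _ u b b' h fun h5 => h4 ⟨u, rfl, h5.symm.trans h3⟩⟩
  by_cases h2 : Rch D d₀ c (b, w)
  · exact key b b' h2 fun h3 => h1 (iff_of_true h2 h3)
  · exact key b' b (by_contra fun h3 => h1 (iff_of_false h2 h3)) h2

theorem rch_cons {c : Z × List Z} {b x : Z} (w : List Z) (h : x + b ∈ D)
    (hc : ∀ y ∈ c.2.head?, y + c.1 ∉ D) : Rch D d₀ c (b, x :: w) ↔ Rch D d₀ c (b, w) := by
  constructor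
  · rintro ⟨u, h1, h2⟩
    cases u with
    | nil =>
      have h3 : x :: w = c.2 := h1
      have h4 : b = c.1 := h2
      exact absurd (h4 ▸ h) (hc x (by rw [← h3]; rfl))
    | cons y u =>
      obtain ⟨rfl, h3⟩ := List.cons.inj h1
      rw [ln, nl_of_on h] at h2
      exact ⟨u, h3, h2⟩
  · rintro ⟨u, h1, h2⟩
    refine ⟨x :: u, congrArg (x :: ·) h1, ?_⟩
    rw [ln, nl_of_on h]
    exact h2

theorem rch_toggle [DecidableEq Z] {c : Z × List Z} {b x : Z} (w : List Z) (h : x + b ∈ D)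
    (hc : ∀ y ∈ c.2.head?, y + c.1 ∉ D) : Rch D d₀ c (b, toggle x w) ↔ Rch D d₀ c (b, w) := by
  rcases toggle_cases x w with h1 | h1
  · rw [h1, rch_cons w h hc]
  · conv_rhs => rw [h1, rch_cons _ h hc]

theorem rch_nil {c : Z × List Z} {b : Z} (h : Rch D d₀ c (b, [])) : c.2 = [] ∧ c.1 = b := by
  obtain ⟨u, h1, h2⟩ := h
  obtain ⟨rfl, h3⟩ := List.append_eq_nil_iff.1 h1.symm
  exact ⟨h3, h2.symm⟩

omit [AddCommGroup Z] in
theorem tsum_words [Fintype Z] [Nonempty Z] :
    ∑' p : Z × List Z, ((2 * Fintype.card Z : ℝ≥0∞)⁻¹) ^ p.2.length ≠ ⊤ := by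
  have h0 : (Fintype.card Z : ℝ≥0∞) * (2 * Fintype.card Z : ℝ≥0∞)⁻¹ = 2⁻¹ := by
    rw [ENNReal.mul_inv (by simp) (by simp), mul_left_comm,
      ENNReal.mul_inv_cancel (by simp) (by simp), mul_one]
  have h1 : ∑' u : List Z, ((2 * Fintype.card Z : ℝ≥0∞)⁻¹) ^ u.length = 2 := by
    rw [← List.equivSigmaTuple.symm.tsum_eq, ENNReal.tsum_sigma']
    have h2 : ∀ m : ℕ, ∑' f : Fin m → Z, ((2 * Fintype.card Z : ℝ≥0∞)⁻¹) ^
        (List.equivSigmaTuple.symm ⟨m, f⟩).length = 2⁻¹ ^ m := by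
      intro m
      rw [← h0, mul_pow, tsum_fintype]
      simp
    simp only [h2]
    rw [ENNReal.tsum_geometric, ENNReal.one_sub_inv_two, inv_inv]
  rw [ENNReal.tsum_prod', tsum_fintype]
  simp only [h1]
  simp [ENNReal.mul_eq_top]

/-- The weight of an element. -/
noncomputable def wt [Fintype Z] [DecidableEq Z] (D : Set Z) (g : FP Z) : ℝ≥0∞ :=
  ((2 * Fintype.card Z : ℝ≥0∞)⁻¹) ^ (phi D (st g).2 - 2)

theorem sum_bd [Fintype Z] [DecidableEq Z] (D : Set Z) : ∃ K : NNReal, ∀ (A : Set (FP Z))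
    (r : List Z) (m : ℕ), m ≤ phi D r →
    (∀ z ∈ A, ∃ u, (st z).2 = u ++ r ∧ phi D r + u.length ≤ phi D (st z).2 + 2) →
    ∑' z, A.indicator (wt D) z ≤ K * ((2 * Fintype.card Z : ℝ≥0∞)⁻¹) ^ m := by
  have hT := tsum_words (Z := Z)
  have h0 : (2 * Fintype.card Z : ℝ≥0∞) ≠ 0 := by simp
  have h1 : (2 * Fintype.card Z : ℝ≥0∞) ≠ ⊤ := by simp [ENNReal.mul_eq_top]
  have h2 : (2 * Fintype.card Z : ℝ≥0∞)⁻¹ ≤ 1 := by
    rw [ENNReal.inv_le_one]
    exact one_le_mul (by norm_num) (by exact_mod_cast Fintype.card_pos)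
  refine ⟨((2 * Fintype.card Z : ℝ≥0∞) ^ 4 *
    ∑' p : Z × List Z, ((2 * Fintype.card Z : ℝ≥0∞)⁻¹) ^ p.2.length).toNNReal,
    fun A r m hm h => ?_⟩
  rw [ENNReal.coe_toNNReal (ENNReal.mul_ne_top (ENNReal.pow_ne_top h1) hT), ← tsum_subtype]
  choose u hu using fun z : A => h z.1 z.2
  have h3 : Function.Injective fun z : A => ((st z.1).1, u z) := by
    intro z z' h4
    obtain ⟨h5, h6⟩ := Prod.mk.inj h4
    exact Subtype.ext (st_inj (Prod.ext h5 (by rw [(hu z).1, (hu z').1, h6])))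
  refine le_trans ?_ (mul_le_mul_left (mul_le_mul_right
    (ENNReal.tsum_comp_le_tsum_of_injective h3 _) _) _)
  rw [← ENNReal.tsum_mul_left, ← ENNReal.tsum_mul_right]
  refine ENNReal.tsum_le_tsum fun z => ?_
  have h4 := (hu z).2
  rw [mul_assoc, ← pow_add, wt, ← one_mul (_ ^ (_ - 2)), ← one_pow 4,
    ← ENNReal.mul_inv_cancel h0 h1, mul_pow, mul_assoc, ← pow_add]
  exact mul_le_mul_right (pow_le_pow_right_of_le_one' h2 (by dsimp only; omega)) _

end Vale.Agent.P087.Group
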