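import Vale.Agent.P087.GueVarA

/-! Asymptotic freeness of GUE matrices from deterministic matrices. -/

namespace Vale.Agent.P087

namespace GueVar

open MeasureTheory MvPolynomial Finset

variable {n : ℕ}

/-- Functions of the size and of the deterministic matrices. -/
abbrev VV (n : ℕ) : Type := (k : ℕ) → (Fin n → Matrix (Fin k) (Fin k) ℂ) → ℂ

/-- Functions which are uniformly of order `k⁻²`. -/
def Sm (ψ : List (Fin n × Bool) → ℂ) (m : ℕ) : Submodule ℂ (VV n) where
  carrier := {f | ∃ c : ℝ, ∀ k : ℕ, 1 ≤ k → ∀ D, IsModel ψ m D → ‖f k D‖ ≤ c / (k : ℝ) ^ 2}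
  add_mem' := by
    rintro f g ⟨c, hc⟩ ⟨d, hd⟩
    refine ⟨c + d, fun k hk D hD => ?_⟩
    rw [add_div]
    exact (norm_add_le _ _).trans (add_le_add (hc k hk D hD) (hd k hk D hD))
  zero_mem' := ⟨0, fun k _ D _ => by simp⟩
  smul_mem' := by
    rintro a f ⟨c, hc⟩
    refine ⟨‖a‖ * c, fun k hk D hD => ?_⟩
    rw [mul_div_assoc]
    exact (norm_smul_le a (f k D)).trans
      (mul_le_mul_of_nonneg_left (hc k hk D hD) (norm_nonneg _))

variable {ψ : List (Fin n × Bool) → ℂ} {m : ℕ}

theorem Sm_congr {f g : VV n} (hf : f ∈ Sm ψ m)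
    (h : ∀ k : ℕ, 1 ≤ k → ∀ D, IsModel ψ m D → g k D = f k D) : g ∈ Sm ψ m := by
  obtain ⟨c, hc⟩ := hf
  exact ⟨c, fun k hk D hD => h k hk D hD ▸ hc k hk D hD⟩

theorem Sm_div {f : VV n} {a : ℂ} (hf : (fun k D => f k D - a : VV n) ∈ Sm ψ m) :
    (fun k D => f k D / (k : ℂ) ^ 2 : VV n) ∈ Sm ψ m := by
  obtain ⟨c, hc⟩ := hf
  refine ⟨|c| + ‖a‖, fun k hk D hD => ?_⟩
  have h1 : (1 : ℝ) ≤ (k : ℝ) ^ 2 := one_le_pow₀ (by exact_mod_cast hk)
  have h2 := (hc k hk D hD).trans ((div_le_div_of_nonneg_right (le_abs_self c)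
    (by positivity)).trans (div_le_self (abs_nonneg c) h1))
  rw [norm_div, norm_pow, Complex.norm_natCast]
  gcongr
  simpa using (norm_add_le (f k D - a) a).trans (add_le_add_left h2 _)

theorem Sm_ite {p : Prop} [Decidable p] {f : VV n} (hf : p → f ∈ Sm ψ m) :
    (if p then f else 0) ∈ Sm ψ m := by
  split_ifs with h
  exacts [hf h, zero_mem _]

variable (h : GaussIBP) (t : ℝ)

/-- The expectation of a product of normalised traces. -/
noncomputable def FF (L : List (List (Fin n × Bool))) : VV n := fun k D =>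
  Ex h _ (L.map (TT ((Real.sqrt (t / k) : ℝ) : ℂ) D)).prod

variable (ψ m) in
/-- The expectation is close to the limit. -/
def Good (L : List (List (Fin n × Bool))) : Prop :=
  (fun k D => FF h t L k D - (L.map ψ).prod : VV n) ∈ Sm ψ m

variable {h t}

theorem sq_r (ht : 0 ≤ t) (k : ℕ) : ((Real.sqrt (t / k) : ℝ) : ℂ) ^ 2 = t / k := by
  rw [← Complex.ofReal_pow, Real.sq_sqrt (by positivity)]; push_cast; rfl

theorem good_false {L : List (List (Fin n × Bool))} (h1 : ∀ w ∈ L, ∀ x ∈ w, x.2 = false)
    (h2 : L.flatten.length ≤ m) : Good ψ m h t L := by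
  refine Sm_congr (zero_mem _) fun k _ D hD => ?_
  have : L.map (TT ((Real.sqrt (t / k) : ℝ) : ℂ) D) = (L.map ψ).map C := by
    rw [List.map_map]
    refine List.map_congr_left fun w hw => ?_
    have e : (w.map Prod.fst).map (fun i => (i, false)) = w := by
      rw [List.map_map]
      refine (List.map_congr_left (g := id) fun x hx => ?_).trans (List.map_id w)
      exact Prod.ext rfl (h1 w hw x hx).symm
    have := hD.2 (w.map Prod.fst) (by
      rw [List.length_map]
      exact (List.sublist_flatten_of_mem hw).length_le.trans h2)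
    rw [Function.comp, ← e, TT_false, this]
  rw [FF, this, ← map_list_prod, Ex_C, sub_self]
  rfl

theorem cross (ht : 0 ≤ t) {N : ℕ} (IH : ∀ L : List (List (Fin n × Bool)),
      L.flatten.countP Prod.snd < N → L.flatten.length ≤ m → Good ψ m h t L)
    (i : Fin n) (u : List (Fin n × Bool)) (rest pre : List (List (Fin n × Bool)))
    (h1 : (u :: (pre ++ rest)).flatten.countP Prod.snd < N)
    (h2 : (u :: (pre ++ rest)).flatten.length ≤ m) :
    (fun k D => ((Real.sqrt (t / k) : ℝ) : ℂ) / k * Ex h _
      ((pre.map (TT ((Real.sqrt (t / k) : ℝ) : ℂ) D)).prod *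
        ∑ p, (EE n p * word (AA ((Real.sqrt (t / k) : ℝ) : ℂ) D) u).trace *
          pderiv (i, p) (rest.map (TT ((Real.sqrt (t / k) : ℝ) : ℂ) D)).prod) : VV n) ∈ Sm ψ m := by
  induction rest generalizing pre with
  | nil => exact Sm_congr (zero_mem _) fun k _ D _ => by simp
  | cons w rest ih =>
    have a1 := ih (w :: pre) (by simp at h1 ⊢; omega) (by simp at h2 ⊢; omega)
    have a2 : (∑ s ∈ range w.length, if w[s]? = some (i, true) then (t : ℂ) • (fun k D =>
        FF h t ((u ++ (w.drop (s + 1) ++ w.take s)) :: (pre ++ rest)) k D / (k : ℂ) ^ 2 : VV n)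
        else 0) ∈ Sm ψ m := sum_mem fun s _ => Sm_ite fun hs => by
      have b1 := congrArg (List.countP Prod.snd) (split hs)
      have b2 := congrArg List.length (split hs)
      refine Submodule.smul_mem _ _ (Sm_div (IH _ ?_ ?_))
      · simp only [List.flatten_cons, List.flatten_append, List.countP_append,
          List.countP_cons] at h1 b1 ⊢
        omega
      · simp only [List.flatten_cons, List.flatten_append, List.length_append,
          List.length_cons] at h2 b2 ⊢
        omega
    refine Sm_congr (add_mem a1 a2) fun k hk D _ => ?_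
    have hk0 : (k : ℂ) ≠ 0 := by exact_mod_cast (by omega : k ≠ 0)
    have hr := sq_r ht k
    simp only [Pi.add_apply, Finset.sum_apply, ite_apply, Pi.smul_apply, Pi.zero_apply, FF,
      List.map_cons, List.prod_cons, List.map_append, List.prod_append, Derivation.leibniz,
      smul_eq_mul]
    generalize ((Real.sqrt (t / k) : ℝ) : ℂ) = r at hr ⊢
    have e : ∀ A B Q : PP n k, Q * ∑ p, (EE n p * word (AA r D) u).trace *
        (A * pderiv (i, p) B + B * pderiv (i, p) A) =
        A * Q * ∑ p, (EE n p * word (AA r D) u).trace * pderiv (i, p) B +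
          Q * B * ∑ p, (EE n p * word (AA r D) u).trace * pderiv (i, p) A := fun A B Q => by
      simp only [mul_sum, ← sum_add_distrib]
      exact sum_congr rfl fun p _ => by ring
    rw [e, map_add, mul_add, sum_d_other, mul_sum (range w.length),
      map_sum _ _ (range w.length), mul_sum (range w.length)]
    refine congrArg _ (sum_congr rfl fun s _ => ?_)
    split_ifs
    · rw [mul_left_comm, Ex_C_mul, ← mul_assoc, div_mul_eq_mul_div, ← sq, hr, mul_comm _ (TT _ _ _)]
      field_simp
    · simp

theorem good_step (ht : 0 ≤ t) (hψ : SD t ψ) {N : ℕ} (IH : ∀ L : List (List (Fin n × Bool)),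
      L.flatten.countP Prod.snd < N → L.flatten.length ≤ m → Good ψ m h t L)
    (i : Fin n) (u : List (Fin n × Bool)) (rest : List (List (Fin n × Bool)))
    (h1 : (u :: rest).flatten.countP Prod.snd < N) (h2 : (u :: rest).flatten.length < m) :
    Good ψ m h t (((i, true) :: u) :: rest) := by
  have a1 := IH (((i, false) :: u) :: rest) (by simpa using h1) (by simpa using h2)
  have a2 : (∑ s ∈ range u.length, if u[s]? = some (i, true) then (t : ℂ) • (fun k D =>
      FF h t (u.take s :: u.drop (s + 1) :: rest) k D -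
        ((u.take s :: u.drop (s + 1) :: rest).map ψ).prod : VV n) else 0) ∈ Sm ψ m :=
    sum_mem fun s _ => Sm_ite fun hs => by
      have b1 := congrArg (List.countP Prod.snd) (split hs)
      have b2 := congrArg List.length (split hs)
      refine Submodule.smul_mem _ _ (IH _ ?_ ?_)
      · simp only [List.flatten_cons, List.countP_append, List.countP_cons] at h1 b1 ⊢
        omega
      · simp only [List.flatten_cons, List.length_append, List.length_cons] at h2 b2 ⊢
        omega
  have a3 := cross ht IH i u rest [] h1 h2.le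
  refine Sm_congr (add_mem (add_mem a1 a2) a3) fun k hk D _ => ?_
  have hk0 : (k : ℂ) ≠ 0 := by exact_mod_cast (by omega : k ≠ 0)
  have hr : ((Real.sqrt (t / k) : ℝ) : ℂ) ^ 2 * k = t := by rw [sq_r ht k]; field_simp
  simp only [Pi.add_apply, Finset.sum_apply, ite_apply, Pi.smul_apply, Pi.zero_apply, FF,
    List.map_cons, List.prod_cons, List.map_nil, List.prod_nil, one_mul, smul_eq_mul]
  rw [sd_fin _ _ h hk0, hψ.sd, dq, hr, add_mul, mul_assoc, sum_mul, mul_sum]
  have e : ∀ (p : Prop) [Decidable p] (x y z w : ℂ), (if p then t * (x - y * (z * w)) else 0) =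
      (if p then t * x else 0) - t * ((if p then y * z else 0) * w) := fun p _ x y z w => by
    split_ifs <;> ring
  simp only [e, sum_sub_distrib]
  ring

theorem good (ht : 0 ≤ t) (hψ : SD t ψ) (N : ℕ) : ∀ L : List (List (Fin n × Bool)),
    L.flatten.countP Prod.snd < N → L.flatten.length ≤ m → Good ψ m h t L := by
  induction N with
  | zero => exact fun L h1 => absurd h1 (Nat.not_lt_zero _)
  | succ N ih =>
    intro L h1 h2
    by_cases hL : ∀ w ∈ L, ∀ x ∈ w, x.2 = false
    · exact good_false hL h2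
    push Not at hL
    obtain ⟨w, hw, ⟨i, _ | _⟩, hx, hb⟩ := hL
    · exact absurd rfl hb
    obtain ⟨L1, L2, rfl⟩ := List.append_of_mem hw
    obtain ⟨a, b, rfl⟩ := List.append_of_mem hx
    refine Sm_congr (good_step ht hψ ih i (b ++ a) (L1 ++ L2) (by simp at h1 ⊢; omega)
      (by simp at h2 ⊢; omega)) fun k _ D _ => ?_
    simp only [FF, List.map_cons, List.prod_cons, List.map_append, List.prod_append]
    rw [TT_comm, hψ.cyc, mul_left_comm, mul_left_comm (L1.map ψ).prod, List.cons_append]

theorem star_word {k : ℕ} {M : Fin n → Matrix (Fin k) (Fin k) ℂ} (hM : ∀ j, (M j).IsHermitian)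
    (w : List (Fin n)) : (starRingEnd ℂ) (word M w).trace = (word M w.reverse).trace := by
  have : star (word M w) = word M w.reverse := by
    induction w with
    | nil => simp [word_nil]
    | cons a w ih =>
      rw [word_cons, star_mul, ih, List.reverse_cons, word_append, word_cons, word_nil, mul_one,
        (hM a).isSelfAdjoint.star_eq]
  rw [← this, Matrix.star_eq_conjTranspose, Matrix.trace_conjTranspose]
  rfl

end GueVar

open GueVar MeasureTheory MvPolynomial in
theorem gueVar (h : GaussIBP) : GueVar := by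
  intro n t ht ψ hψ w
  have g := fun L => good (m := 2 * w.length) (h := h) ht hψ _ L (Nat.lt_succ_self _)
  set a := ψ (w.map fun i => (i, true)) with ha
  have ha' : ψ (w.reverse.map fun i => (i, true)) = (starRingEnd ℂ) a := by
    rw [List.map_reverse, hψ.rev]
  obtain ⟨c, hc⟩ := sub_mem (sub_mem
    (g [w.map fun i => (i, true), w.reverse.map fun i => (i, true)] (by simp; omega))
    (Submodule.smul_mem _ ((starRingEnd ℂ) a) (g [w.map fun i => (i, true)] (by simp; omega))))
    (Submodule.smul_mem _ a (g [w.reverse.map fun i => (i, true)] (by simp; omega)))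
  refine ⟨c, fun k hk D hD ε hε => ?_⟩
  have h1 := hc k hk D hD
  simp only [Pi.sub_apply, Pi.smul_apply, FF, List.map_cons, List.prod_cons, List.map_nil,
    List.prod_nil, mul_one, smul_eq_mul, ← ha, ha'] at h1
  set r : ℝ := Real.sqrt (t / k)
  set P : PP n k := (TT (r : ℂ) D (w.map fun i => (i, true)) - C a) *
    (TT (r : ℂ) D (w.reverse.map fun i => (i, true)) - C ((starRingEnd ℂ) a)) with hP
  have h2 : ‖Ex h _ P‖ ≤ c / (k : ℝ) ^ 2 := by
    refine le_of_eq_of_le (congrArg norm ?_) h1
    rw [hP, sub_mul, mul_sub, mul_sub, mul_comm _ (C _), ← map_mul]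
    simp only [map_sub, Ex_C_mul, Ex_C]
    ring
  have h3 : ∀ z : Fin n × Fin k × Fin k → ℝ, eval (fun a => (z a : ℂ)) P =
      ((‖(word (fun j => D j + (r : ℂ) • tuple z j) w).trace / k - a‖ ^ 2 : ℝ) : ℂ) := fun z => by
    rw [hP, map_mul, map_sub, map_sub, eval_TT, eval_TT, eval_C, eval_C, ← star_word
      (M := fun j => D j + (r : ℂ) • tuple z j) fun j => (hD.1 j).add
        (Matrix.IsHermitian.smul (herm_isHermitian _) (Complex.conj_ofReal r)),
      Complex.ofReal_pow, ← Complex.mul_conj']
    simp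
  have h4 := (h _ P).1.norm
  have h5 : Ex h _ P = ((∫ z, ‖(word (fun j => D j + (r : ℂ) • tuple z j) w).trace / k - a‖ ^ 2
      ∂gam _ : ℝ) : ℂ) := (integral_congr_ae (.of_forall h3)).trans integral_complex_ofReal
  simp only [h3, Complex.norm_real, norm_pow, norm_norm] at h4
  have h6 := mul_meas_ge_le_integral_of_nonneg (.of_forall fun _ => sq_nonneg _) h4 (ε ^ 2)
  rw [h5, Complex.norm_real] at h2
  have h7 := h6.trans ((le_abs_self _).trans h2)
  rw [← le_div_iff₀' (by positivity), div_div, mul_comm ((k : ℝ) ^ 2)] at h7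
  refine le_trans (measure_mono fun z hz => ?_)
    ((ofReal_measureReal (measure_ne_top _ _)).ge.trans (ENNReal.ofReal_le_ofReal h7))
  exact pow_le_pow_left₀ hε.le hz 2

end Vale.Agent.P087
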