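import Vale.Agent.P087.Iface

/-! The Schwinger-Dyson equation at finite size. -/

namespace Vale.Agent.P087.GueVar

open MeasureTheory MvPolynomial Finset

instance (ι : Type) [Fintype ι] : IsProbabilityMeasure (gam ι) := by unfold gam; infer_instance

/-- Gaussian expectation of polynomials. -/
noncomputable def Ex (h : GaussIBP) (ι : Type) [Fintype ι] [DecidableEq ι] :
    MvPolynomial ι ℂ →ₗ[ℂ] ℂ where
  toFun p := ∫ z, eval (fun a => (z a : ℂ)) p ∂gam ι
  map_add' p q := by simp only [map_add]; exact integral_add (h ι p).1 (h ι q).1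
  map_smul' c p := by simp only [smul_eval, integral_const_mul, RingHom.id_apply, smul_eq_mul]

theorem Ex_C (h : GaussIBP) {ι : Type} [Fintype ι] [DecidableEq ι] (c : ℂ) :
    Ex h ι (C c) = c := by simp [Ex]

theorem Ex_C_mul (h : GaussIBP) {ι : Type} [Fintype ι] [DecidableEq ι] (c : ℂ)
    (p : MvPolynomial ι ℂ) : Ex h ι (C c * p) = c * Ex h ι p := by
  rw [← smul_eq_C_mul, map_smul, smul_eq_mul]

theorem Ex_X_mul (h : GaussIBP) {ι : Type} [Fintype ι] [DecidableEq ι] (a : ι)
    (p : MvPolynomial ι ℂ) : Ex h ι (X a * p) = Ex h ι (pderiv a p) := (h ι p).2 a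

theorem word_nil {A ι : Type} [Monoid A] (Y : ι → A) : word Y [] = 1 := rfl

theorem word_cons {A ι : Type} [Monoid A] (Y : ι → A) (a : ι) (u : List ι) :
    word Y (a :: u) = Y a * word Y u := by simp [word]

theorem word_append {A ι : Type} [Monoid A] (Y : ι → A) (u v : List ι) :
    word Y (u ++ v) = word Y u * word Y v := by simp [word]

theorem map_word {A B ι : Type} [Monoid A] [Monoid B] (f : A →* B) (Y : ι → A) (u : List ι) :
    f (word Y u) = word (fun i => f (Y i)) u := by
  rw [word, map_list_prod, List.map_map]; rfl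

theorem split {α : Type} {u : List α} {s : ℕ} {x : α} (h : u[s]? = some x) :
    u.take s ++ x :: u.drop (s + 1) = u := by
  obtain ⟨h1, rfl⟩ := List.getElem?_eq_some_iff.1 h
  rw [← List.drop_eq_getElem_cons h1, List.take_append_drop]

variable {n k : ℕ}

theorem herm_sum (x : Fin k × Fin k → ℝ) :
    ∑ p, (x p : ℂ) • herm (Pi.single p (1 : ℝ)) = herm x := by
  ext a b
  have h : ∀ p, ((x p : ℂ) • herm (Pi.single p (1 : ℝ))) a b =
      (if (a, b) = p then (1 + Complex.I) * x p / 2 else 0) +
      if (b, a) = p then (1 - Complex.I) * x p / 2 else 0 := fun p => by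
    rw [herm, Matrix.smul_apply, Matrix.of_apply, Pi.single_apply, Pi.single_apply, smul_eq_mul]
    split_ifs <;> push_cast <;> ring
  simp only [Matrix.sum_apply, h, Finset.sum_add_distrib, Finset.sum_ite_eq, Finset.mem_univ,
    if_true]
  rw [herm, Matrix.of_apply, add_div]

theorem herm_complete (a b c d : Fin k) :
    ∑ p, herm (Pi.single p (1 : ℝ)) a b * herm (Pi.single p (1 : ℝ)) c d =
      if a = d ∧ b = c then 1 else 0 := by
  have h : ∀ p, herm (Pi.single p (1 : ℝ)) a b * herm (Pi.single p (1 : ℝ)) c d =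
      (if (a, b) = p then (1 + Complex.I) / 2 * herm (Pi.single p (1 : ℝ)) c d else 0) +
      if (b, a) = p then (1 - Complex.I) / 2 * herm (Pi.single p (1 : ℝ)) c d else 0 := fun p => by
    rw [herm, Matrix.of_apply, Pi.single_apply, Pi.single_apply]
    split_ifs <;> push_cast <;> ring
  simp only [h, Finset.sum_add_distrib, Finset.sum_ite_eq, Finset.mem_univ, if_true]
  simp only [herm, Matrix.of_apply, Pi.single_apply, Prod.mk.injEq, @eq_comm _ c, @eq_comm _ d,
    @and_comm (b = c), @and_comm (b = d)]
  split_ifs <;> push_cast <;>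
    first | ring1 | linear_combination (1 / 2 : ℂ) * Complex.I_mul_I |
      linear_combination (-1 / 2 : ℂ) * Complex.I_mul_I

/-- The polynomial ring of the entries. -/
abbrev PP (n k : ℕ) : Type := MvPolynomial (Fin n × Fin k × Fin k) ℂ

/-- The basis of the self-adjoint matrices. -/
noncomputable def EE (n : ℕ) (p : Fin k × Fin k) : Matrix (Fin k) (Fin k) (PP n k) :=
  (herm (Pi.single p (1 : ℝ))).map C

theorem EE_complete (a b c d : Fin k) :
    ∑ p, EE n p a b * EE n p c d = if a = d ∧ b = c then 1 else 0 := by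
  simp only [EE, Matrix.map_apply, ← map_mul, ← map_sum, herm_complete]
  split_ifs <;> simp

theorem sum_EME (M N : Matrix (Fin k) (Fin k) (PP n k)) :
    ∑ p, (EE n p * (M * EE n p * N)).trace = M.trace * N.trace := by
  have h : ∑ p, EE n p * M * EE n p = M.trace • (1 : Matrix (Fin k) (Fin k) (PP n k)) := by
    ext1 a d
    have : ∀ p, (EE n p * M * EE n p) a d = ∑ c, ∑ b, M b c * (EE n p a b * EE n p c d) :=
      fun p => by
        simp only [Matrix.mul_apply, sum_mul]
        exact sum_congr rfl fun c _ => sum_congr rfl fun b _ => by ring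
    simp only [Matrix.sum_apply, this]
    rw [sum_comm]
    simp only [sum_comm (s := (univ : Finset (Fin k × Fin k))), ← mul_sum, EE_complete]
    by_cases had : a = d <;> simp [had, Matrix.trace]
  simp only [← mul_assoc]
  rw [← Matrix.trace_sum, ← sum_mul, h, smul_mul_assoc, one_mul, Matrix.trace_smul, smul_eq_mul]

theorem sum_ME (M N : Matrix (Fin k) (Fin k) (PP n k)) :
    ∑ p, (EE n p * M).trace * (EE n p * N).trace = (M * N).trace := by
  have h : ∑ p, (EE n p * M).trace • EE n p = M := by
    ext1 c d
    have : ∀ p, ((EE n p * M).trace • EE n p) c d =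
        ∑ a, ∑ b, M b a * (EE n p a b * EE n p c d) := fun p => by
      simp only [Matrix.trace, Matrix.diag, Matrix.mul_apply, sum_mul, Matrix.smul_apply,
        smul_eq_mul]
      exact sum_congr rfl fun c _ => sum_congr rfl fun b _ => by ring
    simp only [Matrix.sum_apply, this]
    rw [sum_comm]
    simp only [sum_comm (s := (univ : Finset (Fin k × Fin k))), ← mul_sum, EE_complete]
    simp [ite_and]
  conv_rhs => rw [← h, sum_mul, Matrix.trace_sum]
  simp only [smul_mul_assoc, Matrix.trace_smul, smul_eq_mul]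

theorem map_mul_d (d : Derivation ℂ (PP n k) (PP n k)) (M N : Matrix (Fin k) (Fin k) (PP n k)) :
    (M * N).map d = M.map d * N + M * N.map d := by
  ext1 a b
  simp only [Matrix.map_apply, Matrix.mul_apply, map_sum, Derivation.leibniz, Matrix.add_apply,
    ← sum_add_distrib, smul_eq_mul]
  exact sum_congr rfl fun c _ => by ring

theorem d_trace (d : Derivation ℂ (PP n k) (PP n k)) (M : Matrix (Fin k) (Fin k) (PP n k)) :
    d M.trace = (M.map d).trace := by
  simp [Matrix.trace, map_sum]

theorem d_EE (d : Derivation ℂ (PP n k) (PP n k)) (p : Fin k × Fin k) : (EE n p).map d = 0 := by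
  ext1 a b
  exact d.map_algebraMap _

variable (r : ℂ) (D : Fin n → Matrix (Fin k) (Fin k) ℂ)

/-- The letters as matrices of polynomials. -/
noncomputable def AA (l : Fin n × Bool) : Matrix (Fin k) (Fin k) (PP n k) :=
  (D l.1).map C + if l.2 then ∑ p, (C r * X (l.1, p) : PP n k) • EE n p else 0

theorem d_AA (i : Fin n) (p : Fin k × Fin k) (l : Fin n × Bool) :
    (AA r D l).map (pderiv (i, p)) = if l = (i, true) then (C r : PP n k) • EE n p else 0 := by
  ext1 a b
  obtain ⟨j, _ | _⟩ := l
  · simp [AA]
  · by_cases hj : j = i <;>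
      simp [AA, EE, Matrix.sum_apply, map_sum, pderiv_X, Pi.single_apply, hj, mul_comm]

theorem d_word (i : Fin n) (p : Fin k × Fin k) (u : List (Fin n × Bool)) :
    (word (AA r D) u).map (pderiv (i, p)) = ∑ s ∈ range u.length, if u[s]? = some (i, true) then
      (C r : PP n k) • (word (AA r D) (u.take s) * EE n p * word (AA r D) (u.drop (s + 1)))
      else 0 := by
  induction u with
  | nil =>
    ext1 a b
    by_cases hab : a = b <;> simp [word_nil, hab]
  | cons a u ih =>
    rw [word_cons, map_mul_d, ih, d_AA, List.length_cons, sum_range_succ', add_comm, mul_sum]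
    congr 1
    · refine sum_congr rfl fun s _ => ?_
      simp only [List.getElem?_cons_succ, List.take_succ_cons, List.drop_succ_cons, word_cons]
      split_ifs <;> simp [mul_assoc]
    · by_cases ha : a = (i, true) <;> simp [ha, word_nil]

/-- The normalised trace of a word. -/
noncomputable def TT (u : List (Fin n × Bool)) : PP n k := C (k : ℂ)⁻¹ * (word (AA r D) u).trace

theorem TT_comm (u v : List (Fin n × Bool)) : TT r D (u ++ v) = TT r D (v ++ u) := by
  rw [TT, TT, word_append, word_append, Matrix.trace_mul_comm]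

theorem sum_d_self (i : Fin n) (u : List (Fin n × Bool)) :
    ∑ p, pderiv (i, p) (EE n p * word (AA r D) u).trace =
      ∑ s ∈ range u.length, if u[s]? = some (i, true) then
        C r * ((word (AA r D) (u.take s)).trace * (word (AA r D) (u.drop (s + 1))).trace)
      else 0 := by
  simp only [d_trace, map_mul_d, d_EE, zero_mul, zero_add, d_word, mul_sum, Matrix.trace_sum]
  rw [sum_comm]
  refine sum_congr rfl fun s _ => ?_
  split_ifs
  · simp only [mul_smul_comm, Matrix.trace_smul, smul_eq_mul, ← mul_sum, sum_EME]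
  · simp

theorem sum_d_other (i : Fin n) (u w : List (Fin n × Bool)) :
    ∑ p, (EE n p * word (AA r D) u).trace * pderiv (i, p) (TT r D w) =
      ∑ s ∈ range w.length, if w[s]? = some (i, true) then
        C r * TT r D (u ++ (w.drop (s + 1) ++ w.take s)) else 0 := by
  simp only [TT, pderiv_C_mul, d_trace, d_word, mul_sum, Matrix.trace_sum]
  rw [sum_comm]
  refine sum_congr rfl fun s _ => ?_
  split_ifs
  · rw [word_append, ← sum_ME, mul_sum, mul_sum]
    refine sum_congr rfl fun p _ => ?_
    rw [Matrix.trace_smul, smul_eq_mul, word_append, Matrix.trace_mul_cycle,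
      Matrix.trace_mul_comm (_ * _) (EE n p)]
    ring
  · simp

/-- The Schwinger-Dyson equation. -/
theorem sd_fin (h : GaussIBP) (hk : (k : ℂ) ≠ 0) (i : Fin n) (u : List (Fin n × Bool))
    (Q : PP n k) : Ex h _ (TT r D ((i, true) :: u) * Q) = Ex h _ (TT r D ((i, false) :: u) * Q) +
      (∑ s ∈ range u.length, if u[s]? = some (i, true) then
        r ^ 2 * k * Ex h _ (TT r D (u.take s) * (TT r D (u.drop (s + 1)) * Q)) else 0) +
      r / k * Ex h _ (∑ p, (EE n p * word (AA r D) u).trace * pderiv (i, p) Q) := by
  have h1 : TT r D ((i, true) :: u) * Q = TT r D ((i, false) :: u) * Q +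
      C (r / k) * ∑ p, X (i, p) * ((EE n p * word (AA r D) u).trace * Q) := by
    simp only [TT, word_cons, AA, if_true, Bool.false_eq_true, if_false, add_zero, add_mul,
      Matrix.trace_add, sum_mul, Matrix.trace_sum, smul_mul_assoc, Matrix.trace_smul, smul_eq_mul,
      mul_add, mul_sum, div_eq_mul_inv, map_mul]
    exact congrArg _ (sum_congr rfl fun p _ => by ring)
  rw [h1, map_add, Ex_C_mul, map_sum, add_assoc]
  simp only [Ex_X_mul, Derivation.leibniz, smul_eq_mul]
  rw [← map_sum, sum_add_distrib, map_add, mul_add, add_comm (r / k * _), ← mul_sum, sum_d_self,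
    mul_sum, map_sum, mul_sum]
  congr 2
  refine sum_congr rfl fun s _ => ?_
  split_ifs
  · have : Q * (C r * ((word (AA r D) (u.take s)).trace * (word (AA r D) (u.drop (s + 1))).trace))
        = C (r * k * k) * (TT r D (u.take s) * (TT r D (u.drop (s + 1)) * Q)) := by
      have e : (C (k : ℂ) : PP n k) * C (k : ℂ)⁻¹ = 1 := by
        rw [← map_mul, mul_inv_cancel₀ hk, map_one]
      simp only [TT, map_mul]
      linear_combination (-(Q * C r * (word (AA r D) (u.take s)).trace *
        (word (AA r D) (u.drop (s + 1))).trace) * (C (k : ℂ) * C (k : ℂ)⁻¹ + 1)) * e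
    rw [this, Ex_C_mul]
    field_simp
  · simp

theorem TT_false (u : List (Fin n)) :
    TT r D (u.map fun i => (i, false)) = C ((word D u).trace / k) := by
  have h := map_word (C : ℂ →+* PP n k).mapMatrix.toMonoidHom D u
  have h2 : word (AA r D) (u.map fun i => (i, false)) = (word D u).map C := by
    refine Eq.trans ?_ h.symm
    simp [word, AA, Function.comp_def]
  rw [TT, h2, ← AddMonoidHom.map_trace, ← map_mul, div_eq_inv_mul]

theorem eval_TT (z : Fin n × Fin k × Fin k → ℝ) (u : List (Fin n)) :
    eval (fun a => (z a : ℂ)) (TT r D (u.map fun i => (i, true))) =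
      (word (fun j => D j + r • tuple z j) u).trace / k := by
  have h := map_word (eval fun a => (z a : ℂ)).mapMatrix.toMonoidHom (AA r D)
    (u.map fun i => (i, true))
  have h2 : ∀ j, (AA r D (j, true)).map (eval fun a => (z a : ℂ)) = D j + r • tuple z j :=
    fun j => by
      rw [tuple, ← herm_sum]
      ext a b
      simp [AA, EE, Matrix.sum_apply, mul_sum, mul_assoc]
  rw [TT, map_mul, eval_C, AddMonoidHom.map_trace, div_eq_inv_mul]
  refine congrArg (fun M => (k : ℂ)⁻¹ * Matrix.trace M) (h.trans ?_)
  simp [word, Function.comp_def, h2]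

end Vale.Agent.P087.GueVar
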