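import Vale.Agent.P087.Iface

/-! Lower bound for the volume of microstates. -/

namespace Vale.Agent.P087

open MeasureTheory Filter ProbabilityTheory
open scoped ENNReal

namespace GueVol

theorem gauss_le : gaussianReal 0 1 ≤ (volume : Measure ℝ) := by
  rw [gaussianReal_of_var_ne_zero _ one_ne_zero]
  refine (withDensity_mono (g := 1) (.of_forall fun x => ?_)).trans_eq withDensity_one
  refine ENNReal.ofReal_le_one.2 (mul_le_one₀ (inv_le_one_of_one_le₀ ?_) (Real.exp_pos _).le ?_)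
  · refine Real.one_le_sqrt.2 ?_
    have := Real.two_le_pi
    push_cast
    linarith
  · exact Real.exp_le_one_iff.2 (div_nonpos_of_nonpos_of_nonneg (neg_nonpos.2 (sq_nonneg _))
      (by positivity))

theorem gam_le {ι : Type} [Fintype ι] (s : Set (ι → ℝ)) : gam ι s ≤ volume s := by
  have h : (gam ι).toOuterMeasure ≤ OuterMeasure.pi fun _ : ι =>
      (volume : Measure ℝ).toOuterMeasure := OuterMeasure.le_pi.2 fun s _ => by
    rw [Measure.coe_toOuterMeasure, gam, Measure.pi_pi]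
    exact Finset.prod_le_prod' fun i _ => gauss_le (s i)
  rw [volume_pi, Measure.pi_def]
  exact (h s).trans (le_toMeasure_apply _ _ _)

theorem opLe_iff {k : ℕ} {A : Matrix (Fin k) (Fin k) ℂ} {R : ℝ} (hR : 0 ≤ R) : OpLe A R ↔
    ∀ v : Fin k → ℂ, ‖WithLp.toLp 2 (A.mulVec v)‖ ≤ R * ‖WithLp.toLp 2 v‖ := by
  refine forall_congr' fun v => ?_
  rw [← sq_le_sq₀ (norm_nonneg _) (by positivity), mul_pow, EuclideanSpace.norm_sq_eq,
    EuclideanSpace.norm_sq_eq]

theorem opLe_add {k : ℕ} {A B : Matrix (Fin k) (Fin k) ℂ} {R S r : ℝ} (hR : 0 ≤ R) (hS : 0 ≤ S)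
    (hr : 0 ≤ r) (hA : OpLe A R) (hB : OpLe B S) : OpLe (A + (r : ℂ) • B) (R + r * S) := by
  rw [opLe_iff (by positivity)] at hA hB ⊢
  intro v
  rw [Matrix.add_mulVec, Matrix.smul_mulVec, WithLp.toLp_add, WithLp.toLp_smul, add_mul, mul_assoc]
  refine (norm_add_le _ _).trans (add_le_add (hA v) ?_)
  rw [norm_smul, Complex.norm_real, Real.norm_of_nonneg hr]
  exact mul_le_mul_of_nonneg_left (hB v) hr

theorem tuple_add {n k : ℕ} (d z : Fin n × Fin k × Fin k → ℝ) (r : ℝ) (j : Fin n) :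
    tuple (d + r • z) j = tuple d j + (r : ℂ) • tuple z j := by
  ext a b
  simp only [tuple, herm, Matrix.of_apply, Matrix.add_apply, Matrix.smul_apply, Pi.add_apply,
    Pi.smul_apply, smul_eq_mul]
  push_cast
  ring

theorem exists_tuple {n k : ℕ} {D : Fin n → Matrix (Fin k) (Fin k) ℂ}
    (hD : ∀ j, (D j).IsHermitian) : ∃ d, ∀ j, tuple d j = D j :=
  ⟨fun x => (D x.1 x.2.1 x.2.2).re + (D x.1 x.2.1 x.2.2).im, fun j => herm_surjective (D j) (hD j)⟩

end GueVol

open GueVol in
theorem gueLower (h2 : GueVar) (h3 : GueNorm) : GueLower := by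
  intro n t ht ψ hψ R₀ hR₀ hM
  obtain ⟨C, hC, hN⟩ := h3 n
  refine ⟨R₀ + √t * C, by positivity, fun m ε hε => ?_⟩
  choose c hc using h2 n t ht.le ψ hψ
  set W := (List.finite_length_le (Fin n) m).toFinset with hW
  have hS : ∀ᶠ k : ℕ in atTop, (∑ w ∈ W, |c w|) / (ε ^ 2 * k ^ 2) ≤ 1 / 4 :=
    (tendsto_const_nhds.div_atTop (((tendsto_pow_atTop two_ne_zero).comp
      tendsto_natCast_atTop_atTop).const_mul_atTop (by positivity))).eventually
      (ge_mem_nhds (by norm_num))
  refine ((hM (2 * m)).and_eventually (hN.and (hS.and (eventually_ge_atTop 1)))).mono ?_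
  rintro k ⟨⟨D, hD, hDR⟩, k1, k2, k3⟩
  have hk : (0 : ℝ) < k := by exact_mod_cast k3
  set r : ℝ := √(t / k) with hr
  have hr0 : 0 < r := by positivity
  obtain ⟨d, hd0⟩ := exists_tuple hD.1
  have hd : ∀ z j, tuple (d + r • z) j = D j + (r : ℂ) • tuple z j := fun z j => by
    rw [tuple_add, hd0]
  set Γ := microstates (fun w => ψ (w.map fun i => (i, true))) (R₀ + √t * C) m k ε with hΓ
  set T := (r • ·) ⁻¹' ((d + ·) ⁻¹' Γ) with hT
  have a1 : Tᶜ ⊆ {z | ¬ ∀ j, OpLe (tuple z j) (C * √k)} ∪ ⋃ w ∈ W,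
      {z | ε ≤ ‖(word (fun j => D j + (r : ℂ) • tuple z j) w).trace / k -
        ψ (w.map fun i => (i, true))‖} := fun z hz => by
    by_contra hcon
    simp only [Set.mem_union, Set.mem_iUnion, Set.mem_ofPred_eq, not_or, not_not, not_exists,
      not_le] at hcon
    refine hz ⟨fun j => ?_, fun w _ hw => ?_⟩
    · have := opLe_add hR₀ (by positivity) hr0.le (hDR j) (hcon.1 j)
      have e : r * (C * √k) = √t * C := by
        rw [hr, Real.sqrt_div ht.le, mul_comm C, ← mul_assoc,
          div_mul_cancel₀ _ (Real.sqrt_pos.2 hk).ne']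
      rwa [← hd, e] at this
    · rw [show tuple (d + r • z) = _ from funext (hd z)]
      exact hcon.2 w (by simpa [hW] using hw)
  have a2 : gam _ Tᶜ ≤ 1 / 4 + ENNReal.ofReal (1 / 4) := by
    refine (measure_mono a1).trans ((measure_union_le _ _).trans (add_le_add k1 ?_))
    refine (measure_biUnion_finset_le _ _).trans (le_trans ?_ (ENNReal.ofReal_le_ofReal k2))
    rw [Finset.sum_div, ENNReal.ofReal_sum_of_nonneg fun _ _ => by positivity]
    refine Finset.sum_le_sum fun w hw => (hc w k k3 D ⟨hD.1, fun u hu => hD.2 u ?_⟩ ε hε).trans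
      (ENNReal.ofReal_le_ofReal (div_le_div_of_nonneg_right (le_abs_self _) (by positivity)))
    have : w.length ≤ m := by simpa [hW] using hw
    omega
  have a3 : ENNReal.ofReal (1 / 2) ≤ gam _ T := by
    have : IsProbabilityMeasure (gam (Fin n × Fin k × Fin k)) := by unfold gam; infer_instance
    have b1 := (measure_univ_le_add_compl (μ := gam (Fin n × Fin k × Fin k)) T).trans
      (add_le_add_right a2 _)
    have b2 : (1 / 4 : ℝ≥0∞) = ENNReal.ofReal (1 / 4) := by
      rw [ENNReal.ofReal_div_of_pos (by norm_num)]; simp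
    rw [measure_univ, b2, ← ENNReal.ofReal_add (by norm_num) (by norm_num), ← tsub_le_iff_right,
      ← ENNReal.ofReal_one, ← ENNReal.ofReal_sub _ (by norm_num)] at b1
    exact le_of_eq_of_le (by norm_num) b1
  have a4 := a3.trans (gam_le T)
  rw [hT, Measure.addHaar_preimage_smul _ hr0.ne', measure_preimage_add,
    Module.finrank_fintype_fun_eq_card, abs_of_pos (by positivity), ENNReal.ofReal_inv_of_pos (by positivity),
    ← ENNReal.div_eq_inv_mul, ENNReal.le_div_iff_mul_le (.inl (by simp; positivity))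
      (.inl ENNReal.ofReal_ne_top), ← ENNReal.ofReal_mul (by norm_num)] at a4
  refine le_trans (ENNReal.ofReal_le_ofReal ?_) a4
  have e1 : r ^ Fintype.card (Fin n × Fin k × Fin k) =
      Real.exp ((k : ℝ) ^ 2 * (n / 2 * Real.log t - n / 2 * Real.log k)) := by
    rw [← Real.exp_log hr0, ← Real.exp_nat_mul, hr, Real.log_sqrt (by positivity),
      Real.log_div ht.ne' hk.ne']
    simp only [Fintype.card_prod, Fintype.card_fin]
    push_cast
    ring_nf
  have e2 : Real.exp (-(k : ℝ) ^ 2) ≤ 1 / 2 := by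
    have b1 : (1 : ℝ) ≤ (k : ℝ) ^ 2 := one_le_pow₀ (by exact_mod_cast k3)
    rw [Real.exp_neg, one_div]
    exact inv_anti₀ two_pos (by linarith [Real.add_one_le_exp ((k : ℝ) ^ 2)])
  rw [e1]
  refine le_of_eq_of_le ?_ (mul_le_mul_of_nonneg_right e2 (Real.exp_pos _).le)
  rw [← Real.exp_add]
  ring_nf

end Vale.Agent.P087
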