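import Vale.Agent.P087.Defs

/-! Interfaces between the parts of the proof (not used in the final statement). -/

namespace Vale.Agent.P087

open MeasureTheory Filter ProbabilityTheory
open scoped ENNReal NNReal

/-- The standard Gaussian measure on `ℝ^ι`. -/
noncomputable def gam (ι : Type) [Fintype ι] : Measure (ι → ℝ) :=
  Measure.pi fun _ => gaussianReal 0 1

/-- G1: polynomials are Gaussian integrable, and Gaussian integration by parts. -/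
def GaussIBP : Prop :=
  ∀ (ι : Type) [Fintype ι] [DecidableEq ι] (p : MvPolynomial ι ℂ),
    Integrable (fun z : ι → ℝ => MvPolynomial.eval (fun a => (z a : ℂ)) p) (gam ι) ∧
    ∀ a : ι, ∫ z, MvPolynomial.eval (fun a => (z a : ℂ)) (MvPolynomial.X a * p) ∂gam ι =
      ∫ z, MvPolynomial.eval (fun a => (z a : ℂ)) (MvPolynomial.pderiv a p) ∂gam ι

/-- A tracial moment function in letters `(i, false) = Y i` and `(i, true) = Y i + √t S i`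
satisfying the Schwinger-Dyson equation. -/
structure SD {n : ℕ} (t : ℝ) (ψ : List (Fin n × Bool) → ℂ) : Prop where
  nil : ψ [] = 1
  cyc : ∀ u v, ψ (u ++ v) = ψ (v ++ u)
  rev : ∀ u, ψ u.reverse = (starRingEnd ℂ) (ψ u)
  sd : ∀ i u, ψ ((i, true) :: u) = ψ ((i, false) :: u) + t * dq ψ (i, true) u

/-- `D` is a tuple of self-adjoint matrices with exactly the moments of `Y` up to degree `m`. -/
def IsModel {n k : ℕ} (ψ : List (Fin n × Bool) → ℂ) (m : ℕ)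
    (D : Fin n → Matrix (Fin k) (Fin k) ℂ) : Prop :=
  (∀ j, (D j).IsHermitian) ∧
    ∀ u : List (Fin n), u.length ≤ m → (word D u).trace / k = ψ (u.map fun i => (i, false))

/-- G2: asymptotic freeness of GUE matrices from deterministic matrices, in probability. -/
def GueVar : Prop :=
  ∀ (n : ℕ) (t : ℝ), 0 ≤ t → ∀ ψ : List (Fin n × Bool) → ℂ, SD t ψ → ∀ w : List (Fin n),
    ∃ c : ℝ, ∀ k : ℕ, 1 ≤ k → ∀ D : Fin n → Matrix (Fin k) (Fin k) ℂ,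
      IsModel ψ (2 * w.length) D → ∀ ε : ℝ, 0 < ε →
        gam (Fin n × Fin k × Fin k)
          {z | ε ≤ ‖(word (fun j => D j + ((Real.sqrt (t / k) : ℝ) : ℂ) • tuple z j) w).trace / k -
            ψ (w.map fun i => (i, true))‖} ≤ ENNReal.ofReal (c / (ε ^ 2 * k ^ 2))

/-- G3: operator norm bound for GUE matrices. -/
def GueNorm : Prop :=
  ∀ n : ℕ, ∃ C : ℝ, 0 < C ∧ ∀ᶠ k : ℕ in atTop,
    gam (Fin n × Fin k × Fin k) {z | ¬ ∀ j, OpLe (tuple z j) (C * Real.sqrt k)} ≤ 1 / 4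

/-- G4: lower bound for the volume of microstates. -/
def GueLower : Prop :=
  ∀ (n : ℕ) (t : ℝ), 0 < t → ∀ ψ : List (Fin n × Bool) → ℂ, SD t ψ → ∀ R₀ : ℝ, 0 ≤ R₀ →
    (∀ m : ℕ, ∃ᶠ k : ℕ in atTop, ∃ D : Fin n → Matrix (Fin k) (Fin k) ℂ,
      IsModel ψ m D ∧ ∀ j, OpLe (D j) R₀) →
    ∃ R : ℝ, 0 < R ∧ ∀ (m : ℕ) (ε : ℝ), 0 < ε → ∃ᶠ k : ℕ in atTop,
      ENNReal.ofReal (Real.exp ((k : ℝ) ^ 2 * ((n / 2 * Real.log t - 1) - n / 2 * Real.log k))) ≤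
        volume (microstates (fun w => ψ (w.map fun i => (i, true))) R m k ε)

/-- Volume of a set whose fibres lie near low dimensional subspaces. -/
def TubeVol : Prop :=
  ∀ (ι : Type) [Fintype ι] [DecidableEq ι] (p : ι → Prop) [DecidablePred p] (Γ : Set (ι → ℝ)),
    MeasurableSet Γ → ∀ (ρ η a b : ℝ) (d : ℕ), 0 < a → a ≤ b →
    (∀ x ∈ Γ, ∑ i, x i ^ 2 ≤ ρ) →
    (∀ y : ι → ℝ, ∃ V : Submodule ℝ (ι → ℝ), Module.finrank ℝ V ≤ d ∧
      ∀ x ∈ Γ, (∀ i, p i → x i = y i) → ∃ v ∈ V,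
        ∑ i ∈ Finset.univ.filter (fun i => ¬ p i), (x i - v i) ^ 2 ≤ η) →
    volume Γ ≤ ENNReal.ofReal (Real.exp (2 * a * ρ + b * η +
      (Fintype.card ι : ℝ) / 2 * Real.log (Real.pi / b) +
      (((Finset.univ.filter p).card : ℝ) + d) / 2 * Real.log (b / a)))

/-- Microstate spaces are measurable. -/
def MicroMeas : Prop :=
  ∀ (n : ℕ) (φ : List (Fin n) → ℂ) (R : ℝ) (m k : ℕ) (ε : ℝ),
    MeasurableSet (microstates φ R m k ε)

/-- From volume bounds to bounds on `χ`. -/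
def ChiBounds : Prop :=
  ∀ (n : ℕ) (φ : List (Fin n) → ℂ) (B : ℝ),
    ((∀ R : ℝ, 0 < R → ∃ (m : ℕ) (ε : ℝ), 0 < ε ∧ ∀ᶠ k : ℕ in atTop,
      volume (microstates φ R m k ε) ≤
        ENNReal.ofReal (Real.exp ((k : ℝ) ^ 2 * (B - n / 2 * Real.log k)))) →
      chi φ ≤ (B : EReal)) ∧
    ((∃ R : ℝ, 0 < R ∧ ∀ (m : ℕ) (ε : ℝ), 0 < ε → ∃ᶠ k : ℕ in atTop,
      ENNReal.ofReal (Real.exp ((k : ℝ) ^ 2 * (B - n / 2 * Real.log k))) ≤
        volume (microstates φ R m k ε)) → (B : EReal) ≤ chi φ)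

/-- From bounds on the Fisher information to a lower bound on `χ*`. -/
def StarBound : Prop :=
  ∀ (H : Type) [NormedAddCommGroup H] [InnerProductSpace ℂ H] (n : ℕ) (Ω : H)
    (X S : Fin n → Bdd H) (t s₀ s₁ μ : ℝ), 0 < t → t ≤ 1 → t ≤ s₀ → s₀ ≤ s₁ → 0 ≤ μ → μ ≤ n →
    (∀ u : ℝ, 0 < u → fisherAt Ω X S u ≤ ENNReal.ofReal (n / (t + u))) →
    (∀ u : ℝ, 0 < u → s₀ ≤ t + u → t + u ≤ s₁ →
      fisherAt Ω X S u ≤ ENNReal.ofReal ((n - μ) / (t + u))) →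
    ((-(n * Real.log (s₁ / t) - μ * Real.log (s₁ / s₀) + n / s₁) / 2 : ℝ) : EReal) ≤
      chiStar Ω X S

/-- The combinatorial data on the group `F`. -/
structure GData (n : ℕ) (F : Type) [Group F] where
  a : F
  s : F
  e : Fin n → ℕ
  c : Fin n → F
  E : Fin n → Set F
  X : F → Set F
  W : F → ℝ≥0∞
  K : ℝ≥0
  e_zero : ∀ j : Fin n, j.val = 0 → e j = 0
  c_eq : ∀ j, c j = a ^ e j * s * (a ^ e j)⁻¹
  s_sq : s * s = 1
  s_ne : s ≠ 1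
  E_inv : ∀ j k x, ¬ (k = j ∧ (x = 1 ∨ x = c j)) → (c k * x ∈ E j ↔ x ∈ E j)
  one_notMem_E : ∀ j, (1 : F) ∉ E j
  c_mem_E : ∀ j, c j ∈ E j
  X_inv : ∀ k y z, c k * z ∈ X y ↔ z ∈ X y
  self_mem_X : ∀ y, y ∈ X y
  one_le_W : ∀ j y, c j ∈ X y → 1 ≤ W y
  bd_E : ∀ j g, g = a ∨ g = a⁻¹ →
    ∑' z, {z | ¬ (z ∈ E j ↔ g * z ∈ E j)}.indicator W z ≤ K
  bd_X : ∀ y g, g = a ∨ g = a⁻¹ →
    ∑' z, {z | ¬ (z ∈ X y ↔ g * z ∈ X y)}.indicator W z ≤ K * W y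
  sofic : ∀ B : Finset F, ∃ᶠ k : ℕ in atTop, ∃ π : F →* Equiv.Perm (Fin k),
    ∀ g ∈ B, g ≠ 1 → ∀ x, π g x ≠ x

/-- The group with its combinatorial data exists. -/
def GroupExists : Prop :=
  ∀ n : ℕ, 1 ≤ n → ∃ (F : Type) (_ : Group F), Nonempty (GData n F)

end Vale.Agent.P087
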