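import Vale.Agent.P087.Iface

/-! Limits: bounds on `χ` from volume bounds and on `χ*` from Fisher information bounds. -/

namespace Vale.Agent.P087

open MeasureTheory Filter Set Topology
open scoped ENNReal

namespace Limits

theorem term_eq (n k : ℕ) (hk : 1 ≤ k) (B : ℝ) :
    ((((k : ℝ) ^ 2)⁻¹ : ℝ) : EReal) *
      ENNReal.log (ENNReal.ofReal (Real.exp ((k : ℝ) ^ 2 * (B - n / 2 * Real.log k)))) +
      ((n / 2 * Real.log k : ℝ) : EReal) = (B : EReal) := by
  have hk' : (0 : ℝ) < k := by exact_mod_cast hk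
  rw [ENNReal.log_ofReal_of_pos (Real.exp_pos _), Real.log_exp, ← EReal.coe_mul, ← EReal.coe_add]
  congr 1
  field_simp
  ring

theorem term_mono (n k : ℕ) {a b : ℝ≥0∞} (h : a ≤ b) :
    ((((k : ℝ) ^ 2)⁻¹ : ℝ) : EReal) * ENNReal.log a + ((n / 2 * Real.log k : ℝ) : EReal) ≤
      ((((k : ℝ) ^ 2)⁻¹ : ℝ) : EReal) * ENNReal.log b + ((n / 2 * Real.log k : ℝ) : EReal) := by
  refine add_le_add ?_ le_rfl
  refine mul_le_mul_of_nonneg_left (ENNReal.log_monotone h) ?_
  exact EReal.coe_nonneg.2 (by positivity)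

theorem lint_Ioc {t a b c : ℝ} (ha : 0 < t + a) (hab : a ≤ b) (hc : 0 ≤ c) :
    ∫⁻ u in Ioc a b, ENNReal.ofReal (c / (t + u)) =
      ENNReal.ofReal (c * Real.log ((t + b) / (t + a))) := by
  have hpos : ∀ u ∈ uIcc a b, 0 < t + u := by
    intro u hu
    rw [uIcc_of_le hab] at hu
    linarith [hu.1]
  have hcont : ContinuousOn (fun u => c / (t + u)) (uIcc a b) :=
    continuousOn_const.div (continuousOn_const.add continuousOn_id) fun u hu => (hpos u hu).ne'
  have hint : IntervalIntegrable (fun u => c / (t + u)) volume a b := hcont.intervalIntegrable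
  have hder : ∀ u ∈ uIcc a b, HasDerivAt (fun u => c * Real.log (t + u)) (c / (t + u)) u := by
    intro u hu
    have h1 : HasDerivAt (fun u => t + u) 1 u := (hasDerivAt_id u).const_add t
    have h2 := (h1.log (hpos u hu).ne').const_mul c
    rwa [mul_one_div] at h2
  have hI := intervalIntegral.integral_eq_sub_of_hasDerivAt hder hint
  rw [intervalIntegral.integral_of_le hab] at hI
  rw [← ofReal_integral_eq_lintegral_ofReal ((intervalIntegrable_iff_integrableOn_Ioc_of_le hab).1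
    hint), hI, Real.log_div (by linarith) ha.ne', mul_sub]
  refine (ae_restrict_iff' measurableSet_Ioc).2 (Eventually.of_forall fun u hu => ?_)
  exact div_nonneg hc (by linarith [hu.1])

theorem lint_Ioi {t a c : ℝ} (ha : 0 < t + a) (hc : 0 ≤ c) :
    ∫⁻ u in Ioi a, ENNReal.ofReal (c / (t + u) ^ 2) = ENNReal.ofReal (c / (t + a)) := by
  have hder : ∀ u ∈ Ici a, HasDerivAt (fun u => -(c * (t + u)⁻¹)) (c / (t + u) ^ 2) u := by
    intro u hu
    have hu' : 0 < t + u := by linarith [mem_Ici.1 hu]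
    have h1 : HasDerivAt (fun u => t + u) 1 u := (hasDerivAt_id u).const_add t
    have h2 := ((h1.inv hu'.ne').const_mul c).neg
    have h3 : -(c * (-1 / (t + u) ^ 2)) = c / (t + u) ^ 2 := by ring
    rw [h3] at h2
    exact h2
  have hnn : ∀ u ∈ Ioi a, 0 ≤ c / (t + u) ^ 2 := fun u _ => by positivity
  have hlim : Tendsto (fun u => -(c * (t + u)⁻¹)) atTop (𝓝 0) := by
    have h1 : Tendsto (fun u : ℝ => (t + u)⁻¹) atTop (𝓝 0) :=
      tendsto_inv_atTop_zero.comp (tendsto_atTop_add_const_left _ t tendsto_id)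
    simpa using (h1.const_mul c).neg
  have hint := integrableOn_Ioi_deriv_of_nonneg' hder hnn hlim
  have hI := integral_Ioi_of_hasDerivAt_of_nonneg' hder hnn hlim
  rw [← ofReal_integral_eq_lintegral_ofReal hint, hI]
  · congr 1
    ring
  · exact (ae_restrict_iff' measurableSet_Ioi).2 (Eventually.of_forall hnn)

theorem neg_le {n t s₀ s₁ μ : ℝ} (f : ℝ → ℝ≥0∞) (ht : 0 < t) (ht1 : t ≤ 1) (h0 : t ≤ s₀)
    (h01 : s₀ ≤ s₁) (hμ : 0 ≤ μ) (hμn : μ ≤ n)
    (h1 : ∀ u : ℝ, 0 < u → f u ≤ ENNReal.ofReal (n / (t + u)))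
    (h2 : ∀ u : ℝ, 0 < u → s₀ ≤ t + u → t + u ≤ s₁ → f u ≤ ENNReal.ofReal ((n - μ) / (t + u))) :
    ∫⁻ u in Ioi (0 : ℝ), (f u - ENNReal.ofReal (n / (1 + u))) ≤
      ENNReal.ofReal (n * Real.log (s₁ / t) - μ * Real.log (s₁ / s₀) + n / s₁) := by
  have hn : 0 ≤ n := hμ.trans hμn
  have hs0 : 0 < s₀ := by linarith
  have hs1 : 0 < s₁ := by linarith
  have hsub : Ioi (0 : ℝ) ⊆ (Ioc 0 (s₀ - t) ∪ Ioc (s₀ - t) (s₁ - t)) ∪ Ioi (s₁ - t) := by
    intro u hu
    rcases le_or_gt u (s₀ - t) with h | h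
    · exact Or.inl (Or.inl ⟨hu, h⟩)
    · rcases le_or_gt u (s₁ - t) with h' | h'
      · exact Or.inl (Or.inr ⟨h, h'⟩)
      · exact Or.inr h'
  have e1 : ∫⁻ u in Ioc 0 (s₀ - t), (f u - ENNReal.ofReal (n / (1 + u))) ≤
      ENNReal.ofReal (n * Real.log (s₀ / t)) := by
    have h := lint_Ioc (t := t) (a := 0) (b := s₀ - t) (c := n) (by linarith) (by linarith) hn
    rw [add_zero, add_sub_cancel] at h
    rw [← h]
    exact setLIntegral_mono' measurableSet_Ioc fun u hu => tsub_le_self.trans (h1 u hu.1)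
  have e2 : ∫⁻ u in Ioc (s₀ - t) (s₁ - t), (f u - ENNReal.ofReal (n / (1 + u))) ≤
      ENNReal.ofReal ((n - μ) * Real.log (s₁ / s₀)) := by
    have h := lint_Ioc (t := t) (a := s₀ - t) (b := s₁ - t) (c := n - μ) (by linarith)
      (by linarith) (by linarith)
    rw [add_sub_cancel, add_sub_cancel] at h
    rw [← h]
    refine setLIntegral_mono' measurableSet_Ioc fun u hu => tsub_le_self.trans (h2 u ?_ ?_ ?_)
    · linarith [hu.1]
    · linarith [hu.1]
    · linarith [hu.2]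
  have e3 : ∫⁻ u in Ioi (s₁ - t), (f u - ENNReal.ofReal (n / (1 + u))) ≤
      ENNReal.ofReal (n / s₁) := by
    have h := lint_Ioi (t := t) (a := s₁ - t) (c := n) (by linarith) hn
    rw [add_sub_cancel] at h
    rw [← h]
    refine setLIntegral_mono' measurableSet_Ioi fun u hu => ?_
    have hu0 : 0 < u := by linarith [mem_Ioi.1 hu]
    refine (tsub_le_tsub_right (h1 u hu0) _).trans ?_
    rw [← ENNReal.ofReal_sub _ (by positivity)]
    refine ENNReal.ofReal_le_ofReal ?_
    have htu : 0 < t + u := by linarith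
    have h1u : 0 < 1 + u := by linarith
    rw [div_sub_div _ _ htu.ne' h1u.ne', div_le_div_iff₀ (by positivity) (by positivity)]
    have h3 : (1 - t) * (t + u) ≤ 1 * (1 + u) :=
      mul_le_mul (by linarith) (by linarith) htu.le zero_le_one
    have h4 := mul_le_mul_of_nonneg_left h3 (mul_nonneg hn htu.le)
    nlinarith [h4]
  have l0 : 0 ≤ Real.log (s₀ / t) := Real.log_nonneg ((one_le_div ht).2 h0)
  have l1 : 0 ≤ Real.log (s₁ / s₀) := Real.log_nonneg ((one_le_div hs0).2 h01)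
  have hsum : n * Real.log (s₁ / t) - μ * Real.log (s₁ / s₀) + n / s₁ =
      n * Real.log (s₀ / t) + (n - μ) * Real.log (s₁ / s₀) + n / s₁ := by
    rw [Real.log_div hs1.ne' ht.ne', Real.log_div hs0.ne' ht.ne', Real.log_div hs1.ne' hs0.ne']
    ring
  have p1 : 0 ≤ n * Real.log (s₀ / t) := mul_nonneg hn l0
  have p2 : 0 ≤ (n - μ) * Real.log (s₁ / s₀) := mul_nonneg (by linarith) l1
  rw [hsum, ENNReal.ofReal_add (add_nonneg p1 p2) (by positivity), ENNReal.ofReal_add p1 p2]
  refine (lintegral_mono_set hsub).trans ((lintegral_union_le _ _ _).trans ?_)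
  exact add_le_add ((lintegral_union_le _ _ _).trans (add_le_add e1 e2)) e3

theorem final_le {P N : ℝ≥0∞} {b c : ℝ} (hb : 0 ≤ b) (hc : 0 ≤ c) (hN : N ≤ ENNReal.ofReal b) :
    ((-b / 2 : ℝ) : EReal) ≤ ((1 / 2 : ℝ) : EReal) * ((P : EReal) - (N : EReal)) + (c : EReal) := by
  have h1 : ((-b : ℝ) : EReal) ≤ (P : EReal) - (N : EReal) := by
    have h2 : (N : EReal) ≤ (b : EReal) := by
      have h3 := EReal.coe_ennreal_le_coe_ennreal_iff.2 hN
      rwa [EReal.coe_ennreal_ofReal, max_eq_left hb] at h3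
    have h4 : (0 : EReal) - (b : EReal) ≤ (P : EReal) - (N : EReal) :=
      EReal.sub_le_sub (EReal.coe_ennreal_nonneg P) h2
    rwa [zero_sub, ← EReal.coe_neg] at h4
  have h5 : ((1 / 2 : ℝ) : EReal) * ((-b : ℝ) : EReal) ≤
      ((1 / 2 : ℝ) : EReal) * ((P : EReal) - (N : EReal)) :=
    mul_le_mul_of_nonneg_left h1 (EReal.coe_nonneg.2 (by norm_num))
  have h6 : ((-b / 2 : ℝ) : EReal) = ((1 / 2 : ℝ) : EReal) * ((-b : ℝ) : EReal) + 0 := by
    rw [add_zero, ← EReal.coe_mul]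
    congr 1
    ring
  rw [h6]
  exact add_le_add h5 (EReal.coe_nonneg.2 hc)

end Limits

theorem chiBounds : ChiBounds := by
  intro n φ B
  constructor
  · intro h
    refine iSup_le fun R => iSup_le fun hR => ?_
    obtain ⟨m, ε, hε, hk⟩ := h R hR
    refine iInf_le_of_le m (iInf_le_of_le ε (iInf_le_of_le hε ?_))
    refine limsup_le_of_le (by isBoundedDefault) ?_
    filter_upwards [hk, eventually_ge_atTop 1] with k hk h1
    exact (Limits.term_mono n k hk).trans (Limits.term_eq n k h1 B).le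
  · rintro ⟨R, hR, h⟩
    refine le_iSup_of_le R (le_iSup_of_le hR ?_)
    refine le_iInf fun m => le_iInf fun ε => le_iInf fun hε => ?_
    refine le_limsup_of_frequently_le ?_ (by isBoundedDefault)
    refine ((h m ε hε).and_eventually (eventually_ge_atTop 1)).mono fun k hk => ?_
    exact (Limits.term_eq n k hk.2 B).ge.trans (Limits.term_mono n k hk.1)

theorem starBound : StarBound := by
  intro H _ _ n Ω X S t s₀ s₁ μ ht ht1 h0 h01 hμ hμn h1 h2
  have hN := Limits.neg_le (fisherAt Ω X S) ht ht1 h0 h01 hμ hμn h1 h2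
  have hs0 : 0 < s₀ := by linarith
  have hs1 : 0 < s₁ := by linarith
  have l0 : 0 ≤ Real.log (s₀ / t) := Real.log_nonneg ((one_le_div ht).2 h0)
  have l1 : 0 ≤ Real.log (s₁ / s₀) := Real.log_nonneg ((one_le_div hs0).2 h01)
  have hb : 0 ≤ n * Real.log (s₁ / t) - μ * Real.log (s₁ / s₀) + n / s₁ := by
    have e : Real.log (s₁ / t) = Real.log (s₀ / t) + Real.log (s₁ / s₀) := by
      rw [Real.log_div hs1.ne' ht.ne', Real.log_div hs0.ne' ht.ne', Real.log_div hs1.ne' hs0.ne']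
      ring
    rw [e]
    have p1 : 0 ≤ n * Real.log (s₀ / t) := by positivity
    have p2 : 0 ≤ (n - μ) * Real.log (s₁ / s₀) := mul_nonneg (by linarith) l1
    have p3 : 0 ≤ n / s₁ := by positivity
    linarith
  have hc : 0 ≤ (n : ℝ) / 2 * Real.log (2 * Real.pi * Real.exp 1) := by
    refine mul_nonneg (by positivity) (Real.log_nonneg ?_)
    have h3 := Real.pi_gt_three
    have h4 := Real.add_one_le_exp 1
    nlinarith
  exact Limits.final_le hb hc hN

end Vale.Agent.P087
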