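import Vale.Agent.P087.Fock3

/-! The non-microstates free entropy is not `+∞` (free Cramer-Rao bound). -/

set_option linter.unusedSectionVars false

namespace Vale.Agent.P087

open scoped InnerProductSpace ENNReal
open MeasureTheory

variable {H : Type} [NormedAddCommGroup H] [InnerProductSpace ℂ H] [CompleteSpace H] {n : ℕ}

theorem le_fisher {Ω : H} (hΩ : ‖Ω‖ = 1) (Z : Fin n → Bdd H) (hZ : ∀ i, star (Z i) = Z i) (b : ℝ)
    (hb0 : 0 < b) (hb : ∀ j, ‖Z j Ω‖ ^ 2 ≤ b) : ENNReal.ofReal (n / b) ≤ fisher Ω Z := by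
  refine le_iInf₂ fun ξ hξ => ?_
  rw [← ENNReal.ofReal_sum_of_nonneg fun j _ => by positivity]
  refine ENNReal.ofReal_le_ofReal (le_trans (le_of_eq (b := ∑ _j : Fin n, 1 / b)
    (by simp [div_eq_mul_inv])) (Finset.sum_le_sum fun j _ => ?_))
  have h := (hξ j).2 [j]
  have h1 : dq (law Ω Z) j [j] = 1 := by simp [dq, law, word, tau_one hΩ]
  have h2 : word Z [j] = star (Z j) := by simp [word, hZ]
  rw [h1, h2, ContinuousLinearMap.star_eq_adjoint, ContinuousLinearMap.adjoint_inner_right] at h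
  have h3 := norm_inner_le_norm (𝕜 := ℂ) (Z j Ω) (ξ j)
  rw [h, norm_one] at h3
  have h4 := pow_le_pow_left₀ zero_le_one h3 2
  rw [div_le_iff₀ hb0]
  nlinarith [mul_le_mul_of_nonneg_right (hb j) (sq_nonneg ‖ξ j‖)]

theorem chiStar_lt_top {Ω : H} (X S : Fin n → Bdd H) (C : ℝ) (hC : 1 ≤ C)
    (h : ∀ u : ℝ, 0 < u → ENNReal.ofReal (n / (C + u)) ≤ fisherAt Ω X S u) :
    chiStar Ω X S < ⊤ := by
  have hint : IntegrableOn (fun u : ℝ => n * C * (u + 1) ^ (-2 : ℝ)) (Set.Ioi 0) :=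
    (integrableOn_add_rpow_Ioi_of_lt (by norm_num) (by norm_num)).const_mul _
  have h1 : ∫⁻ t in Set.Ioi (0 : ℝ), (ENNReal.ofReal (n / (1 + t)) - fisherAt Ω X S t) < ⊤ := by
    refine lt_of_le_of_lt (setLIntegral_mono' measurableSet_Ioi fun u hu => ?_)
      hint.lintegral_lt_top
    have hu' : 0 < u := hu
    refine (tsub_le_tsub_left (h u hu') _).trans ?_
    rw [← ENNReal.ofReal_sub _ (by positivity)]
    refine ENNReal.ofReal_le_ofReal ?_
    rw [Real.rpow_neg (by positivity), Real.rpow_two, div_sub_div _ _ (by positivity)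
      (by positivity), ← div_eq_mul_inv, div_le_div_iff₀ (by positivity) (by positivity)]
    have hn : (0 : ℝ) ≤ n := by positivity
    have : (C - 1) * (u + 1) ≤ C * (C + u) := by nlinarith
    nlinarith [mul_le_mul_of_nonneg_left this (mul_nonneg hn (by linarith : 0 ≤ u + 1))]
  unfold chiStar
  generalize (∫⁻ t in Set.Ioi (0 : ℝ), (ENNReal.ofReal (n / (1 + t)) - fisherAt Ω X S t)) = p at h1
  generalize (∫⁻ t in Set.Ioi (0 : ℝ), (fisherAt Ω X S t - ENNReal.ofReal (n / (1 + t)))) = q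
  refine EReal.add_lt_top (ne_of_lt ?_) (EReal.coe_ne_top _)
  have h2 : (p : EReal) - (q : EReal) ≤ ((p.toReal : ℝ) : EReal) := by
    rw [EReal.coe_ennreal_toReal h1.ne]
    simpa using EReal.sub_le_sub (le_refl (p : EReal)) (EReal.coe_ennreal_nonneg q)
  refine lt_of_le_of_lt (mul_le_mul_of_nonneg_left h2 (by positivity)) ?_
  rw [← EReal.coe_mul]
  exact EReal.coe_lt_top _

end Vale.Agent.P087
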