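import Vale.Agent.P087.Iface

/-! Volume of tube sets and measurability of microstate spaces. -/

namespace Vale.Agent.P087.Tube

open MeasureTheory

section
variable {E : Type*} [NormedAddCommGroup E] [InnerProductSpace ℝ E] [FiniteDimensional ℝ E]
  [MeasurableSpace E] [BorelSpace E]

theorem vol_ball (ρ : ℝ) {a : ℝ} (ha : 0 < a) :
    volume {x : E | ‖x‖ ^ 2 ≤ ρ} ≤ ENNReal.ofReal (Real.exp (a * ρ +
      (Module.finrank ℝ E : ℝ) / 2 * Real.log (Real.pi / a))) := by
  have hp : 0 < Real.pi / a := div_pos Real.pi_pos ha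
  have h1 := GaussianFourier.integral_rexp_neg_mul_sq_norm (V := E) ha
  have h2 : Integrable fun v : E => Real.exp (-a * ‖v‖ ^ 2) :=
    Integrable.of_integral_ne_zero (by rw [h1]; exact (Real.rpow_pos_of_pos hp _).ne')
  rw [Real.exp_add, mul_comm ((Module.finrank ℝ E : ℝ) / 2), ← Real.rpow_def_of_pos hp, ← h1,
    ← integral_const_mul, ofReal_integral_eq_lintegral_ofReal (h2.const_mul _)
      (Filter.Eventually.of_forall fun v => by positivity), ← setLIntegral_one]
  refine le_trans (setLIntegral_mono (by fun_prop) fun x hx => ?_) (setLIntegral_le_lintegral _ _)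
  rw [← Real.exp_add, ENNReal.one_le_ofReal]
  refine Real.one_le_exp ?_
  have h3 : ‖x‖ ^ 2 ≤ ρ := hx
  nlinarith

theorem vol_tube (V : Submodule ℝ E) (ρ η : ℝ) {a b : ℝ} {d : ℕ} (ha : 0 < a) (hab : a ≤ b)
    (hd : Module.finrank ℝ V ≤ d) :
    volume {x : E | ‖x‖ ^ 2 ≤ ρ ∧ ∃ v ∈ V, ‖x - v‖ ^ 2 ≤ η} ≤ ENNReal.ofReal (Real.exp
      (a * ρ + b * η + (Module.finrank ℝ E : ℝ) / 2 * Real.log (Real.pi / b) +
        (d : ℝ) / 2 * Real.log (b / a))) := by
  have hb : 0 < b := ha.trans_le hab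
  have h1 := (WithLp.volume_preserving_ofLp V Vᗮ).comp V.orthogonalDecomposition.measurePreserving
  have h2 := h1.measure_preimage_le ({x : V | ‖x‖ ^ 2 ≤ ρ} ×ˢ {x : Vᗮ | ‖x‖ ^ 2 ≤ η})
  refine (measure_mono ?_).trans (h2.trans ?_)
  · rintro x ⟨hx, v, hv, hxv⟩
    simp only [Set.mem_preimage, Function.comp_apply, Submodule.orthogonalDecomposition_apply,
      Set.mem_prod, Set.mem_ofPred_eq]
    refine ⟨le_trans (pow_le_pow_left₀ (norm_nonneg _)
      (V.norm_orthogonalProjectionOnto_apply_le x) 2) hx, le_trans ?_ hxv⟩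
    have h3 : Vᗮ.orthogonalProjectionOnto x = Vᗮ.orthogonalProjectionOnto (x - v) := by
      rw [map_sub, Submodule.orthogonalProjectionOnto_orthogonal_apply_eq_zero hv, sub_zero]
    rw [h3]
    exact pow_le_pow_left₀ (norm_nonneg _) (Vᗮ.norm_orthogonalProjectionOnto_apply_le _) 2
  · rw [Measure.volume_eq_prod, Measure.prod_prod]
    refine (mul_le_mul' (vol_ball ρ ha) (vol_ball η hb)).trans ?_
    rw [← ENNReal.ofReal_mul (Real.exp_pos _).le, ← Real.exp_add]
    refine ENNReal.ofReal_le_ofReal (Real.exp_le_exp.2 ?_)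
    have h4 : (Module.finrank ℝ E : ℝ) = Module.finrank ℝ V + Module.finrank ℝ Vᗮ := by
      exact_mod_cast V.finrank_add_finrank_orthogonal.symm
    have h5 : (Module.finrank ℝ V : ℝ) ≤ d := by exact_mod_cast hd
    have h6 : 0 ≤ Real.log (b / a) := Real.log_nonneg ((one_le_div ha).2 hab)
    have h7 : Real.log (Real.pi / a) = Real.log (Real.pi / b) + Real.log (b / a) := by
      rw [← Real.log_mul (div_pos Real.pi_pos hb).ne' (div_pos hb ha).ne']
      congr 1
      field_simp
    rw [h4, h7]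
    nlinarith
end

theorem vol_ball_pi (κ : Type) [Fintype κ] (ρ : ℝ) {a : ℝ} (ha : 0 < a) :
    volume {x : κ → ℝ | ∑ i, x i ^ 2 ≤ ρ} ≤ ENNReal.ofReal (Real.exp (a * ρ +
      (Fintype.card κ : ℝ) / 2 * Real.log (Real.pi / a))) := by
  have h1 := ((PiLp.volume_preserving_toLp κ).measure_preimage_le _).trans
    (vol_ball (E := EuclideanSpace ℝ κ) ρ ha)
  rw [finrank_euclideanSpace] at h1
  refine (measure_mono fun x hx => ?_).trans h1
  simp only [Set.mem_preimage, Set.mem_ofPred_eq, EuclideanSpace.real_norm_sq_eq]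
  exact hx

theorem vol_tube_pi (κ : Type) [Fintype κ] (V : Submodule ℝ (κ → ℝ)) (ρ η : ℝ) {a b : ℝ} {d : ℕ}
    (ha : 0 < a) (hab : a ≤ b) (hd : Module.finrank ℝ V ≤ d) :
    volume {x : κ → ℝ | ∑ i, x i ^ 2 ≤ ρ ∧ ∃ v ∈ V, ∑ i, (x i - v i) ^ 2 ≤ η} ≤
      ENNReal.ofReal (Real.exp (a * ρ + b * η + (Fintype.card κ : ℝ) / 2 * Real.log (Real.pi / b) +
        (d : ℝ) / 2 * Real.log (b / a))) := by
  have h1 := ((PiLp.volume_preserving_toLp κ).measure_preimage_le _).trans
    (vol_tube (E := EuclideanSpace ℝ κ) (V.map (WithLp.linearEquiv 2 ℝ (κ → ℝ)).symm.toLinearMap)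
      ρ η ha hab ((Submodule.finrank_map_le _ _).trans hd))
  rw [finrank_euclideanSpace] at h1
  refine (measure_mono ?_).trans h1
  rintro x ⟨hx, v, hv, hxv⟩
  simp only [Set.mem_preimage, Set.mem_ofPred_eq, EuclideanSpace.real_norm_sq_eq]
  exact ⟨hx, _, ⟨v, hv, rfl⟩, hxv⟩

theorem continuous_word {X ι : Type} [TopologicalSpace X] {k : ℕ}
    {A : X → ι → Matrix (Fin k) (Fin k) ℂ} (hA : ∀ j, Continuous fun x => A x j) (w : List ι) :
    Continuous fun x => word (A x) w := by
  induction w with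
  | nil => exact continuous_const
  | cons j w ih => exact (hA j).matrix_mul ih

theorem continuous_tuple {n k : ℕ} (j : Fin n) :
    Continuous fun x : Fin n × Fin k × Fin k → ℝ => tuple x j := by
  refine continuous_matrix fun a b => ?_
  simp only [tuple, herm, Matrix.of_apply]
  fun_prop

end Vale.Agent.P087.Tube

namespace Vale.Agent.P087

open MeasureTheory Tube

theorem tubeVol : TubeVol := by
  intro ι _ _ p _ Γ hΓ ρ η a b d ha hab h1 h2
  have hb : 0 < b := ha.trans_le hab
  let e := MeasurableEquiv.piEquivPiSubtypeProd (fun _ : ι => ℝ) p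
  have he : MeasurePreserving e.symm := (volume_preserving_piEquivPiSubtypeProd _ p).symm
  have hsum : ∀ x : ι → ℝ, ∑ i : {i // p i}, x i ^ 2 + ∑ i : {i // ¬ p i}, x i ^ 2 =
      ∑ i, x i ^ 2 := fun x => Fintype.sum_subtype_add_sum_subtype p fun i => x i ^ 2
  have hS : MeasurableSet {y : {i // p i} → ℝ | ∑ i, y i ^ 2 ≤ ρ} :=
    measurableSet_le (by fun_prop) measurable_const
  have h3 : ∀ y : {i // p i} → ℝ, volume (Prod.mk y ⁻¹' (e.symm ⁻¹' Γ)) ≤
      Set.indicator {y : {i // p i} → ℝ | ∑ i, y i ^ 2 ≤ ρ} (fun _ => ENNReal.ofReal (Real.exp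
        (a * ρ + b * η + (Fintype.card {i // ¬ p i} : ℝ) / 2 * Real.log (Real.pi / b) +
          (d : ℝ) / 2 * Real.log (b / a)))) y := fun y => by
    have hy : ∀ (z : {i // ¬ p i} → ℝ) (i : {i // p i}), e.symm (y, z) i = y i := fun z i =>
      congrFun (congrArg Prod.fst (e.apply_symm_apply (y, z))) i
    have hz : ∀ (z : {i // ¬ p i} → ℝ) (i : {i // ¬ p i}), e.symm (y, z) i = z i := fun z i =>
      congrFun (congrArg Prod.snd (e.apply_symm_apply (y, z))) i
    have h4 : ∀ z, e.symm (y, z) ∈ Γ → ∑ i, y i ^ 2 + ∑ i, z i ^ 2 ≤ ρ := fun z h => by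
      have h5 := h1 _ h
      rw [← hsum] at h5
      simpa only [hy, hz] using h5
    by_cases hyS : y ∈ {y : {i // p i} → ℝ | ∑ i, y i ^ 2 ≤ ρ}
    · rw [Set.indicator_of_mem hyS]
      obtain ⟨V, hV, hV'⟩ := h2 (e.symm (y, 0))
      refine (measure_mono fun z hzΓ => ?_).trans (vol_tube_pi {i // ¬ p i}
        (V.map (LinearMap.funLeft ℝ ℝ (Subtype.val : {i // ¬ p i} → ι))) ρ η ha hab
        ((Submodule.finrank_map_le _ _).trans hV))
      obtain ⟨v, hv, hv'⟩ := hV' _ hzΓ fun i hi => (hy z ⟨i, hi⟩).trans (hy 0 ⟨i, hi⟩).symm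
      refine ⟨le_trans (le_add_of_nonneg_left (by positivity)) (h4 z hzΓ), _, ⟨v, hv, rfl⟩, ?_⟩
      rw [Finset.sum_subtype (p := fun i => ¬ p i) _ (by simp)] at hv'
      simpa only [hz, LinearMap.funLeft_apply] using hv'
    · rw [Set.indicator_of_notMem hyS]
      refine le_of_eq (measure_mono_null (fun z hzΓ => ?_) measure_empty)
      exact hyS (le_trans (le_add_of_nonneg_right (by positivity)) (h4 z hzΓ))
  rw [← he.measure_preimage hΓ.nullMeasurableSet, Measure.volume_eq_prod,
    Measure.prod_apply (e.symm.measurable hΓ)]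
  refine (lintegral_mono h3).trans ?_
  rw [lintegral_indicator_const hS]
  refine (mul_le_mul' le_rfl (vol_ball_pi {i // p i} ρ ha)).trans ?_
  rw [← ENNReal.ofReal_mul (Real.exp_pos _).le, ← Real.exp_add]
  refine ENNReal.ofReal_le_ofReal (Real.exp_le_exp.2 (le_of_eq ?_))
  have h4 : (Fintype.card ι : ℝ) = Fintype.card {i // p i} + Fintype.card {i // ¬ p i} := by
    rw [Fintype.card_subtype_compl, Nat.cast_sub (Fintype.card_subtype_le p)]
    ring
  have h7 : Real.log (Real.pi / a) = Real.log (Real.pi / b) + Real.log (b / a) := by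
    rw [← Real.log_mul (div_pos Real.pi_pos hb).ne' (div_pos hb ha).ne']
    congr 1
    field_simp
  rw [h4, h7, ← Fintype.card_subtype]
  ring

theorem microMeas : MicroMeas := by
  intro n φ R m k ε
  simp only [microstates, OpLe, Set.ofPred_and, Set.ofPred_forall]
  refine MeasurableSet.inter (IsClosed.measurableSet ?_) ?_
  · refine isClosed_iInter fun j => isClosed_iInter fun v => isClosed_le ?_ continuous_const
    refine continuous_finsetSum _ fun i _ => Continuous.pow (Continuous.norm ?_) 2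
    exact (continuous_apply i).comp ((continuous_tuple j).matrix_mulVec continuous_const)
  · refine MeasurableSet.iInter fun w => MeasurableSet.iInter fun _ =>
      MeasurableSet.iInter fun _ => IsOpen.measurableSet (isOpen_lt ?_ continuous_const)
    exact (((continuous_word continuous_tuple w).matrix_trace.div_const _).sub
      continuous_const).norm

end Vale.Agent.P087
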