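import Vale.Agent.P087.Fock3

/-! Iterated conjugation, its derivative, and the near-projection estimate. -/

set_option linter.unusedSectionVars false

namespace Vale.Agent.P087

open scoped InnerProductSpace

section Alg

variable {A : Type} [Ring A] [StarRing A]

/-- `u ^ e C (u*) ^ e`. -/
def ev (u C : A) : ℕ → A
  | 0 => C
  | e + 1 => u * ev u C e * star u

/-- The derivative of `ev` in `u` in the direction `Δ`. -/
def dv (u C Δ : A) : ℕ → A
  | 0 => 0
  | e + 1 => Δ * ev u C e * star u + u * dv u C Δ e * star u + u * ev u C e * star Δ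

theorem ev_eq (u C : A) (e : ℕ) : ev u C e = u ^ e * C * star (u ^ e) := by
  induction e with
  | zero => simp [ev]
  | succ e ih => rw [ev, ih, pow_succ', star_mul]; noncomm_ring

theorem dv_add (u C Δ Δ' : A) (e : ℕ) : dv u C (Δ + Δ') e = dv u C Δ e + dv u C Δ' e := by
  induction e with
  | zero => simp [dv]
  | succ e ih => simp only [dv, ih, star_add]; noncomm_ring

theorem dv_smul [Algebra ℝ A] [StarModule ℝ A] (u C Δ : A) (r : ℝ) (e : ℕ) :
    dv u C (r • Δ) e = r • dv u C Δ e := by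
  induction e with
  | zero => simp [dv]
  | succ e ih => simp [dv, ih, star_smul]

theorem map_ev {B G : Type} [Ring B] [StarRing B] [FunLike G A B] [RingHomClass G A B]
    [StarHomClass G A B] (f : G) (u C : A) (e : ℕ) : f (ev u C e) = ev (f u) (f C) e := by
  induction e with
  | zero => rfl
  | succ e ih => simp only [ev, map_mul, map_star, ih]

theorem map_dv {B G : Type} [Ring B] [StarRing B] [FunLike G A B] [RingHomClass G A B]
    [StarHomClass G A B] (f : G) (u C Δ : A) (e : ℕ) :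
    f (dv u C Δ e) = dv (f u) (f C) (f Δ) e := by
  induction e with
  | zero => exact map_zero f
  | succ e ih => simp only [dv, map_add, map_mul, map_star, ih, map_ev]

theorem ev_mem {S : Type} [SetLike S A] [SubringClass S A] [StarMemClass S A] {M : S} {u C : A}
    (hu : u ∈ M) (hC : C ∈ M) (e : ℕ) : ev u C e ∈ M := by
  induction e with
  | zero => exact hC
  | succ e ih => exact mul_mem (mul_mem hu ih) (star_mem hu)

theorem dv_mem {S : Type} [SetLike S A] [SubringClass S A] [StarMemClass S A] {M : S}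
    {u C Δ : A} (hu : u ∈ M) (hC : C ∈ M) (hΔ : Δ ∈ M) (e : ℕ) : dv u C Δ e ∈ M := by
  induction e with
  | zero => exact zero_mem M
  | succ e ih =>
    exact add_mem (add_mem (mul_mem (mul_mem hΔ (ev_mem hu hC e)) (star_mem hu))
      (mul_mem (mul_mem hu ih) (star_mem hu))) (mul_mem (mul_mem hu (ev_mem hu hC e)) (star_mem hΔ))

end Alg

theorem norm_mul3_le {A : Type} [NormedRing A] {x y z : A} {a b c : ℝ} (hx : ‖x‖ ≤ a)
    (hy : ‖y‖ ≤ b) (hz : ‖z‖ ≤ c) : ‖x * y * z‖ ≤ a * b * c := by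
  have ha := (norm_nonneg _).trans hx
  have hb := (norm_nonneg _).trans hy
  refine (norm_mul_le _ _).trans (mul_le_mul ((norm_mul_le _ _).trans ?_) hz (norm_nonneg _)
    (mul_nonneg ha hb))
  exact mul_le_mul hx hy (norm_nonneg _) ha

theorem norm_four_le {A : Type} [NormedRing A] {x y z w : A} {a b c d : ℝ} (hx : ‖x‖ ≤ a)
    (hy : ‖y‖ ≤ b) (hz : ‖z‖ ≤ c) (hw : ‖w‖ ≤ d) : ‖x - y - z + w‖ ≤ a + b + c + d :=
  (norm_add_le _ _).trans (add_le_add ((norm_sub_le _ _).trans (add_le_add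
    ((norm_sub_le _ _).trans (add_le_add hx hy)) hz)) hw)

theorem taylor (e : ℕ) : ∃ c : ℝ, 0 ≤ c ∧ ∀ (A : Type) [NormedRing A] [StarRing A]
    [NormedStarGroup A] (u a Δ C : A), u = a + Δ → ‖a‖ ≤ 1 → ‖Δ‖ ≤ 2 → ‖C‖ ≤ 4 →
      ‖ev a C e‖ ≤ 4 ∧ ‖ev a C e - ev u C e‖ ≤ c * ‖Δ‖ ∧
        ‖ev a C e - ev u C e + dv u C Δ e‖ ≤ c * ‖Δ‖ ^ 2 := by
  induction e with
  | zero => exact ⟨0, le_rfl, fun A _ _ _ u a Δ C _ _ _ hC => by simpa [ev, dv] using hC⟩
  | succ e ih =>
    obtain ⟨c, hc, ih⟩ := ih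
    refine ⟨15 * c + 32, by positivity, fun A _ _ _ u a Δ C hu ha hΔ hC => ?_⟩
    obtain ⟨h1, h2, h3⟩ := ih A u a Δ C hu ha hΔ hC
    have hu3 : ‖u‖ ≤ 3 := by
      rw [hu]
      exact (norm_add_le _ _).trans (by linarith)
    have hus : ‖star u‖ ≤ 3 := by rwa [norm_star]
    have hΔs : ‖star Δ‖ ≤ ‖Δ‖ := (norm_star _).le
    have hd := norm_nonneg Δ
    have ha' : a = u - Δ := by rw [hu]; abel
    refine ⟨?_, ?_, ?_⟩
    · have := norm_mul3_le ha h1 ((norm_star a).le.trans ha)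
      rw [ev]
      linarith
    · have e1 : ev a C (e + 1) - ev u C (e + 1) = u * (ev a C e - ev u C e) * star u -
          Δ * ev a C e * star u - u * ev a C e * star Δ + Δ * ev a C e * star Δ := by
        rw [ev, ev]
        generalize ev a C e = E'
        rw [ha', star_sub]
        noncomm_ring
      rw [e1]
      refine (norm_four_le (norm_mul3_le hu3 h2 hus) (norm_mul3_le le_rfl h1 hus)
        (norm_mul3_le hu3 h1 hΔs) (norm_mul3_le hΔ h1 hΔs)).trans ?_
      nlinarith [mul_nonneg hc hd]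
    · have e1 : ev a C (e + 1) - ev u C (e + 1) + dv u C Δ (e + 1) =
          u * (ev a C e - ev u C e + dv u C Δ e) * star u -
          Δ * (ev a C e - ev u C e) * star u - u * (ev a C e - ev u C e) * star Δ +
          Δ * ev a C e * star Δ := by
        rw [ev, ev, dv]
        generalize ev a C e = E'
        rw [ha', star_sub]
        noncomm_ring
      rw [e1]
      refine (norm_four_le (norm_mul3_le hu3 h3 hus) (norm_mul3_le le_rfl h2 hus)
        (norm_mul3_le hu3 h2 hΔs) (norm_mul3_le le_rfl h1 hΔs)).trans ?_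
      nlinarith [mul_nonneg hc (sq_nonneg ‖Δ‖), sq_nonneg ‖Δ‖]

section Near

variable {H : Type} [NormedAddCommGroup H] [InnerProductSpace ℂ H] [CompleteSpace H]
  {M : VonNeumannAlgebra H} {Ω : H}

theorem IsTracial.norm_mul3 (h : IsTracial M Ω) {x p y : Bdd H} (hx : x ∈ M) (hp : p ∈ M)
    (hy : y ∈ M) : ‖(x * p * y) Ω‖ ≤ ‖x‖ * ‖y‖ * ‖p Ω‖ := by
  refine (h.norm_mul_le (mul_mem hx hp) hy).trans ?_
  rw [mul_right_comm]
  exact mul_le_mul_of_nonneg_right (x.le_opNorm _) (norm_nonneg _)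

theorem near_dv (h : IsTracial M Ω) (B : StarSubalgebra ℂ (Bdd H)) (hB : ∀ p ∈ B, p ∈ M)
    {u C : Bdd H} (hu : u ∈ B) (hC : C ∈ B) (e : ℕ) : ∃ c : ℝ, 0 ≤ c ∧ ∀ η : ℝ, 0 ≤ η →
      ∀ r ∈ M, (∀ p ∈ B, ‖tau Ω (star p * r)‖ ≤ η * ‖p Ω‖) →
        ∀ p ∈ B, ‖tau Ω (star p * dv u C r e)‖ ≤ c * η * ‖p Ω‖ := by
  induction e with
  | zero => exact ⟨0, le_rfl, fun η _ r _ _ p _ => by simp [dv, tau_zero]⟩
  | succ e ih =>
    obtain ⟨c, hc, ih⟩ := ih
    have hE : ev u C e ∈ B := ev_mem hu hC e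
    set E := ev u C e with hEdef
    refine ⟨2 * ‖u * star E‖ + 2 * ‖u * E‖ + c * (‖u‖ * ‖u‖), by positivity,
      fun η hη r hr h0 p hp => ?_⟩
    have hpM := hB p hp
    have huM := hB u hu
    have hEM := hB E hE
    have hD : dv u C r e ∈ M := dv_mem huM (hB C hC) hr e
    have h1 : ‖tau Ω (star p * (r * E * star u))‖ ≤ η * (‖p Ω‖ * ‖u * star E‖) := by
      have e1 : tau Ω (star p * (r * E * star u)) = tau Ω (star (p * (u * star E)) * r) := by
        rw [show star p * (r * E * star u) = (star p * r) * (E * star u) by noncomm_ring,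
          h.2.1 _ (mul_mem (star_mem hpM) hr) _ (mul_mem hEM (star_mem huM))]
        simp only [star_mul, star_star, mul_assoc]
      rw [e1]
      refine (h0 _ (mul_mem hp (mul_mem hu (star_mem hE)))).trans ?_
      exact mul_le_mul_of_nonneg_left (h.norm_mul_le hpM (mul_mem huM (star_mem hEM))) hη
    have h2 : ‖tau Ω (star p * (u * dv u C r e * star u))‖ ≤ c * η * (‖u‖ * ‖u‖ * ‖p Ω‖) := by
      have e1 : tau Ω (star p * (u * dv u C r e * star u)) =
          tau Ω (star (star u * p * u) * dv u C r e) := by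
        rw [← mul_assoc, h.2.1 _ (mul_mem (star_mem hpM) (mul_mem huM hD)) _ (star_mem huM)]
        simp only [star_mul, star_star, mul_assoc]
      rw [e1]
      refine (ih η hη r hr h0 _ (mul_mem (mul_mem (star_mem hu) hp) hu)).trans ?_
      refine mul_le_mul_of_nonneg_left ?_ (mul_nonneg hc hη)
      have := h.norm_mul3 (star_mem huM) hpM huM
      rwa [norm_star] at this
    have h3 : ‖tau Ω (star p * (u * E * star r))‖ ≤ η * (‖p Ω‖ * ‖u * E‖) := by
      have e1 : tau Ω (star p * (u * E * star r)) =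
          (starRingEnd ℂ) (tau Ω (star (star p * (u * E)) * r)) := by
        rw [← tau_star, star_mul, star_star,
          h.2.1 _ (star_mem hr) _ (mul_mem (star_mem hpM) (mul_mem huM hEM))]
        simp only [mul_assoc]
      rw [e1, Complex.norm_conj]
      refine (h0 _ (mul_mem (star_mem hp) (mul_mem hu hE))).trans ?_
      refine mul_le_mul_of_nonneg_left ?_ hη
      rw [← h.norm_star hpM]
      exact h.norm_mul_le (star_mem hpM) (mul_mem huM hEM)
    rw [dv, mul_add, mul_add, tau_add, tau_add]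
    refine (norm_add₃_le.trans (add_le_add (add_le_add h1 h2) h3)).trans ?_
    have := mul_nonneg (mul_nonneg hη (norm_nonneg (p Ω))) (norm_nonneg (u * star E))
    have := mul_nonneg (mul_nonneg hη (norm_nonneg (p Ω))) (norm_nonneg (u * E))
    nlinarith

theorem exists_near (B : StarSubalgebra ℂ (Bdd H)) (v : H) (η : ℝ) (hη : 0 < η) :
    ∃ Δ ∈ B, ∀ p ∈ B, ‖⟪p Ω, Δ Ω - v⟫_ℂ‖ ≤ η * ‖p Ω‖ := by
  let K₀ : Submodule ℂ H := B.toSubalgebra.toSubmodule.map
    (ContinuousLinearMap.apply ℂ H Ω : Bdd H →ₗ[ℂ] H)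
  let K := K₀.topologicalClosure
  have : CompleteSpace K := (Submodule.isClosed_topologicalClosure _).completeSpace_coe
  have h1 : K.starProjection v ∈ closure (K₀ : Set H) := K.starProjection_apply_mem v
  obtain ⟨_, ⟨Δ, hΔ, rfl⟩, h2⟩ := Metric.mem_closure_iff.1 h1 η hη
  refine ⟨Δ, hΔ, fun p hp => ?_⟩
  have hpK : p Ω ∈ K := Submodule.le_topologicalClosure _ ⟨p, hp, rfl⟩
  have h3 : ⟪p Ω, v - K.starProjection v⟫_ℂ = 0 :=
    inner_eq_zero_symm.1 (K.starProjection_inner_eq_zero v _ hpK)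
  have e : Δ Ω - v = (Δ Ω - K.starProjection v) - (v - K.starProjection v) := by abel
  rw [e, inner_sub_right, h3, sub_zero, mul_comm]
  refine (norm_inner_le_norm _ _).trans (mul_le_mul_of_nonneg_left ?_ (norm_nonneg _))
  rw [dist_comm, dist_eq_norm] at h2
  exact h2.le

theorem exists_near_sol {ι : Type} [Fintype ι] (h : IsTracial M Ω)
    (B : StarSubalgebra ℂ (Bdd H)) (hB : ∀ p ∈ B, p ∈ M) {u C Δ₀ : Bdd H} (hu : u ∈ B)
    (hC : C ∈ B) (hΔ₀ : Δ₀ ∈ M) (e : ι → ℕ) (δ : ℝ) (hδ : 0 < δ) :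
    ∃ Δ ∈ B, ∀ j, ∀ y ∈ B, ‖(y + dv u C Δ (e j)) Ω‖ ≤ ‖y + dv u C Δ₀ (e j)‖ + δ := by
  choose c hc hc' using fun j => near_dv h B hB hu hC (e j)
  have hpos : 0 < ∑ j, c j + 1 := by
    have := Finset.sum_nonneg fun j (_ : j ∈ Finset.univ) => hc j
    linarith
  obtain ⟨Δ, hΔ, h1⟩ := exists_near (Ω := Ω) B (Δ₀ Ω) (δ / (∑ j, c j + 1)) (by positivity)
  refine ⟨Δ, hΔ, fun j y hy => ?_⟩
  have hw : y + dv u C Δ (e j) ∈ B := add_mem hy (dv_mem hu hC hΔ _)
  set w := y + dv u C Δ (e j) with hwdef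
  have h2 := hc' j (δ / (∑ j, c j + 1)) (by positivity) (Δ - Δ₀) (sub_mem (hB _ hΔ) hΔ₀)
    (fun p hp => by rw [tau_star_mul]; exact h1 p hp) w hw
  have h3 : c j * (δ / (∑ j, c j + 1)) ≤ δ := by
    rw [← mul_div_assoc, div_le_iff₀ hpos]
    have := Finset.single_le_sum (fun j (_ : j ∈ Finset.univ) => hc j) (Finset.mem_univ j)
    nlinarith
  have e1 : w = (y + dv u C Δ₀ (e j)) + dv u C (Δ - Δ₀) (e j) := by
    rw [add_assoc, ← dv_add, add_sub_cancel]
  have h4 : ‖w Ω‖ ^ 2 ≤ ‖w Ω‖ * ‖y + dv u C Δ₀ (e j)‖ + δ * ‖w Ω‖ := by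
    have e2 : ⟪w Ω, w Ω⟫_ℂ = ⟪w Ω, (y + dv u C Δ₀ (e j)) Ω⟫_ℂ +
        tau Ω (star w * dv u C (Δ - Δ₀) (e j)) := by
      rw [tau_star_mul, ← inner_add_right, ← add_apply, ← e1]
    have h5 := congrArg norm e2
    rw [inner_self_eq_norm_sq_to_K] at h5
    simp only [norm_pow, Complex.coe_algebraMap, Complex.norm_real, norm_norm] at h5
    rw [h5]
    refine (norm_add_le _ _).trans (add_le_add ((norm_inner_le_norm _ _).trans ?_)
      (h2.trans (mul_le_mul_of_nonneg_right h3 (norm_nonneg _))))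
    refine mul_le_mul_of_nonneg_left ?_ (norm_nonneg _)
    simpa [h.1] using (y + dv u C Δ₀ (e j)).le_opNorm Ω
  by_contra hcon
  push Not at hcon
  nlinarith [norm_nonneg (y + dv u C Δ₀ (e j))]

end Near

end Vale.Agent.P087
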