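import Vale.Agent.P087.Upper1

/-! Transfer of polynomial estimates to microstates. -/

set_option linter.unusedSectionVars false

namespace Vale.Agent.P087

open scoped InnerProductSpace

/-- The span of words in self-adjoint elements. -/
def wordAlg {A ι : Type} [Ring A] [StarRing A] [Algebra ℂ A] [StarModule ℂ A] (g : ι → A)
    (hg : ∀ i, star (g i) = g i) : StarSubalgebra ℂ A where
  carrier := Submodule.span ℂ (Set.range (word g))
  mul_mem' := by
    intro a b ha hb
    have h := Submodule.mul_mem_mul ha hb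
    rw [Submodule.span_mul_span] at h
    refine Submodule.span_mono ?_ h
    rintro _ ⟨_, ⟨u, rfl⟩, _, ⟨v, rfl⟩, rfl⟩
    exact ⟨u ++ v, word_append g u v⟩
  add_mem' := add_mem
  algebraMap_mem' c := by
    rw [Algebra.algebraMap_eq_smul_one]
    exact Submodule.smul_mem _ _ (Submodule.subset_span ⟨[], rfl⟩)
  star_mem' := by
    intro a ha
    induction ha using Submodule.span_induction with
    | mem x hx =>
      obtain ⟨u, rfl⟩ := hx
      exact Submodule.subset_span ⟨u.reverse, (star_word g hg u).symm⟩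
    | zero => rw [star_zero]; exact zero_mem _
    | add x y _ _ hx hy => rw [star_add]; exact add_mem hx hy
    | smul c x _ hx => rw [star_smul]; exact Submodule.smul_mem _ _ hx

theorem gen_mem_wordAlg {A ι : Type} [Ring A] [StarRing A] [Algebra ℂ A] [StarModule ℂ A]
    (g : ι → A) (hg : ∀ i, star (g i) = g i) (i : ι) : g i ∈ wordAlg g hg :=
  Submodule.subset_span ⟨[i], by simp [word]⟩

theorem map_word {A B ι G : Type} [Monoid A] [Monoid B] [FunLike G A B] [MonoidHomClass G A B]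
    (f : G) (g : ι → A) (w : List ι) : f (word g w) = word (fun i => f (g i)) w := by
  induction w with
  | nil => exact map_one f
  | cons i w ih => rw [word_cons, word_cons, map_mul, ih]

variable {n : ℕ}

/-- A property holding for all sufficiently good microstates. -/
def Ev (φ : List (Fin n) → ℂ) (Q : (k : ℕ) → (Fin n × Fin k × Fin k → ℝ) → Prop) : Prop :=
  ∃ (m : ℕ) (δ : ℝ), 0 < δ ∧ ∀ (R : ℝ) (k : ℕ) (x : Fin n × Fin k × Fin k → ℝ), 1 ≤ k →
    x ∈ microstates φ R m k δ → Q k x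

theorem microstates_mono {φ : List (Fin n) → ℂ} {R : ℝ} {m m' k : ℕ} {δ δ' : ℝ} (hm : m ≤ m')
    (hδ : δ' ≤ δ) : microstates φ R m' k δ' ⊆ microstates φ R m k δ :=
  fun _ hx => ⟨hx.1, fun w h1 h2 => (hx.2 w h1 (h2.trans hm)).trans_le hδ⟩

theorem Ev.of_forall {φ : List (Fin n) → ℂ} {Q : (k : ℕ) → (Fin n × Fin k × Fin k → ℝ) → Prop}
    (h : ∀ k x, 1 ≤ k → Q k x) : Ev φ Q :=
  ⟨0, 1, one_pos, fun _ k x hk _ => h k x hk⟩

theorem Ev.mono {φ : List (Fin n) → ℂ} {Q Q' : (k : ℕ) → (Fin n × Fin k × Fin k → ℝ) → Prop}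
    (h : Ev φ Q) (h' : ∀ k x, 1 ≤ k → Q k x → Q' k x) : Ev φ Q' := by
  obtain ⟨m, δ, hδ, h⟩ := h
  exact ⟨m, δ, hδ, fun R k x hk hx => h' k x hk (h R k x hk hx)⟩

theorem Ev.and {φ : List (Fin n) → ℂ} {Q Q' : (k : ℕ) → (Fin n × Fin k × Fin k → ℝ) → Prop}
    (h : Ev φ Q) (h' : Ev φ Q') : Ev φ fun k x => Q k x ∧ Q' k x := by
  obtain ⟨m, δ, hδ, h⟩ := h
  obtain ⟨m', δ', hδ', h'⟩ := h'
  exact ⟨max m m', min δ δ', lt_min hδ hδ', fun R k x hk hx =>
    ⟨h R k x hk (microstates_mono (le_max_left _ _) (min_le_left _ _) hx),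
      h' R k x hk (microstates_mono (le_max_right _ _) (min_le_right _ _) hx)⟩⟩

theorem Ev.all {φ : List (Fin n) → ℂ} {ι : Type} [Fintype ι]
    {Q : ι → (k : ℕ) → (Fin n × Fin k × Fin k → ℝ) → Prop}
    (h : ∀ i, Ev φ (Q i)) : Ev φ fun k x => ∀ i, Q i k x := by
  classical
  have key : ∀ s : Finset ι, Ev φ fun k x => ∀ i ∈ s, Q i k x := by
    intro s
    induction s using Finset.induction_on with
    | empty => exact Ev.of_forall fun _ _ _ => by simp
    | insert a s _ ih =>
      refine ((h a).and ih).mono fun k x _ hx i hi => ?_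
      rcases Finset.mem_insert.1 hi with rfl | hi
      · exact hx.1
      · exact hx.2 i hi
  exact (key Finset.univ).mono fun k x _ hx i => hx i (Finset.mem_univ i)

variable {H : Type} [NormedAddCommGroup H] [InnerProductSpace ℂ H] [CompleteSpace H]

variable (n) in
/-- All matrix tuples. -/
abbrev Idx : Type := Σ k : ℕ, (Fin n × Fin k × Fin k → ℝ)

variable (n H) in
/-- The product algebra. -/
abbrev Big : Type := ((κ : Idx n) → Matrix (Fin κ.1) (Fin κ.1) ℂ) × Bdd H

/-- The generators of the product algebra. -/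
noncomputable def bigGen (X : Fin n → Bdd H) (i : Fin n) : Big n H := (fun κ => tuple κ.2 i, X i)

theorem star_bigGen {X : Fin n → Bdd H} (hX : ∀ i, star (X i) = X i) (i : Fin n) :
    star (bigGen X i) = bigGen X i := by
  refine Prod.ext (funext fun κ => ?_) (hX i)
  rw [Prod.fst_star, Pi.star_apply, Matrix.star_eq_conjTranspose]
  exact (herm_isHermitian fun p => κ.2 (i, p)).eq

/-- Evaluation at a matrix tuple. -/
noncomputable def pi1 (κ : Idx n) : Big n H →⋆ₐ[ℂ] Matrix (Fin κ.1) (Fin κ.1) ℂ :=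
  (Pi.evalStarAlgHom ℂ (fun κ : Idx n => Matrix (Fin κ.1) (Fin κ.1) ℂ) κ).comp
    (StarAlgHom.fst ℂ _ _)

/-- Evaluation at the operators. -/
noncomputable def pi2 : Big n H →⋆ₐ[ℂ] Bdd H := StarAlgHom.snd ℂ _ _

theorem pi1_gen (X : Fin n → Bdd H) (κ : Idx n) (i : Fin n) :
    pi1 κ (bigGen X i) = tuple κ.2 i := rfl

theorem pi2_gen (X : Fin n → Bdd H) (i : Fin n) : pi2 (bigGen X i) = X i := rfl

theorem transfer {Ω : H} (hΩ : ‖Ω‖ = 1) {X : Fin n → Bdd H} (hX : ∀ i, star (X i) = X i)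
    (p : Big n H) (hp : p ∈ wordAlg (bigGen X) (star_bigGen hX)) (η : ℝ) (hη : 0 < η) :
    Ev (law Ω X) fun k x => ‖(pi1 ⟨k, x⟩ p).trace / k - tau Ω (pi2 p)‖ < η := by
  induction hp using Submodule.span_induction generalizing η with
  | mem x hx =>
    obtain ⟨w, rfl⟩ := hx
    refine ⟨w.length, η, hη, fun R k x hk hx => ?_⟩
    simp only [map_word]
    cases w with
    | nil =>
      have : (k : ℂ) ≠ 0 := by exact_mod_cast (by omega : k ≠ 0)
      simpa [word, tau_one hΩ, this] using hη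
    | cons i w => exact hx.2 _ (by simp) le_rfl
  | zero => exact Ev.of_forall fun k x _ => by simpa [tau_zero] using hη
  | add x y _ _ hx hy =>
    refine ((hx (η / 2) (by positivity)).and (hy (η / 2) (by positivity))).mono
      fun k z _ h => ?_
    rw [map_add, map_add, Matrix.trace_add, tau_add, add_div, add_sub_add_comm]
    exact (norm_add_le _ _).trans_lt (by linarith [h.1, h.2])
  | smul c x _ hx =>
    refine (hx (η / (‖c‖ + 1)) (by positivity)).mono fun k z _ h => ?_
    rw [map_smul, map_smul, Matrix.trace_smul, tau_smul, smul_eq_mul, mul_div_assoc, ← mul_sub,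
      norm_mul]
    rw [lt_div_iff₀ (by positivity)] at h
    nlinarith [norm_nonneg c, norm_nonneg ((pi1 ⟨k, z⟩ x).trace / k - tau Ω (pi2 x))]

/-- Real coordinates of a matrix. -/
def coord {k : ℕ} : Matrix (Fin k) (Fin k) ℂ →ₗ[ℝ] (Fin k × Fin k → ℝ) where
  toFun B p := (B p.1 p.2).re + (B p.1 p.2).im
  map_add' B B' := by
    funext p
    simp only [Matrix.add_apply, Complex.add_re, Complex.add_im, Pi.add_apply]
    ring
  map_smul' r B := by
    funext p
    simp only [Matrix.smul_apply, Complex.real_smul, Complex.re_ofReal_mul, Complex.im_ofReal_mul,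
      RingHom.id_apply, Pi.smul_apply, smul_eq_mul]
    ring

theorem coord_herm {k : ℕ} (x : Fin k × Fin k → ℝ) : coord (herm x) = x := by
  funext p
  simp [coord, herm]
  ring

theorem sum_coord_sq_le {k : ℕ} (B : Matrix (Fin k) (Fin k) ℂ) :
    ∑ p, coord B p ^ 2 ≤ 2 * (star B * B).trace.re := by
  rw [Fintype.sum_prod_type, Finset.sum_comm]
  simp only [Matrix.trace, Matrix.diag, Matrix.mul_apply, Complex.re_sum, Finset.mul_sum,
    Matrix.star_apply]
  refine Finset.sum_le_sum fun j _ => Finset.sum_le_sum fun i _ => ?_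
  simp only [coord, LinearMap.coe_mk, AddHom.coe_mk, Complex.star_def, Complex.mul_re,
    Complex.conj_re, Complex.conj_im]
  nlinarith [sq_nonneg ((B i j).re - (B i j).im)]

theorem transfer_hs {Ω : H} (hΩ : ‖Ω‖ = 1) {X : Fin n → Bdd H} (hX : ∀ i, star (X i) = X i)
    (p : Big n H) (hp : p ∈ wordAlg (bigGen X) (star_bigGen hX)) (η : ℝ) (hη : 0 < η) :
    Ev (law Ω X) fun k x => ∑ q, coord (pi1 ⟨k, x⟩ p) q ^ 2 ≤ 2 * k * (‖pi2 p Ω‖ ^ 2 + η) := by
  refine (transfer hΩ hX _ (mul_mem (star_mem hp) hp) η hη).mono fun k x hk h => ?_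
  refine (sum_coord_sq_le _).trans ?_
  rw [map_mul, map_mul, map_star, map_star, tau_star_mul, inner_self_eq_norm_sq_to_K] at h
  have h2 := (Complex.re_le_norm _).trans_lt h
  have hk' : (0 : ℝ) < k := by exact_mod_cast hk
  rw [Complex.sub_re, Complex.div_natCast_re] at h2
  have h3 : ((RCLike.ofReal ‖pi2 p Ω‖ : ℂ) ^ 2).re = ‖pi2 p Ω‖ ^ 2 := by
    rw [← RCLike.ofReal_pow]
    exact Complex.ofReal_re _
  rw [h3, sub_lt_iff_lt_add', div_lt_iff₀ hk'] at h2
  nlinarith

end Vale.Agent.P087
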