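import Vale.Agent.P087.Upper2
import Vale.Agent.P087.Tube
import Vale.Agent.P087.Limits

/-! The upper bound for the microstates free entropy. -/

set_option linter.unusedSectionVars false

namespace Vale.Agent.P087

open scoped InnerProductSpace
open MeasureTheory Filter

variable {n : ℕ}

/-- The approximate unitary determined by two of the variables. -/
noncomputable def uhat {A : Type} [Ring A] [Algebra ℂ A] (ε : ℝ) (x y : A) : A :=
  ((2 * ε : ℝ) : ℂ)⁻¹ • (x - Complex.I • y)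

/-- The linear parametrisation of the predicted coordinates. -/
noncomputable def predL {k : ℕ} (u C : Matrix (Fin k) (Fin k) ℂ) (e : Fin n → ℕ) :
    (ℝ × Matrix (Fin k) (Fin k) ℂ) →ₗ[ℝ] (Fin n × Fin k × Fin k → ℝ) where
  toFun z a := coord (z.1 • ev u C (e a.1) - dv u C z.2 (e a.1)) a.2
  map_add' z z' := by
    funext a
    rw [Pi.add_apply, ← Pi.add_apply (coord _), ← map_add, Prod.fst_add, Prod.snd_add, dv_add,
      add_smul, add_sub_add_comm]
  map_smul' r z := by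
    funext a
    rw [RingHom.id_apply, Pi.smul_apply, ← Pi.smul_apply r (coord _), ← map_smul, Prod.smul_fst,
      Prod.smul_snd, dv_smul, smul_sub, smul_assoc]

theorem finrank_predL {k : ℕ} (hk : 1 ≤ k) (u C : Matrix (Fin k) (Fin k) ℂ) (e : Fin n → ℕ) :
    Module.finrank ℝ (LinearMap.range (predL u C e)) ≤ 3 * k ^ 2 := by
  refine (LinearMap.finrank_range_le _).trans ?_
  rw [Module.finrank_prod, Module.finrank_self, Module.finrank_matrix,
    Complex.finrank_real_complex, Fintype.card_fin]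
  nlinarith

theorem vol_le_of {φ : List (Fin n) → ℂ} {R δ ε t c₁ c₂ : ℝ} {m k : ℕ} (hk : 1 ≤ k) (ht : 0 < t)
    (ht1 : t ≤ 1) (i₀ i₁ i₂ : Fin n) (e : Fin n → ℕ)
    (h1 : ∀ x ∈ microstates φ R m k δ, ∀ j, ∑ q, coord (tuple x j) q ^ 2 ≤ c₁ * k)
    (h2 : ∀ x ∈ microstates φ R m k δ, ∃ Δ, ∀ j, ¬ (j = i₀ ∨ j = i₁ ∨ j = i₂) →
      ∑ q, coord (tuple x j - ev (uhat ε (tuple x i₁) (tuple x i₂)) (tuple x i₀) (e j) +
        dv (uhat ε (tuple x i₁) (tuple x i₂)) (tuple x i₀) Δ (e j)) q ^ 2 ≤ c₂ * k * t)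
    (hc₂ : 0 ≤ c₂) :
    volume (microstates φ R m k δ) ≤ ENNReal.ofReal (Real.exp ((k : ℝ) ^ 2 *
      ((2 * n * c₁ + n * c₂ + n / 2 * Real.log Real.pi + (n - 6) / 2 * Real.log t) -
        n / 2 * Real.log k))) := by
  classical
  have hk' : (0 : ℝ) < k := by exact_mod_cast hk
  have hco : ∀ (x : Fin n × Fin k × Fin k → ℝ) j q, coord (tuple x j) q = x (j, q) :=
    fun x j q => by rw [tuple, coord_herm]
  refine (tubeVol _ (fun a : Fin n × Fin k × Fin k => a.1 = i₀ ∨ a.1 = i₁ ∨ a.1 = i₂) _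
    (microMeas n φ R m k δ) (n * (c₁ * k)) (n * (c₂ * k * t)) k (k / t) (3 * k ^ 2) hk'
    (le_div_self hk'.le ht ht1) ?_ ?_).trans (ENNReal.ofReal_le_ofReal (Real.exp_le_exp.2 ?_))
  · intro x hx
    rw [Fintype.sum_prod_type]
    refine (Finset.sum_le_sum fun j _ => ?_).trans (le_of_eq (b := n * (c₁ * k))
      (a := ∑ _j : Fin n, c₁ * k) (by simp))
    simpa only [hco] using h1 x hx j
  · intro y
    refine ⟨_, finrank_predL hk (uhat ε (tuple y i₁) (tuple y i₂)) (tuple y i₀) e,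
      fun x hx hxy => ?_⟩
    obtain ⟨Δ, hΔ⟩ := h2 x hx
    have ht : ∀ j, (j = i₀ ∨ j = i₁ ∨ j = i₂) → tuple x j = tuple y j := fun j hj => by
      unfold tuple
      congr 1
      funext p
      exact hxy (j, p) hj
    refine ⟨_, ⟨(1, Δ), rfl⟩, ?_⟩
    rw [← ht i₀ (by simp), ← ht i₁ (by simp), ← ht i₂ (by simp), Finset.sum_filter,
      Fintype.sum_prod_type]
    refine (Finset.sum_le_sum fun j _ => ?_).trans (le_of_eq (b := n * (c₂ * k * t))
      (a := ∑ _j : Fin n, c₂ * k * t) (by simp))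
    by_cases hj : j = i₀ ∨ j = i₁ ∨ j = i₂
    · simp only [hj, not_true, if_false, Finset.sum_const_zero]
      positivity
    · simp only [hj, not_false_iff, if_true]
      refine le_trans (le_of_eq (Finset.sum_congr rfl fun q _ => ?_)) (hΔ j hj)
      simp only [predL, LinearMap.coe_mk, AddHom.coe_mk, one_smul, map_add, map_sub, Pi.add_apply,
        Pi.sub_apply, hco]
      ring
  · have hcard : ((Finset.univ.filter fun a : Fin n × Fin k × Fin k =>
        a.1 = i₀ ∨ a.1 = i₁ ∨ a.1 = i₂).card : ℝ) ≤ 3 * k ^ 2 := by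
      have : (Finset.univ.filter fun a : Fin n × Fin k × Fin k =>
          a.1 = i₀ ∨ a.1 = i₁ ∨ a.1 = i₂) ⊆ ({i₀, i₁, i₂} : Finset (Fin n)) ×ˢ Finset.univ := by
        intro a ha
        simpa using ha
      have h3 := Finset.card_le_card this
      rw [Finset.card_product] at h3
      have h4 := h3.trans (Nat.mul_le_mul_right _ (Finset.card_le_three (a := i₀) (b := i₁)
        (c := i₂)))
      simp only [Finset.card_univ, Fintype.card_prod, Fintype.card_fin] at h4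
      rw [sq]
      exact_mod_cast h4
    have e1 : Real.log (k / t / k) = -Real.log t := by
      rw [← Real.log_inv]
      congr 1
      field_simp
    have e2 : Real.log (Real.pi / (k / t)) = Real.log Real.pi + Real.log t - Real.log k := by
      rw [Real.log_div Real.pi_ne_zero (by positivity), Real.log_div hk'.ne' ht.ne']
      ring
    have e3 : k / t * (n * (c₂ * k * t)) = k ^ 2 * (n * c₂) := by field_simp
    have hl : 0 ≤ -Real.log t := neg_nonneg.2 (Real.log_nonpos ht.le ht1)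
    rw [e1, e2, e3]
    simp only [Fintype.card_prod, Fintype.card_fin]
    push_cast
    nlinarith [mul_le_mul_of_nonneg_right hcard hl]

theorem chi_upper (i₀ i₁ i₂ : Fin n) (e : Fin n → ℕ) : ∃ C : ℝ, ∀ (H : Type)
    [NormedAddCommGroup H] [InnerProductSpace ℂ H] [CompleteSpace H] (M : VonNeumannAlgebra H)
    (Ω : H) (X : Fin n → Bdd H) (a : Bdd H) (ε : ℝ), IsTracial M Ω → 0 < ε → ε ≤ 1 →
    (∀ j, X j ∈ M) → (∀ j, star (X j) = X j) → (∀ j, ‖X j‖ ≤ 4) → a ∈ M → ‖a‖ ≤ 1 →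
    ‖uhat ε (X i₁) (X i₂) - a‖ ≤ 2 * ε →
    (∀ j, ¬ (j = i₀ ∨ j = i₁ ∨ j = i₂) → ‖X j - ev a (X i₀) (e j)‖ ≤ 4 * ε ^ 2) →
    chi (law Ω X) ≤ ((C + (n - 6) / 2 * Real.log (ε ^ 4) : ℝ) : EReal) := by
  choose c hc hc' using fun j => taylor (e j)
  have hcs : 0 ≤ ∑ j, c j := Finset.sum_nonneg fun j _ => hc j
  refine ⟨2 * n * 34 + n * (2 * ((5 + 4 * ∑ j, c j) ^ 2 + 1)) + n / 2 * Real.log Real.pi,
    fun H _ _ _ M Ω X a ε hM hε hε1 hXM hXs hXn haM ha hu hrel => ?_⟩
  let Pa := wordAlg (bigGen X) (star_bigGen hXs)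
  let B := Pa.map (pi2 : Big n H →⋆ₐ[ℂ] Bdd H)
  have hg : ∀ i, bigGen X i ∈ Pa := gen_mem_wordAlg _ _
  have hBM : ∀ p ∈ B, p ∈ M := by
    rintro _ ⟨p, hp, rfl⟩
    change pi2 p ∈ M
    induction hp using Submodule.span_induction with
    | mem x hx =>
      obtain ⟨w, rfl⟩ := hx
      rw [map_word]
      exact word_mem M _ hXM w
    | zero => rw [map_zero]; exact zero_mem M
    | add x y _ _ hx hy => rw [map_add]; exact add_mem hx hy
    | smul r x _ hx =>
      rw [map_smul]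
      exact SMulMemClass.smul_mem (s := M.toStarSubalgebra) r hx
  set U : Big n H := uhat ε (bigGen X i₁) (bigGen X i₂) with hU
  have hUP : U ∈ Pa := SMulMemClass.smul_mem _ (sub_mem (hg _) (SMulMemClass.smul_mem _ (hg _)))
  set u := uhat ε (X i₁) (X i₂) with hudef
  have hUu : pi2 U = u := by simp only [hU, hudef, uhat, map_smul, map_sub, pi2_gen]
  have huB : u ∈ B := ⟨U, hUP, hUu⟩
  have hXB : ∀ j, X j ∈ B := fun j => ⟨_, hg j, rfl⟩
  obtain ⟨_, ⟨Δ, hΔ, rfl⟩, hnear⟩ := exists_near_sol hM B hBM huB (hXB i₀)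
    (sub_mem (hBM u huB) haM) e (ε ^ 2) (by positivity)
  have hw : ∀ j, bigGen X j - ev U (bigGen X i₀) (e j) + dv U (bigGen X i₀) Δ (e j) ∈ Pa :=
    fun j => add_mem (sub_mem (hg j) (ev_mem hUP (hg _) _)) (dv_mem hUP (hg _) hΔ _)
  obtain ⟨m, δ, hδ, hev⟩ := (Ev.all fun j => transfer_hs hM.1 hXs _ (hg j) 1 one_pos).and
    (Ev.all fun j => transfer_hs hM.1 hXs _ (hw j) (ε ^ 4) (by positivity))
  refine (chiBounds n _ _).1 fun R _ => ⟨m, δ, hδ, ?_⟩
  filter_upwards [eventually_ge_atTop 1] with k hk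
  have hk' : (0 : ℝ) ≤ k := by positivity
  refine vol_le_of (ε := ε) hk (by positivity) (pow_le_one₀ hε.le hε1) i₀ i₁ i₂ e
    (fun x hx j => ?_) (fun x hx => ⟨pi1 ⟨k, x⟩ Δ, fun j hj => ?_⟩) (by positivity)
  · refine ((hev R k x hk hx).1 j).trans ?_
    have h1 : ‖X j Ω‖ ≤ 4 := by
      refine ((X j).le_opNorm Ω).trans ?_
      rw [hM.1, mul_one]
      exact hXn j
    have h2 := pow_le_pow_left₀ (norm_nonneg _) h1 2
    rw [pi2_gen]
    nlinarith
  · have h0 := (hev R k x hk hx).2 j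
    have hg1 : ∀ i, pi1 ⟨k, x⟩ (bigGen X i) = tuple x i := fun i => rfl
    have hU1 : pi1 ⟨k, x⟩ U = uhat ε (tuple x i₁) (tuple x i₂) := by
      simp only [hU, uhat, map_smul, map_sub, hg1]
    simp only [map_add, map_sub, map_ev, map_dv, hg1, pi2_gen, hUu, hU1] at h0
    simp only [map_add, map_sub]
    refine h0.trans ?_
    have h1 := hnear j (X j - ev u (X i₀) (e j)) (sub_mem (hXB j) (ev_mem huB (hXB _) _))
    obtain ⟨-, -, h2⟩ := hc' j (Bdd H) u a (u - a) (X i₀) (by abel) ha (by linarith) (hXn _)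
    have h3 : ‖X j - ev u (X i₀) (e j) + dv u (X i₀) (u - a) (e j)‖ ≤
        4 * ε ^ 2 + c j * ‖u - a‖ ^ 2 := by
      have e1 : X j - ev u (X i₀) (e j) + dv u (X i₀) (u - a) (e j) =
          (X j - ev a (X i₀) (e j)) +
          (ev a (X i₀) (e j) - ev u (X i₀) (e j) + dv u (X i₀) (u - a) (e j)) := by abel
      rw [e1]
      exact (norm_add_le _ _).trans (add_le_add (hrel j hj) h2)
    have h4 : c j * ‖u - a‖ ^ 2 ≤ (∑ j, c j) * (2 * ε) ^ 2 :=
      mul_le_mul (Finset.single_le_sum (fun j _ => hc j) (Finset.mem_univ j))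
        (pow_le_pow_left₀ (norm_nonneg _) hu 2) (by positivity) hcs
    have h5 : ‖(X j - ev u (X i₀) (e j) + dv u (X i₀) (pi2 Δ) (e j)) Ω‖ ≤
        (5 + 4 * ∑ j, c j) * ε ^ 2 := by
      refine h1.trans ?_
      nlinarith
    have h6 := pow_le_pow_left₀ (norm_nonneg _) h5 2
    nlinarith

end Vale.Agent.P087
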